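import Vale.Agent.P002.Reg

set_option linter.unusedVariables false

namespace Vale.Agent.P002

open Matrix Filter Topology

variable {r : ℕ} {ι : Type} {f : ι → Mat r}

theorem blocks_ext {A B : Mat r} (h : ∀ v, A *ᵥ v = B *ᵥ v) : A = B := by
  apply Matrix.toLin'.injective
  ext1
  ext1
  simp only [LinearMap.comp_apply, Matrix.toLin'_apply, h]

theorem blocks_cent_mul {A B : Mat r} (hA : A ∈ cent f) (hB : B ∈ cent f) : A * B ∈ cent f := by
  intro k
  rw [mul_assoc, hB k, ← mul_assoc, hA k, mul_assoc]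

theorem blocks_one_mem : (1 : Mat r) ∈ cent f := by
  intro k
  rw [one_mul, mul_one]

/-- the projection onto an invariant subspace along an invariant complement -/
theorem blocks_proj (h : Semis f) (N : Submodule ℂ (Fin r → ℂ)) (hN : Inv f N) :
    ∃ p : Mat r, p ∈ cent f ∧ (∀ v, p *ᵥ v ∈ N) ∧ ∀ v ∈ N, p *ᵥ v = v := by
  obtain ⟨N', hN', hc⟩ := h N hN
  have e : ∀ v, LinearMap.toMatrix' (N.projection N' hc) *ᵥ v = N.projection N' hc v := by
    intro v
    rw [← Matrix.toLin'_apply, Matrix.toLin'_toMatrix']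
  refine ⟨LinearMap.toMatrix' (N.projection N' hc), fun k => blocks_ext fun v => ?_,
    fun v => ?_, fun v hv => ?_⟩
  · obtain ⟨n, hn, n', hn', rfl⟩ := Submodule.mem_sup.1
      (show v ∈ N ⊔ N' by rw [hc.sup_eq_top]; trivial)
    rw [← Matrix.mulVec_mulVec, ← Matrix.mulVec_mulVec, e, e, Matrix.mulVec_add, map_add, map_add,
      Submodule.projection_apply_of_mem_left hc hn, Submodule.projection_apply_of_mem_right hc hn',
      Submodule.projection_apply_of_mem_left hc (hN k n hn),
      Submodule.projection_apply_of_mem_right hc (hN' k n' hn'), add_zero, add_zero]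
  · rw [e]
    exact Submodule.projection_apply_mem hc v
  · rw [e]
    exact Submodule.projection_apply_of_mem_left hc hv

theorem blocks_eigen {E Y : Mat r} (hE0 : E ≠ 0) (hE : E * E = E) (hEY : E * Y = Y) :
    ∃ (c : ℂ) (v : Fin r → ℂ), v ≠ 0 ∧ E *ᵥ v = v ∧ Y *ᵥ v = c • v := by
  let V : Submodule ℂ (Fin r → ℂ) := LinearMap.ker (Matrix.toLin' E - LinearMap.id)
  have hV : ∀ v, v ∈ V ↔ E *ᵥ v = v := by
    intro v
    simp only [V, LinearMap.mem_ker, LinearMap.sub_apply, Matrix.toLin'_apply, LinearMap.id_apply,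
      sub_eq_zero]
  have hmap : ∀ v ∈ V, Matrix.toLin' Y v ∈ V := by
    intro v _
    rw [hV, Matrix.toLin'_apply, Matrix.mulVec_mulVec, hEY]
  have hnt : Nontrivial V := by
    rw [Submodule.nontrivial_iff_ne_bot]
    intro hb
    apply hE0
    refine blocks_ext fun v => ?_
    have : E *ᵥ v ∈ V := by rw [hV, Matrix.mulVec_mulVec, hE]
    rw [hb, Submodule.mem_bot] at this
    rw [this, Matrix.zero_mulVec]
  obtain ⟨c, hc⟩ := Module.End.exists_eigenvalue ((Matrix.toLin' Y).restrict hmap)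
  obtain ⟨v, hv⟩ := hc.exists_hasEigenvector
  refine ⟨c, v, fun h0 => hv.2 (Subtype.ext h0), (hV v).1 v.2, ?_⟩
  have := congrArg Subtype.val hv.apply_eq_smul
  simpa [LinearMap.restrict_apply] using this

theorem blocks_split (h : Semis f) {E Y : Mat r} (hE0 : E ≠ 0) (hE : E * E = E)
    (hEc : E ∈ cent f) (hYc : Y ∈ cent f) (hY : E * Y * E = Y) (hn : ∀ c : ℂ, Y ≠ c • E) :
    ∃ q : Mat r, q ∈ cent f ∧ q * q = q ∧ q * E = q ∧ E * q = q ∧ q ≠ 0 ∧ q ≠ E := by
  have hEY : E * Y = Y := by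
    rw [← hY, ← mul_assoc, ← mul_assoc, hE]
  have hYE : Y * E = Y := by
    rw [← hY, mul_assoc, hE]
  obtain ⟨c, v, hv0, hv1, hv2⟩ := blocks_eigen hE0 hE hEY
  let N : Submodule ℂ (Fin r → ℂ) :=
    LinearMap.ker (Matrix.toLin' E - LinearMap.id) ⊓
      LinearMap.ker (Matrix.toLin' Y - c • LinearMap.id)
  have hN : ∀ w, w ∈ N ↔ E *ᵥ w = w ∧ Y *ᵥ w = c • w := by
    intro w
    simp only [N, Submodule.mem_inf, LinearMap.mem_ker, LinearMap.sub_apply, Matrix.toLin'_apply,
      LinearMap.smul_apply, LinearMap.id_apply, sub_eq_zero]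
  have hinv : Inv f N := by
    intro k w hw
    rw [hN] at hw ⊢
    constructor
    · rw [Matrix.mulVec_mulVec, hEc k, ← Matrix.mulVec_mulVec, hw.1]
    · rw [Matrix.mulVec_mulVec, hYc k, ← Matrix.mulVec_mulVec, hw.2, Matrix.mulVec_smul]
  obtain ⟨p, hpc, hp1, hp2⟩ := blocks_proj h N hinv
  have hEp : E * p = p := blocks_ext fun w => by
    rw [← Matrix.mulVec_mulVec, ((hN _).1 (hp1 w)).1]
  have hpp : p * p = p := blocks_ext fun w => by
    rw [← Matrix.mulVec_mulVec, hp2 _ (hp1 w)]
  refine ⟨p * E, blocks_cent_mul hpc hEc, ?_, ?_, ?_, fun h0 => hv0 ?_, fun h0 => hn c ?_⟩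
  · rw [mul_assoc, ← mul_assoc E, hEp, ← mul_assoc, hpp]
  · rw [mul_assoc, hE]
  · rw [← mul_assoc, hEp]
  · have : (p * E) *ᵥ v = v := by
      rw [← Matrix.mulVec_mulVec, hv1, hp2 v ((hN v).2 ⟨hv1, hv2⟩)]
    rw [← this, h0, Matrix.zero_mulVec]
  · refine blocks_ext fun w => ?_
    have h1 : E *ᵥ w ∈ N := by
      rw [← h0, ← Matrix.mulVec_mulVec]
      exact hp1 _
    rw [← hYE, ← Matrix.mulVec_mulVec, ((hN _).1 h1).2, Matrix.smul_mulVec]

/-- families of nonzero orthogonal idempotents in the commutant with sum one -/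
def blocksFam (f : ι → Mat r) (m : ℕ) : Prop :=
  ∃ e : Fin m → Mat r, (∀ i, e i ≠ 0) ∧ (∀ i, e i * e i = e i) ∧
    (∀ i j, i ≠ j → e i * e j = 0) ∧ ∑ i, e i = 1 ∧ (∀ i, e i ∈ cent f)

theorem blocks_bound {m : ℕ} (h : blocksFam f m) : m ≤ r := by
  obtain ⟨e, h0, h1, h2, -, -⟩ := h
  have hv : ∀ i, ∃ v, e i *ᵥ v ≠ 0 := by
    intro i
    by_contra hc
    push Not at hc
    exact h0 i (blocks_ext fun v => by rw [hc v, Matrix.zero_mulVec])
  choose v hv using hv
  have hli : LinearIndependent ℂ fun i => e i *ᵥ v i := by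
    rw [Fintype.linearIndependent_iff]
    intro c hc j
    have h3 := congrArg (fun w => e j *ᵥ w) hc
    simp only [Matrix.mulVec_sum, Matrix.mulVec_smul, Matrix.mulVec_mulVec, Matrix.mulVec_zero]
      at h3
    rw [Finset.sum_eq_single j (fun i _ hi => by rw [h2 j i hi.symm, Matrix.zero_mulVec, smul_zero])
      (fun h => absurd (Finset.mem_univ j) h), h1] at h3
    exact (smul_eq_zero.1 h3).resolve_right (hv j)
  simpa using hli.fintype_card_le_finrank

theorem blocks_step (h : Semis f) {m : ℕ} (hm : blocksFam f m) (hn : ¬ Blocks f m) :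
    blocksFam f (m + 1) := by
  obtain ⟨e, h0, h1, h2, h3, h4⟩ := hm
  have : ∃ i, ∃ Y ∈ cent f, e i * Y * e i = Y ∧ ∀ c : ℂ, Y ≠ c • e i := by
    by_contra hc
    push Not at hc
    exact hn ⟨e, h0, h1, h2, h3, h4, hc⟩
  obtain ⟨i, Y, hYc, hY, hc⟩ := this
  obtain ⟨q, q1, q2, q3, q4, q5, q6⟩ := blocks_split h (h0 i) (h1 i) (h4 i) hYc hY hc
  have hq : ∀ j, j ≠ i → q * e j = 0 := fun j hj => by
    rw [← q3, mul_assoc, h2 i j hj.symm, mul_zero]
  have hq' : ∀ j, j ≠ i → e j * q = 0 := fun j hj => by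
    rw [← q4, ← mul_assoc, h2 j i hj, zero_mul]
  let e' : Fin m → Mat r := Function.update e i (e i - q)
  have ei : e' i = e i - q := Function.update_self _ _ _
  have ej : ∀ j, j ≠ i → e' j = e j := fun j hj => Function.update_of_ne hj _ _
  have a1 : ∀ j, q * e' j = 0 := by
    intro j
    by_cases hj : j = i
    · rw [hj, ei, mul_sub, q3, q2, sub_self]
    · rw [ej j hj, hq j hj]
  have a2 : ∀ j, e' j * q = 0 := by
    intro j
    by_cases hj : j = i
    · rw [hj, ei, sub_mul, q4, q2, sub_self]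
    · rw [ej j hj, hq' j hj]
  have a3 : ∀ j l, j ≠ l → e' j * e' l = 0 := by
    intro j l hjl
    by_cases hj : j = i
    · have hl : l ≠ i := fun hl => hjl (hj.trans hl.symm)
      rw [hj, ei, ej l hl, sub_mul, h2 i l hl.symm, hq l hl, sub_self]
    · by_cases hl : l = i
      · rw [hl, ei, ej j hj, mul_sub, h2 j i hj, hq' j hj, sub_self]
      · rw [ej j hj, ej l hl, h2 j l hjl]
  refine ⟨Fin.cons q e', fun j => ?_, fun j => ?_, fun j l hjl => ?_, ?_, fun j => ?_⟩
  · refine Fin.cases ?_ (fun j => ?_) j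
    · exact q5
    · rw [Fin.cons_succ]
      by_cases hj : j = i
      · rw [hj, ei]
        exact sub_ne_zero.2 q6.symm
      · rw [ej j hj]
        exact h0 j
  · refine Fin.cases ?_ (fun j => ?_) j
    · exact q2
    · rw [Fin.cons_succ]
      by_cases hj : j = i
      · rw [hj, ei, sub_mul, mul_sub, mul_sub, h1, q2, q3, q4, sub_self, sub_zero]
      · rw [ej j hj]
        exact h1 j
  · induction j using Fin.cases with
    | zero =>
      induction l using Fin.cases with
      | zero => exact absurd rfl hjl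
      | succ l => exact a1 l
    | succ j =>
      induction l using Fin.cases with
      | zero => exact a2 j
      | succ l => exact a3 j l fun hh => hjl (by rw [hh])
  · rw [Fin.sum_cons, ← h3, ← Finset.add_sum_erase _ _ (Finset.mem_univ i),
      ← Finset.add_sum_erase _ e (Finset.mem_univ i), ei, ← add_assoc, add_sub_cancel,
      Finset.sum_congr rfl fun j hj => ej j (Finset.ne_of_mem_erase hj)]
  · refine Fin.cases ?_ (fun j => ?_) j
    · exact q1
    · rw [Fin.cons_succ]
      by_cases hj : j = i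
      · rw [hj, ei]
        exact sub_mem (h4 i) q1
      · rw [ej j hj]
        exact h4 j

/-- Hint: consider families of nonzero orthogonal idempotents in `cent f` with sum `1`; their
number is at most `r` (the trace of a nonzero idempotent is its rank, or linear independence of
vectors `v i ≠ 0` in the ranges). Take a family with the maximal number of members. If
`Y = e Y e ∈ cent f` is not a multiple of `e`, take an eigenvalue `c` of `Y` on the range of `e`,
`N = ker (Y - c) ⊓ range e`, an invariant complement `N'`, the projection `p` onto `N` along `N'`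
(it lies in `cent f`), and split `e = p * e + (e - p * e)`. -/
theorem Semis.blocks (h : Semis f) : ∃ m, Blocks f m := by
  by_contra hc
  push Not at hc
  obtain ⟨m, hm⟩ : ∃ m, blocksFam f m := by
    by_cases h1 : (1 : Mat r) = 0
    · exact ⟨0, Fin.elim0, fun i => i.elim0, fun i => i.elim0, fun i => i.elim0,
        by rw [h1]; simp, fun i => i.elim0⟩
    · exact ⟨1, fun _ => 1, fun _ => h1, fun _ => one_mul _,
        fun i j hij => absurd (Subsingleton.elim i j) hij, by simp, fun _ => blocks_one_mem⟩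
  have key : ∀ k, blocksFam f (m + k) := by
    intro k
    induction k with
    | zero => exact hm
    | succ k ih => exact blocks_step h ih (hc _)
  have := blocks_bound (key (r + 1))
  omega

theorem Blocks.schur {m : ℕ} (h : Blocks f m) (hm : m ≤ 1) : Schur f := by
  obtain ⟨e, -, -, -, h3, -, h5⟩ := h
  intro Y hY
  rcases Nat.le_one_iff_eq_zero_or_eq_one.1 hm with rfl | rfl
  · refine ⟨0, ?_⟩
    rw [← mul_one Y, ← h3]
    simp
  · rw [Fin.sum_univ_one] at h3
    have := h5 0 Y hY (by rw [h3, one_mul, mul_one])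
    rwa [h3] at this

/-- common eigenvectors -/
def blocksEig (f : ι → Mat r) : Set (Fin r → ℂ) := {v | ∀ k, ∃ c : ℂ, f k *ᵥ v = c • v}

theorem blocks_diag_of_span (h : Submodule.span ℂ (blocksEig f) = ⊤) :
    ∃ (P : Mat r) (d : ι → Fin r → ℂ), P.det ≠ 0 ∧ ∀ i, f i = P * diagonal (d i) * P⁻¹ := by
  obtain ⟨b, hb, hsp, hli⟩ := exists_linearIndependent ℂ (blocksEig f)
  let B : Module.Basis b ℂ (Fin r → ℂ) := Module.Basis.mk hli (by
    rw [Subtype.range_coe_subtype, Set.ofPred_mem_eq, hsp, h])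
  let B' : Module.Basis (Fin r) ℂ (Fin r → ℂ) := B.reindex (B.indexEquiv (Pi.basisFun ℂ (Fin r)))
  have hB : ∀ j, B' j ∈ blocksEig f := by
    intro j
    simp only [B', B, Module.Basis.reindex_apply, Module.Basis.mk_apply]
    exact hb (Subtype.prop _)
  choose c hc using hB
  let P : Mat r := Matrix.of fun i j => B' j i
  have hP : P.det ≠ 0 := by
    have : IsUnit P := Matrix.linearIndependent_cols_iff_isUnit.1 B'.linearIndependent
    exact ((Matrix.isUnit_iff_isUnit_det P).1 this).ne_zero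
  refine ⟨P, fun k j => c j k, hP, fun k => ?_⟩
  have e : f k * P = P * diagonal fun j => c j k := by
    ext i j
    rw [Matrix.mul_diagonal, mul_comm]
    exact congrFun (hc j k) i
  rw [← e, mul_assoc, mul_inv'' hP, mul_one]

theorem blocks_semis_of_span (h : Submodule.span ℂ (blocksEig f) = ⊤) : Semis f := by
  intro N hN
  obtain ⟨N', ⟨hN', hd⟩, hmax⟩ := (wellFounded_gt (α := Submodule ℂ (Fin r → ℂ))).has_min
    {N' | Inv f N' ∧ Disjoint N N'}
    ⟨⊥, fun k v hv => by
      rw [Submodule.mem_bot] at hv ⊢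
      rw [hv, Matrix.mulVec_zero], disjoint_bot_right⟩
  refine ⟨N', hN', hd, ?_⟩
  rw [codisjoint_iff, eq_top_iff, ← h, Submodule.span_le]
  intro v hv
  by_contra hvn
  refine hmax (N' ⊔ Submodule.span ℂ {v}) ⟨fun k w hw => ?_, ?_⟩ ?_
  · obtain ⟨n, hn, u, hu, rfl⟩ := Submodule.mem_sup.1 hw
    obtain ⟨a, rfl⟩ := Submodule.mem_span_singleton.1 hu
    obtain ⟨c, hc⟩ := hv k
    rw [Matrix.mulVec_add, Matrix.mulVec_smul, hc, smul_smul]
    exact Submodule.add_mem_sup (hN' k n hn) (Submodule.mem_span_singleton.2 ⟨_, rfl⟩)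
  · rw [Submodule.disjoint_def]
    intro x hx hw
    obtain ⟨n, hn, u, hu, rfl⟩ := Submodule.mem_sup.1 hw
    obtain ⟨a, rfl⟩ := Submodule.mem_span_singleton.1 hu
    by_cases ha : a = 0
    · rw [ha, zero_smul, add_zero] at hx ⊢
      exact Submodule.disjoint_def.1 hd n hx hn
    · exfalso
      apply hvn
      have e : v = a⁻¹ • ((n + a • v) - n) := by
        rw [add_sub_cancel_left, smul_smul, inv_mul_cancel₀ ha, one_smul]
      rw [e]
      exact Submodule.smul_mem _ _
        (sub_mem (Submodule.mem_sup_left hx) (Submodule.mem_sup_right hn))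
  · refine lt_of_le_of_ne le_sup_left fun he => hvn ?_
    have : v ∈ N' := by
      rw [he]
      exact Submodule.mem_sup_right (Submodule.mem_span_singleton_self v)
    exact Submodule.mem_sup_right this

/-- commuting semisimple families are diagonalizable: every block has rank one -/
theorem Semis.diag (h : Semis f) (hc : ∀ i j, f i * f j = f j * f i) :
    ∃ (P : Mat r) (d : ι → Fin r → ℂ), P.det ≠ 0 ∧ ∀ i, f i = P * diagonal (d i) * P⁻¹ := by
  obtain ⟨m, e, -, h1, -, h3, h4, h5⟩ := h.blocks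
  apply blocks_diag_of_span
  rw [eq_top_iff]
  intro v _
  have e1 : v = ∑ i, e i *ᵥ v := by
    rw [← Matrix.sum_mulVec, h3, Matrix.one_mulVec]
  rw [e1]
  refine Submodule.sum_mem _ fun i _ => Submodule.subset_span fun k => ?_
  obtain ⟨c, hc'⟩ := h5 i (e i * f k) (blocks_cent_mul (h4 i) (hc k)) (by
    rw [← mul_assoc, h1, mul_assoc, ← h4 i k, ← mul_assoc, h1])
  refine ⟨c, ?_⟩
  rw [Matrix.mulVec_mulVec, ← h4 i k, hc', Matrix.smul_mulVec]

theorem semis_of_diag {P : Mat r} (hP : P.det ≠ 0) (d : ι → Fin r → ℂ)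
    (h : ∀ i, f i = P * diagonal (d i) * P⁻¹) : Semis f := by
  apply blocks_semis_of_span
  rw [eq_top_iff]
  intro v _
  have e1 : v = ∑ j, (P⁻¹ *ᵥ v) j • (P *ᵥ Pi.single j 1) := by
    simp only [← Matrix.mulVec_smul]
    rw [← Matrix.mulVec_sum, ← pi_eq_sum_univ' (P⁻¹ *ᵥ v), Matrix.mulVec_mulVec, mul_inv'' hP,
      Matrix.one_mulVec]
  rw [e1]
  refine Submodule.sum_mem _ fun j _ => Submodule.smul_mem _ _
    (Submodule.subset_span fun k => ⟨d k j, ?_⟩)
  rw [h k, Matrix.mulVec_mulVec, mul_assoc, inv_mul' hP, mul_one, ← Matrix.mulVec_mulVec,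
    ← Matrix.mulVec_smul, Matrix.diagonal_mulVec_single]
  congr 1
  rw [← Pi.single_smul, smul_eq_mul]

end Vale.Agent.P002
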