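import Vale.Agent.P002.Gp

set_option linter.unusedVariables false

namespace Vale.Agent.P002

open Matrix Filter Topology

theorem chain_unit (F : Finset ℂ) :
    ∃ c : ℂ, c ∉ F ∧ c ≠ 0 ∧ IsIntegral ℤ c ∧ IsIntegral ℤ c⁻¹ := by
  have h3 : ((√3 : ℝ) : ℂ) ^ 2 = 3 := by
    rw [← Complex.ofReal_pow, Real.sq_sqrt (by norm_num)]
    norm_num
  have hi : IsIntegral ℤ ((√3 : ℝ) : ℂ) := by
    refine IsIntegral.of_pow two_pos ?_
    rw [h3]
    exact isIntegral_natCast 3
  have h2 : IsIntegral ℤ (2 : ℂ) := isIntegral_natCast 2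
  have hinv : (2 + ((√3 : ℝ) : ℂ))⁻¹ = 2 - ((√3 : ℝ) : ℂ) :=
    inv_eq_of_mul_eq_one_right (by linear_combination (-1 : ℂ) * h3)
  have hlt : (1 : ℝ) < 2 + √3 := by linarith [Real.sqrt_nonneg 3]
  have hinj : Function.Injective fun n : ℕ => (2 + ((√3 : ℝ) : ℂ)) ^ n := by
    intro m n h
    have h1 : (2 + √3 : ℝ) ^ m = (2 + √3 : ℝ) ^ n := by
      apply Complex.ofReal_injective
      push_cast
      exact h
    exact pow_right_injective₀ (by linarith) hlt.ne' h1
  obtain ⟨_, ⟨n, rfl⟩, hn⟩ := (Set.infinite_range_of_injective hinj).exists_notMem_finset F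
  refine ⟨_, hn, pow_ne_zero _ ?_, (h2.add hi).pow n, ?_⟩
  · have : ((2 + √3 : ℝ) : ℂ) ≠ 0 := Complex.ofReal_ne_zero.2 (by linarith)
    simpa using this
  · rw [← inv_pow, hinv]
    exact (h2.sub hi).pow n

theorem chain_split {r : ℕ} (s : Equiv.Perm (Fin r)) {i j : Fin r} (hij : i ≠ j) :
    ∃ x, (x = i ∨ x = j) ∧ ∃ C : Finset (Fin r), i ∈ C ∧ j ∉ C ∧
      ∀ k, (Equiv.swap i x * s) k ∈ C ↔ k ∈ C := by
  classical
  have hex : ∃ k : ℕ, 0 < k ∧ ((s ^ k) i = i ∨ (s ^ k) i = j) :=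
    ⟨orderOf s, orderOf_pos s, Or.inl (by rw [pow_orderOf_eq_one]; rfl)⟩
  obtain ⟨hk0, hk⟩ := Nat.find_spec hex
  have hmin : ∀ m, 0 < m → m < Nat.find hex → (s ^ m) i ≠ i ∧ (s ^ m) i ≠ j := fun m h0 hm =>
    not_or.1 fun h => Nat.find_min hex hm ⟨h0, h⟩
  generalize Nat.find hex = k at hk0 hk hmin
  have hi : i ∈ (Finset.range k).image fun m => (s ^ m) i :=
    Finset.mem_image.2 ⟨0, Finset.mem_range.2 hk0, rfl⟩
  have hC : ∀ y ∈ (Finset.range k).image fun m => (s ^ m) i,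
      (Equiv.swap i ((s ^ k) i) * s) y ∈ (Finset.range k).image fun m => (s ^ m) i := by
    intro y hy
    obtain ⟨m, hm, rfl⟩ := Finset.mem_image.1 hy
    have e : s ((s ^ m) i) = (s ^ (m + 1)) i := by rw [pow_succ']; rfl
    rw [Equiv.Perm.mul_apply, e]
    rcases (Nat.succ_le_of_lt (Finset.mem_range.1 hm)).eq_or_lt with h | h
    · rw [← h, Equiv.swap_apply_right]
      exact h ▸ hi
    · have h1 := hmin (m + 1) m.succ_pos h
      rw [Equiv.swap_apply_of_ne_of_ne h1.1 (by rcases hk with h2 | h2 <;> rw [h2] <;> tauto)]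
      exact Finset.mem_image.2 ⟨m + 1, Finset.mem_range.2 h, rfl⟩
  refine ⟨(s ^ k) i, hk, _, hi, fun hj => ?_, fun y => ⟨fun hy => ?_, hC y⟩⟩
  · obtain ⟨m, hm, h⟩ := Finset.mem_image.1 hj
    rcases m.eq_zero_or_pos with rfl | h0
    · exact hij h
    · exact (hmin m h0 (Finset.mem_range.1 hm)).2 h
  · have := Equiv.Perm.perm_symm_on_of_perm_on_finset hC hy
    rwa [Equiv.symm_apply_apply] at this

theorem chain_step {r : ℕ} (d : Fin r → ℂ) (n : ℕ) : ∀ (a : Fin r → ℂ) (s : Equiv.Perm (Fin r)),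
    (Finset.univ.filter fun p : Fin r × Fin r => a p.1 = a p.2).card ≤ n →
    (∀ i, a i ≠ 0 ∧ IsIntegral ℤ (a i) ∧ IsIntegral ℤ (a i)⁻¹) → (∀ i, d i * a i = a (s i)) →
    ∃ a : Fin r → ℂ, Function.Injective a ∧
      (∀ i, a i ≠ 0 ∧ IsIntegral ℤ (a i) ∧ IsIntegral ℤ (a i)⁻¹) ∧
      ∃ s : Equiv.Perm (Fin r), ∀ i, d i * a i = a (s i) := by
  classical
  induction n using Nat.strong_induction_on with
  | _ n ih =>
  intro a s hn ha hs
  by_cases hinj : Function.Injective a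
  · exact ⟨a, hinj, ha, s, hs⟩
  obtain ⟨i, j, hij, hne⟩ := Function.not_injective_iff.1 hinj
  obtain ⟨x, hx, C, hi, hj, hC⟩ := chain_split s hne
  obtain ⟨c, hc, hc0, hc1, hc2⟩ :=
    chain_unit (Finset.univ.image fun p : Fin r × Fin r => a p.1 / a p.2)
  have hc3 : ∀ k l, c * a k ≠ a l := fun k l h =>
    hc (Finset.mem_image.2 ⟨(l, k), Finset.mem_univ _, by
      rw [← h, mul_div_cancel_right₀ _ (ha k).1]⟩)
  have hsw : ∀ y, a (Equiv.swap i x y) = a y := fun y => by
    have hax : a x = a i := by rcases hx with rfl | rfl <;> simp [hij]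
    rw [Equiv.swap_apply_def]
    split_ifs with h1 h2
    · rw [h1, hax]
    · rw [h2, hax]
    · rfl
  refine ih _ (lt_of_lt_of_le (Finset.card_lt_card ?_) hn)
    (fun k => if k ∈ C then c * a k else a k) (Equiv.swap i x * s) le_rfl (fun k => ?_) fun k => ?_
  · refine Finset.ssubset_iff_of_subset (fun p hp => ?_) |>.2 ⟨(i, j), by simpa using hij, ?_⟩
    · simp only [Finset.mem_filter, Finset.mem_univ, true_and] at hp ⊢
      split_ifs at hp
      · exact mul_left_cancel₀ hc0 hp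
      · exact (hc3 _ _ hp).elim
      · exact (hc3 _ _ hp.symm).elim
      · exact hp
    · simp only [Finset.mem_filter, Finset.mem_univ, true_and, if_pos hi, if_neg hj]
      exact hc3 i j
  · split_ifs
    · exact ⟨mul_ne_zero hc0 (ha k).1, hc1.mul (ha k).2.1, by
        rw [mul_inv]; exact hc2.mul (ha k).2.2⟩
    · exact ha k
  · by_cases hk : k ∈ C
    · rw [if_pos hk, if_pos ((hC k).2 hk), Equiv.Perm.mul_apply, hsw, ← hs, mul_left_comm]
    · rw [if_neg hk, if_neg (mt (hC k).1 hk), Equiv.Perm.mul_apply, hsw, hs]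

/-- Hint: prove by strong induction on a finset `s` with `∏ i ∈ s, d i = 1` that there are `a`,
injective on `s` with unit values, and a bijection of `s` (or: `s.image (d * a) = s.image a`).
Take a minimal nonempty `s₀ ⊆ s` with product one, list its elements `i₀, …, i_k`, put
`a i_j = c * d i₀ * … * d i_(j-1)`; these are distinct by minimality (a proper segment has product
different from one) and `d * a` permutes them cyclically. Choose `c = θ ^ N`, `θ` a unit with
`‖θ‖ ≠ 1` (for instance a root of `X² - 3 X + 1`), so that the new values avoid the finitely many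
old ones. The `d i` are units because their product is one. -/
theorem exists_chain {r : ℕ} (d : Fin r → ℂ) (hd : ∀ i, IsIntegral ℤ (d i))
    (hp : ∏ i, d i = 1) :
    ∃ a : Fin r → ℂ, Function.Injective a ∧
      (∀ i, a i ≠ 0 ∧ IsIntegral ℤ (a i) ∧ IsIntegral ℤ (a i)⁻¹) ∧
      ∃ s : Equiv.Perm (Fin r), ∀ i, d i * a i = a (s i) := by
  classical
  have hu : ∀ t : Finset (Fin r), ∏ j ∈ t, d j ≠ 0 ∧ IsIntegral ℤ (∏ j ∈ t, d j) ∧
      IsIntegral ℤ (∏ j ∈ t, d j)⁻¹ := fun t => by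
    have h1 : (∏ j ∈ t, d j) * ∏ j ∈ tᶜ, d j = 1 := by rw [Finset.prod_mul_prod_compl, hp]
    refine ⟨left_ne_zero_of_mul_eq_one h1, IsIntegral.prod _ fun j _ => hd j, ?_⟩
    rw [inv_eq_of_mul_eq_one_right h1]
    exact IsIntegral.prod _ fun j _ => hd j
  refine chain_step d _ (fun i => ∏ j ∈ Finset.Iio i, d j) (finRotate r) le_rfl
    (fun i => hu _) fun i => ?_
  rw [← Finset.prod_insert Finset.notMem_Iio_self, Finset.Iio_insert]
  obtain _ | n := r
  · exact i.elim0
  by_cases hl : i = Fin.last n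
  · rw [hl, finRotate_last, show Finset.Iic (Fin.last n) = Finset.univ from
      Finset.eq_univ_of_forall fun j => Finset.mem_Iic.2 (Fin.le_last j), hp,
      show Finset.Iio (0 : Fin (n + 1)) = ∅ from
        Finset.eq_empty_of_forall_notMem fun j hj => by simp at hj, Finset.prod_empty]
  · refine Finset.prod_congr ?_ fun _ _ => rfl
    ext j
    rw [Finset.mem_Iic, Finset.mem_Iio, Fin.le_def, Fin.lt_def, coe_finRotate_of_ne_last hl,
      Nat.lt_succ_iff]

end Vale.Agent.P002
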