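import Vale.Agent.P002.Reg

set_option linter.unusedVariables false

namespace Vale.Agent.P002

open Matrix Filter Topology

variable {r : ℕ}

theorem regF_kry {E : Type} [AddCommGroup E] [Module ℂ E] {U : Set E} {A : E → Mat r}
    {u : E → Fin r → ℂ} (hA : RegF U A) (hu : RegF U u) : RegF U fun x => kry (A x) (u x) := by
  exact RegF.of_entries fun i j => (((hA.pow j).mulVec hu).apply i).reg

/-- With the companion matrix `Q` of the common characteristic polynomial,
`A * kry A u = kry A u * Q` and `A' * kry A' u' = kry A' u' * Q` (Cayley-Hamilton). -/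
theorem kry_intertwine {A A' : Mat r} (h : A'.charpoly = A.charpoly) (u u' : Fin r → ℂ)
    (hK : (kry A u).det ≠ 0) :
    kry A' u' * (kry A u)⁻¹ * A = A' * (kry A' u' * (kry A u)⁻¹) := by
  rcases Nat.eq_zero_or_pos r with rfl | hr
  · exact Subsingleton.elim _ _
  set T := kry A' u' * (kry A u)⁻¹ with hT
  have h1 : T * kry A u = kry A' u' := by rw [hT, mul_assoc, inv_mul' hK, mul_one]
  have h2 : ∀ j : ℕ, j < r → T *ᵥ (A ^ j *ᵥ u) = A' ^ j *ᵥ u' := by
    intro j hj
    funext i
    exact congrFun (congrFun h1 i) ⟨j, hj⟩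
  have h3 : ∀ p : Polynomial ℂ, p.natDegree < r →
      T *ᵥ (Polynomial.aeval A p *ᵥ u) = Polynomial.aeval A' p *ᵥ u' := by
    intro p hp
    rw [Polynomial.aeval_eq_sum_range' hp, Polynomial.aeval_eq_sum_range' hp, Matrix.sum_mulVec,
      Matrix.sum_mulVec, Matrix.mulVec_sum]
    refine Finset.sum_congr rfl fun j hj => ?_
    rw [Matrix.smul_mulVec, Matrix.smul_mulVec, Matrix.mulVec_smul, h2 j (Finset.mem_range.1 hj)]
  have h4 : ∀ j : ℕ, T *ᵥ (A ^ j *ᵥ u) = A' ^ j *ᵥ u' := by
    intro j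
    rw [Matrix.pow_eq_aeval_mod_charpoly A, Matrix.pow_eq_aeval_mod_charpoly A', h]
    refine h3 _ ?_
    have hd : A.charpoly.natDegree = r := by simp
    have hne : A.charpoly ≠ 1 := by
      intro h1
      rw [h1, Polynomial.natDegree_one] at hd
      omega
    exact (Polynomial.natDegree_modByMonic_lt (Polynomial.X ^ j) A.charpoly_monic hne).trans_eq hd
  have h5 : T * A * kry A u = A' * T * kry A u := by
    rw [mul_assoc A', h1]
    ext i j
    have e := congrFun (h4 ((j : ℕ) + 1)) i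
    rw [pow_succ', pow_succ', ← Matrix.mulVec_mulVec u A, ← Matrix.mulVec_mulVec u' A',
      Matrix.mulVec_mulVec _ T A] at e
    exact e
  have h6 := congrArg (· * (kry A u)⁻¹) h5
  simpa only [mul_assoc, mul_inv'' hK, mul_one] using h6

theorem kry_conj {A B : Mat r} (hB : B.det ≠ 0) (u : Fin r → ℂ) :
    kry (B * A * B⁻¹) (B *ᵥ u) = B * kry A u := by
  have h1 : ∀ j : ℕ, (B * A * B⁻¹) ^ j * B = B * A ^ j := by
    intro j
    induction j with
    | zero => simp
    | succ j ih =>
      rw [pow_succ', mul_assoc, ih, pow_succ']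
      simp only [mul_assoc, imc hB]
  ext i j
  have e : (B * A * B⁻¹) ^ (j : ℕ) *ᵥ (B *ᵥ u) = B *ᵥ (A ^ (j : ℕ) *ᵥ u) := by
    rw [Matrix.mulVec_mulVec, h1, Matrix.mulVec_mulVec]
  exact congrFun e i

/-- Vandermonde -/
theorem kry_diag_ne {d : Fin r → ℂ} (hd : Function.Injective d) :
    (kry (diagonal d) fun _ => 1).det ≠ 0 := by
  have : (kry (diagonal d) fun _ => 1) = vandermonde d := by
    ext i j
    simp [kry, Matrix.diagonal_pow, Matrix.mulVec_diagonal, vandermonde]
  rw [this]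
  exact Matrix.det_vandermonde_ne_zero_iff.2 hd

/-- The pairs that act irreducibly contain a nonempty Zariski open set. Hint: the determinant of
the `r² × r²` matrix `((p,q),(i,j)) ↦ (A^i B A^j) p q` is a polynomial; if it is not zero the
matrices `A^i B A^j` span all matrices, so an invariant subspace is invariant under all matrices.
It is not zero for `A` diagonal with distinct entries and `B` the all ones matrix
(`Matrix.det_kronecker` and Vandermonde). -/
theorem gen_irr : Gen fun q : Mat r × Mat r => Irr q.1 q.2 := by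
  let M : Mat r × Mat r → Matrix (Fin r × Fin r) (Fin r × Fin r) ℂ := fun q =>
    Matrix.of fun a b => (q.1 ^ (b.1 : ℕ) * q.2 * q.1 ^ (b.2 : ℕ)) a.1 a.2
  have hM : RegF Set.univ M := RegF.of_entries fun a b =>
    (((RegF.id.fst.pow _).mul RegF.id.snd).mul (RegF.id.fst.pow _)).entry a.1 a.2
  let d : Fin r → ℂ := fun i => ((i : ℕ) : ℂ)
  have hd : Function.Injective d := fun i j h => Fin.ext (by simpa [d] using h)
  have h0 : (M (diagonal d, Matrix.of fun _ _ => 1)).det ≠ 0 := by
    have e : M (diagonal d, Matrix.of fun _ _ => 1) =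
        Matrix.kroneckerMap (· * ·) (vandermonde d) (vandermonde d) := by
      ext a b
      simp [M, Matrix.diagonal_pow, Matrix.mul_diagonal, Matrix.diagonal_mul, vandermonde]
    have hv := Matrix.det_vandermonde_ne_zero_iff.2 hd
    rw [e, Matrix.det_kronecker]
    exact mul_ne_zero (pow_ne_zero _ hv) (pow_ne_zero _ hv)
  refine (Gen.of_reg Bas.univ hM.det (Set.mem_univ _) h0).mono fun q hq N hA hB => ?_
  have hpow : ∀ j : ℕ, ∀ v ∈ N, q.1 ^ j *ᵥ v ∈ N := by
    intro j
    induction j with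
    | zero => simp
    | succ j ih =>
      intro v hv
      rw [pow_succ', ← Matrix.mulVec_mulVec]
      exact hA _ (ih v hv)
  have hall : ∀ X : Mat r, ∀ v ∈ N, X *ᵥ v ∈ N := by
    intro X v hv
    let c : Fin r × Fin r → ℂ := (M q)⁻¹ *ᵥ fun a => X a.1 a.2
    have hc : M q *ᵥ c = fun a => X a.1 a.2 := by
      rw [Matrix.mulVec_mulVec, mul_inv'' hq.2, Matrix.one_mulVec]
    have hX : X = ∑ b : Fin r × Fin r, c b • (q.1 ^ (b.1 : ℕ) * q.2 * q.1 ^ (b.2 : ℕ)) := by
      ext i j
      rw [← congrFun hc (i, j), Matrix.sum_apply]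
      refine Finset.sum_congr rfl fun b _ => ?_
      simp [M, mul_comm]
    rw [hX, Matrix.sum_mulVec]
    refine N.sum_mem fun b _ => ?_
    rw [Matrix.smul_mulVec, ← Matrix.mulVec_mulVec, ← Matrix.mulVec_mulVec]
    exact N.smul_mem _ (hpow _ _ (hB _ (hpow _ _ hv)))
  by_cases hN : N = ⊥
  · exact Or.inl hN
  refine Or.inr (eq_top_iff.2 fun w _ => ?_)
  obtain ⟨v, hv, hv0⟩ := (Submodule.ne_bot_iff N).1 hN
  obtain ⟨i, hi⟩ := Function.ne_iff.1 hv0
  have hi' : v i ≠ 0 := hi
  have := hall (vecMulVec w (Pi.single i (v i)⁻¹)) v hv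
  rwa [Matrix.vecMulVec_mulVec, single_dotProduct, inv_mul_cancel₀ hi', MulOpposite.op_one,
    one_smul] at this

theorem Irr.of_smul {A B : Mat r} {c c' : ℂ} (h : Irr (c • A) (c' • B)) : Irr A B := by
  intro N hA hB
  refine h N (fun v hv => ?_) fun v hv => ?_
  · rw [Matrix.smul_mulVec]
    exact N.smul_mem _ (hA v hv)
  · rw [Matrix.smul_mulVec]
    exact N.smul_mem _ (hB v hv)

theorem Irr.semis {ι : Type} {f : ι → Mat r} {i j : ι} (h : Irr (f i) (f j)) : Semis f := by
  intro N hN
  rcases h N (hN i) (hN j) with rfl | rfl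
  · exact ⟨⊤, fun _ _ _ => Submodule.mem_top, isCompl_bot_top⟩
  · refine ⟨⊥, fun k v hv => ?_, isCompl_top_bot⟩
    rw [(Submodule.mem_bot ℂ).1 hv, Matrix.mulVec_zero]
    exact Submodule.zero_mem _

end Vale.Agent.P002
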