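import Vale.Agent.P002.Reg

set_option linter.unusedVariables false

namespace Vale.Agent.P002

open Matrix Filter Topology

variable {r : ℕ}

theorem reg_gv {E : Type} [AddCommGroup E] [Module ℂ E] {U : Set E} {Y W : E → Mat r} (z : ℂ)
    (hY : RegF U Y) (hW : RegF U W) : Reg U fun x => Gv z (Y x) (W x) :=
  ((RegF.const _).sub hY).det.sub ((RegF.const _).sub (hW.mul hY)).det

theorem mm_eval (A : Mat r) (z : ℂ) : A.charpoly.eval z = (z • (1 : Mat r) - A).det := by
  rw [Matrix.eval_charpoly, Matrix.scalar_apply, smul_one_eq_diagonal]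

theorem gv_of_charpoly {A W : Mat r} (h : (W * A).charpoly = A.charpoly) (z : ℂ) :
    Gv z A W = 0 := by
  rw [Gv, ← mm_eval, ← mm_eval, h, sub_self]

theorem mm_adj {M : Mat r} (h : M.det ≠ 0) : M.adjugate = M.det • M⁻¹ := by
  rw [Matrix.inv_def, Ring.inverse_eq_inv', smul_smul, mul_inv_cancel₀ h, one_smul]

/-- valid for singular `M` as well -/
theorem det_add_vecMulVec (M : Mat r) (u w : Fin r → ℂ) :
    (M + vecMulVec u w).det = M.det + w ⬝ᵥ (M.adjugate *ᵥ u) := by
  have h1 := Zc.of_gen (bas_det.gen ⟨(1 : Mat r), by simp⟩) M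
  refine Zc.regF_eq h1 Bas.univ (Set.mem_univ _) (f := fun M : Mat r => (M + vecMulVec u w).det)
    (g := fun M : Mat r => M.det + w ⬝ᵥ (M.adjugate *ᵥ u))
    (RegF.id.add (RegF.const _)).det.regF (RegF.id.det.add (Reg.sum Finset.univ fun i _ =>
      (Reg.const (w i)).mul ((RegF.id.adjugate.mulVec (RegF.const u)).apply i).reg)).regF
    fun N hN _ => ?_
  have hN' : N.det ≠ 0 := hN
  have e : N + vecMulVec u w = N * (1 + vecMulVec (N⁻¹ *ᵥ u) w) := by
    rw [mul_add, mul_one, mul_vecMulVec, mulVec_mulVec, mul_inv'' hN', one_mulVec]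
  rw [e, det_mul, vecMulVec_eq Unit, det_one_add_replicateCol_mul_replicateRow, mm_adj hN',
    smul_mulVec, dotProduct_smul, smul_eq_mul, mul_add, mul_one]

variable [NeZero r] {d : Fin r → ℂ}

theorem regF_mm {E : Type} [AddCommGroup E] [Module ℂ E] {U : Set E} {Y W : E → Mat r}
    (d : Fin r → ℂ) (hY : RegF U Y) (hW : RegF U W) : RegF U fun x => Mm d (Y x) (W x) := by
  refine RegF.of_entries fun i q => ?_
  by_cases hi : i = 0
  · exact (Reg.const (if q = 0 then 1 else 0)).congr fun x _ => by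
      simp only [Mm, of_apply, if_pos hi]
  · exact (((((((RegF.const (d i • (1 : Mat r))).sub (hW.mul hY)).adjugate.mul hW).sub
      ((RegF.const (d i • (1 : Mat r))).sub hY).adjugate).mulVec
      (RegF.const fun _ => 1)).apply q).reg).congr fun x _ => by simp only [Mm, of_apply, if_neg hi]

theorem mm_zero (d : Fin r → ℂ) (Y W : Mat r) (w : Fin r → ℂ) : (Mm d Y W *ᵥ w) 0 = w 0 := by
  simp [Mm, mulVec, dotProduct]

theorem gv_affine (d : Fin r → ℂ) (Y W : Mat r) (w : Fin r → ℂ) {i : Fin r} (hi : i ≠ 0) :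
    Gv (d i) (Y + vecMulVec (fun _ => 1) w) W = Gv (d i) Y W + (Mm d Y W *ᵥ w) i := by
  have e1 : d i • (1 : Mat r) - (Y + vecMulVec (fun _ => 1) w) =
      d i • (1 : Mat r) - Y + vecMulVec (fun _ => 1) (-w) := by
    rw [vecMulVec_neg]
    abel
  have e2 : d i • (1 : Mat r) - W * (Y + vecMulVec (fun _ => 1) w) =
      d i • (1 : Mat r) - W * Y + vecMulVec (W *ᵥ fun _ => 1) (-w) := by
    rw [vecMulVec_neg, mul_add, mul_vecMulVec]
    abel
  have e3 : (Mm d Y W *ᵥ w) i = w ⬝ᵥ (((d i • (1 : Mat r) - W * Y).adjugate * W -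
      (d i • (1 : Mat r) - Y).adjugate) *ᵥ fun _ => 1) := by
    rw [dotProduct_comm]
    simp only [Mm, mulVec, dotProduct, of_apply, if_neg hi]
  rw [Gv, Gv, e1, e2, e3, det_add_vecMulVec, det_add_vecMulVec, mulVec_mulVec, sub_mulVec,
    dotProduct_sub, neg_dotProduct, neg_dotProduct]
  ring

/-- two monic polynomials of degree `r` that agree at `0` and at the `d i`, `i ≠ 0` -/
theorem charpoly_eq_of_gv (hd : Function.Injective d) (hd0 : ∀ i, d i ≠ 0) {A W : Mat r}
    (hW : W.det = 1) (h : ∀ i, i ≠ 0 → Gv (d i) A W = 0) : (W * A).charpoly = A.charpoly := by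
  refine Polynomial.eq_of_degree_sub_lt_of_eval_index_eq (v := fun i => if i = 0 then 0 else d i)
    Finset.univ (fun i _ j _ e => ?_) ?_ fun i _ => ?_
  · by_cases hi : i = 0 <;> by_cases hj : j = 0 <;> simp only [hi, hj, if_true, if_false] at e
    · rw [hi, hj]
    · exact absurd e.symm (hd0 j)
    · exact absurd e (hd0 i)
    · exact hd e
  · have := Polynomial.degree_sub_lt_left (p := (W * A).charpoly) (q := A.charpoly)
      (by rw [charpoly_degree_eq_dim, charpoly_degree_eq_dim]) (charpoly_monic _).ne_zero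
      ((charpoly_monic _).trans (charpoly_monic _).symm)
    rwa [charpoly_degree_eq_dim] at this
  · rw [mm_eval, mm_eval]
    by_cases hi : i = 0
    · rw [if_pos hi, zero_smul, zero_sub, zero_sub, ← mul_neg, det_mul, hW, one_mul]
    · rw [if_neg hi]
      exact (sub_eq_zero.1 (h i hi)).symm

omit [NeZero r] in
theorem mm_dinv (hd0 : ∀ i, d i ≠ 0) :
    (diagonal d).det ≠ 0 ∧ (diagonal d)⁻¹ *ᵥ (fun _ => 1) = fun p => (d p)⁻¹ := by
  have h : (diagonal d).det ≠ 0 := by
    rw [det_diagonal]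
    exact Finset.prod_ne_zero_iff.2 fun i _ => hd0 i
  refine ⟨h, ?_⟩
  have e : (fun _ => (1 : ℂ)) = diagonal d *ᵥ fun p => (d p)⁻¹ := funext fun p => by
    rw [mulVec_diagonal, mul_inv_cancel₀ (hd0 p)]
  rw [e, mulVec_mulVec, inv_mul' h, one_mulVec]

/-- `adjugate (d i • 1 - diagonal d) = π i • single i i 1` with `π i = ∏ j ≠ i, (d i - d j)`, and
`adjugate (B * M * B⁻¹) = B * adjugate M * B⁻¹`. -/
theorem mm_row (hd0 : ∀ i, d i ≠ 0) {B : Mat r} (hB : B.det ≠ 0) {i : Fin r} (hi : i ≠ 0)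
    (q : Fin r) :
    Mm d (diagonal d) (B * diagonal d * B⁻¹ * (diagonal d)⁻¹) i q =
      -((∏ j ∈ Finset.univ.erase i, (d i - d j)) * d i) *
        ((single i i (1 : ℂ) - B * single i i 1 * B⁻¹) *ᵥ fun p => (d p)⁻¹) q := by
  obtain ⟨hD, hD'⟩ := mm_dinv hd0
  have e1 : (d i • (1 : Mat r) - diagonal d).adjugate =
      (∏ j ∈ Finset.univ.erase i, (d i - d j)) • single i i (1 : ℂ) := by
    rw [smul_one_eq_diagonal, diagonal_sub, adjugate_diagonal]
    ext a b
    rw [Matrix.smul_apply, smul_eq_mul, diagonal_apply, single_apply]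
    by_cases ha : i = a
    · subst ha
      by_cases hb : i = b <;> simp [hb]
    · rw [Finset.prod_eq_zero (Finset.mem_erase.2 ⟨ha, Finset.mem_univ i⟩) (sub_self _)]
      simp [ha]
  have e2 : d i • (1 : Mat r) - B * diagonal d * B⁻¹ * (diagonal d)⁻¹ * diagonal d =
      B * (d i • (1 : Mat r) - diagonal d) * B⁻¹ := by
    rw [mul_assoc _ _ (diagonal d), inv_mul' hD, mul_one, mul_sub, sub_mul, mul_smul_comm,
      smul_mul_assoc, mul_one, mul_inv'' hB]
  have e3 : ∀ M : Mat r, (B * M * B⁻¹).adjugate = B * M.adjugate * B⁻¹ := fun M => by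
    rw [adjugate_mul_distrib, adjugate_mul_distrib, mm_adj hB, mm_adj (det_inv_ne hB), inv_inv' hB,
      det_nonsing_inv, Ring.inverse_eq_inv', mul_smul_comm, mul_smul_comm, smul_mul_assoc,
      smul_smul, mul_inv_cancel₀ hB, one_smul, mul_assoc]
  have e4 : single i i (1 : ℂ) * diagonal d = d i • single i i (1 : ℂ) := by
    ext a b
    rw [mul_diagonal, Matrix.smul_apply, single_apply]
    by_cases h : i = a ∧ i = b
    · rw [if_pos h, h.2, one_mul, smul_eq_mul, mul_one]
    · rw [if_neg h, zero_mul, smul_zero]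
  have e5 : single i i (1 : ℂ) = d i • (single i i (1 : ℂ) * (diagonal d)⁻¹) := by
    rw [← smul_mul_assoc, ← e4, mul_assoc, mul_inv'' hD, mul_one]
  have e6 : B * single i i (1 : ℂ) * B⁻¹ * (B * diagonal d * B⁻¹ * (diagonal d)⁻¹) =
      d i • (B * single i i (1 : ℂ) * B⁻¹ * (diagonal d)⁻¹) := by
    simp only [mul_assoc, imc hB]
    rw [← mul_assoc (single i i (1 : ℂ)), e4, smul_mul_assoc, mul_smul_comm]
  have e7 : (d i • (1 : Mat r) - B * diagonal d * B⁻¹ * (diagonal d)⁻¹ * diagonal d).adjugate *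
      (B * diagonal d * B⁻¹ * (diagonal d)⁻¹) - (d i • (1 : Mat r) - diagonal d).adjugate =
      -((∏ j ∈ Finset.univ.erase i, (d i - d j)) * d i) •
        ((single i i (1 : ℂ) - B * single i i 1 * B⁻¹) * (diagonal d)⁻¹) := by
    rw [e2, e3, e1, mul_smul_comm, smul_mul_assoc, smul_mul_assoc, e6, sub_mul, neg_smul, mul_smul,
      smul_sub, ← e5, smul_sub, neg_sub]
  rw [Mm, of_apply, if_neg hi, e7, smul_mulVec, ← mulVec_mulVec, hD', Pi.smul_apply, smul_eq_mul]

theorem mm_vec (hd0 : ∀ i, d i ≠ 0) {B : Mat r} (hB : B.det ≠ 0) (z x : Fin r → ℂ) (h0 : x 0 = 0)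
    (hx : ∀ i, i ≠ 0 → x i = z i * -((∏ j ∈ Finset.univ.erase i, (d i - d j)) * d i)) (q : Fin r) :
    (z ᵥ* Mm d (diagonal d) (B * diagonal d * B⁻¹ * (diagonal d)⁻¹)) q =
      (if q = 0 then z 0 else 0) +
        ((diagonal x - B * diagonal x * B⁻¹) *ᵥ fun p => (d p)⁻¹) q := by
  have e1 : diagonal x = ∑ i, x i • single i i (1 : ℂ) := by
    rw [← sum_single_eq_diagonal]
    exact Finset.sum_congr rfl fun i _ => by rw [smul_single, smul_eq_mul, mul_one]
  have e2 : diagonal x - B * diagonal x * B⁻¹ =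
      ∑ i, x i • (single i i (1 : ℂ) - B * single i i 1 * B⁻¹) := by
    rw [e1, Finset.mul_sum, Finset.sum_mul, ← Finset.sum_sub_distrib]
    exact Finset.sum_congr rfl fun i _ => by rw [mul_smul_comm, smul_mul_assoc, smul_sub]
  rw [e2, sum_mulVec, Finset.sum_apply, vecMul, dotProduct,
    ← Finset.add_sum_erase _ _ (Finset.mem_univ 0), ← Finset.add_sum_erase _ _ (Finset.mem_univ 0),
    h0, zero_smul, zero_mulVec, Pi.zero_apply, zero_add]
  refine congrArg₂ _ (by simp [Mm]) (Finset.sum_congr rfl fun i hi => ?_)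
  have hi' := (Finset.mem_erase.1 hi).1
  rw [mm_row hd0 hB hi', smul_mulVec, Pi.smul_apply, smul_eq_mul, hx i hi', mul_assoc (z i)]

omit [NeZero r] in
theorem mm_ne (hd : Function.Injective d) (hd0 : ∀ i, d i ≠ 0) (i : Fin r) :
    -((∏ j ∈ Finset.univ.erase i, (d i - d j)) * d i) ≠ 0 :=
  neg_ne_zero.2 (mul_ne_zero (Finset.prod_ne_zero_iff.2 fun _ hj =>
    sub_ne_zero.2 fun e => (Finset.mem_erase.1 hj).1 (hd e).symm) (hd0 i))

theorem mm_step {x : Fin r → ℂ} (h0 : x 0 = 0) (h : ∀ q, q ≠ 0 → x q = x (q - 1)) (q : Fin r) :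
    x q = 0 := by
  obtain ⟨n, rfl⟩ := Nat.exists_eq_add_one_of_ne_zero (NeZero.ne r)
  induction q using Fin.induction with
  | zero => exact h0
  | succ i ih => rw [h _ (Fin.succ_ne_zero i), ← Fin.coeSucc_eq_succ, add_sub_cancel_right, ih]

/-- Example: `B` the matrix of the cyclic permutation `finRotate`; show that the rows are
independent: a vanishing combination `∑ z i • row i` forces `z' (j) = z' (j - 1)` for `j ≠ 0`,
where `z' 0 = 0` and `z' i` is `z i` times the nonzero constant of `mm_row`. -/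
theorem gen_mm (hd : Function.Injective d) (hd0 : ∀ i, d i ≠ 0) :
    Gen fun B : Mat r => B.det ≠ 0 ∧
      (Mm d (diagonal d) (B * diagonal d * B⁻¹ * (diagonal d)⁻¹)).det ≠ 0 := by
  obtain ⟨B, hB, hB'⟩ : ∃ B : Mat r, B.det ≠ 0 ∧
      ∀ x : Fin r → ℂ, B * diagonal x = diagonal (fun q => x (q - 1)) * B := by
    refine ⟨Equiv.Perm.permMatrix ℂ (Equiv.subRight (1 : Fin r)), ?_, fun x => ?_⟩
    · rw [det_permutation]
      exact Int.cast_ne_zero.2 (Units.ne_zero _)
    · ext a b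
      rw [mul_diagonal, diagonal_mul]
      by_cases h : a - 1 = b <;> simp [Equiv.Perm.permMatrix, PEquiv.toMatrix_apply, h]
  refine Gen.of_reg bas_det (regF_mm d (RegF.const _) (((RegF.id.mul (RegF.const _)).mul
    (RegF.id.inv fun _ h => h)).mul (RegF.const _))).det (x₀ := B) hB fun h => ?_
  obtain ⟨z, hz, hz0⟩ := exists_vecMul_eq_zero_iff.2 h
  obtain ⟨x, h0, hx⟩ : ∃ x : Fin r → ℂ, x 0 = 0 ∧
      ∀ i, i ≠ 0 → x i = z i * -((∏ j ∈ Finset.univ.erase i, (d i - d j)) * d i) :=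
    ⟨fun i => if i = 0 then 0 else _, if_pos rfl, fun i hi => if_neg hi⟩
  have h1 := mm_vec hd0 hB z x h0 hx
  rw [hz0] at h1
  simp only [hB', mul_assoc, mul_inv'' hB, mul_one, diagonal_sub, mulVec_diagonal,
    Pi.zero_apply] at h1
  have h2 := mm_step h0 fun q hq => by
    have := h1 q
    rw [if_neg hq, zero_add, eq_comm, mul_eq_zero, sub_eq_zero] at this
    exact this.resolve_right (inv_ne_zero (hd0 q))
  refine hz (funext fun i => ?_)
  by_cases hi : i = 0
  · simpa [h2, hi, eq_comm] using h1 0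
  · exact (mul_eq_zero.1 ((hx i hi).symm.trans (h2 i))).resolve_right (mm_ne hd hd0 i)

/-- Replace `x` by `x - x 0`; the hypothesis says that a combination of the rows `i ≠ 0` of `Mm`
(with coefficients `x i` divided by the constants of `mm_row`) is a multiple of row `0`. -/
theorem mm_g3 (hd : Function.Injective d) (hd0 : ∀ i, d i ≠ 0) {B : Mat r} (hB : B.det ≠ 0)
    (hM : (Mm d (diagonal d) (B * diagonal d * B⁻¹ * (diagonal d)⁻¹)).det ≠ 0) (x : Fin r → ℂ)
    (h : ∀ w : Fin r → ℂ, w 0 = 0 → ((diagonal x - B * diagonal x * B⁻¹) * (diagonal d)⁻¹ *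
      vecMulVec (fun _ => 1) w).trace = 0) : diagonal x - B * diagonal x * B⁻¹ = 0 := by
  have e : diagonal x - B * diagonal x * B⁻¹ =
      diagonal (fun i => x i - x 0) - B * diagonal (fun i => x i - x 0) * B⁻¹ := by
    rw [← diagonal_sub, ← smul_one_eq_diagonal, mul_sub, sub_mul, mul_smul_comm, smul_mul_assoc,
      mul_one, mul_inv'' hB]
    abel
  rw [e] at h ⊢
  have h0 : (fun i => x i - x 0) 0 = 0 := sub_self _
  generalize (fun i => x i - x 0) = y at h h0
  have h1 : ∀ q, q ≠ 0 → ((diagonal y - B * diagonal y * B⁻¹) *ᵥ fun p => (d p)⁻¹) q = 0 :=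
    fun q hq => by
      have := h (Pi.single q 1) (Pi.single_eq_of_ne hq.symm _)
      rwa [mul_vecMulVec, trace_vecMulVec, ← mulVec_mulVec, (mm_dinv hd0).2, dotProduct_single,
        mul_one] at this
  obtain ⟨z, z0, hz⟩ : ∃ z : Fin r → ℂ,
      z 0 = -((diagonal y - B * diagonal y * B⁻¹) *ᵥ fun p => (d p)⁻¹) 0 ∧
      ∀ i, i ≠ 0 → y i = z i * -((∏ j ∈ Finset.univ.erase i, (d i - d j)) * d i) :=
    ⟨fun i => if i = 0 then _ else y i / -((∏ j ∈ Finset.univ.erase i, (d i - d j)) * d i),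
      if_pos rfl, fun i hi => by simp only [if_neg hi, div_mul_cancel₀ _ (mm_ne hd hd0 i)]⟩
  have h2 : z = 0 := eq_zero_of_vecMul_eq_zero hM (funext fun q => by
    rw [mm_vec hd0 hB z y h0 hz, Pi.zero_apply]
    by_cases hq : q = 0
    · rw [if_pos hq, z0, hq, neg_add_cancel]
    · rw [if_neg hq, h1 q hq, add_zero])
  have h3 : y = fun _ => 0 := funext fun i => by
    by_cases hi : i = 0
    · rw [hi, h0]
    · rw [hz i hi, h2, Pi.zero_apply, zero_mul]
  rw [h3, diagonal_zero, mul_zero, zero_mul, sub_zero]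

end Vale.Agent.P002
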