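import Vale.Agent.P002.Reg

set_option linter.unusedVariables false

namespace Vale.Agent.P002

open Matrix Filter Topology

variable {r : ℕ} {L : IntermediateField ℚ ℂ} {M N : Mat r}

theorem exists_smul_det_one (hM : M.det ≠ 0) : ∃ c : ℂ, c ≠ 0 ∧ (c • M).det = 1 := by
  rcases Nat.eq_zero_or_pos r with rfl | hr
  · exact ⟨1, one_ne_zero, Matrix.det_isEmpty⟩
  obtain ⟨c, hc⟩ := IsAlgClosed.exists_pow_nat_eq M.det⁻¹ hr
  refine ⟨c, ?_, ?_⟩
  · rintro rfl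
    rw [zero_pow hr.ne'] at hc
    exact inv_ne_zero hM hc.symm
  · rw [det_smul, Fintype.card_fin, hc, inv_mul_cancel₀ hM]

/-- all entries lie in a subring -/
def GpIn (S : Subring ℂ) (M : Mat r) : Prop := ∀ i j, M i j ∈ S

theorem gp_lift {S : Subring ℂ} (h : GpIn S M) :
    ∃ M' : Matrix (Fin r) (Fin r) S, S.subtype.mapMatrix M' = M :=
  ⟨Matrix.of fun i j => ⟨M i j, h i j⟩, rfl⟩

theorem gp_map {S : Subring ℂ} (M' : Matrix (Fin r) (Fin r) S) :
    GpIn S (S.subtype.mapMatrix M') := fun i j => (M' i j).2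

theorem gp_one (S : Subring ℂ) : GpIn S (1 : Mat r) := by
  have := gp_map (1 : Matrix (Fin r) (Fin r) S)
  rwa [map_one] at this

theorem gp_mul {S : Subring ℂ} (h : GpIn S M) (h' : GpIn S N) : GpIn S (M * N) := by
  obtain ⟨M', rfl⟩ := gp_lift h
  obtain ⟨N', rfl⟩ := gp_lift h'
  rw [← map_mul]
  exact gp_map _

theorem gp_smul {S : Subring ℂ} {c : ℂ} (hc : c ∈ S) (h : GpIn S M) : GpIn S (c • M) :=
  fun i j => S.mul_mem hc (h i j)

theorem gp_pow' {S : Subring ℂ} (h : GpIn S M) (k : ℕ) : GpIn S (M ^ k) := by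
  obtain ⟨M', rfl⟩ := gp_lift h
  rw [← map_pow]
  exact gp_map _

theorem gp_det {S : Subring ℂ} (h : GpIn S M) : M.det ∈ S := by
  obtain ⟨M', rfl⟩ := gp_lift h
  rw [← RingHom.map_det]
  exact M'.det.2

theorem gp_adj {S : Subring ℂ} (h : GpIn S M) : GpIn S M.adjugate := by
  obtain ⟨M', rfl⟩ := gp_lift h
  rw [← RingHom.map_adjugate]
  exact gp_map _

theorem gp_inv {S : Subring ℂ} (h : GpIn S M) (hd : M.det⁻¹ ∈ S) : GpIn S M⁻¹ := by
  rw [Matrix.inv_def, Ring.inverse_eq_inv']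
  exact gp_smul hd (gp_adj h)

theorem IntB.one : IntB (1 : Mat r) := gp_one (integralClosure ℤ ℂ).toSubring

theorem IntB.mul (h : IntB M) (h' : IntB N) : IntB (M * N) :=
  gp_mul (S := (integralClosure ℤ ℂ).toSubring) h h'

theorem IntB.smul {c : ℂ} (hc : IsIntegral ℤ c) (h : IntB M) : IntB (c • M) :=
  gp_smul (S := (integralClosure ℤ ℂ).toSubring) hc h

theorem IntB.pow (h : IntB M) (k : ℕ) : IntB (M ^ k) :=
  gp_pow' (S := (integralClosure ℤ ℂ).toSubring) h k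

theorem IntB.det (h : IntB M) : IsIntegral ℤ M.det :=
  gp_det (S := (integralClosure ℤ ℂ).toSubring) h

theorem IntB.adjugate (h : IntB M) : IntB M.adjugate :=
  gp_adj (S := (integralClosure ℤ ℂ).toSubring) h

theorem IntB.inv (h : IntB M) (hd : IsIntegral ℤ M.det⁻¹) : IntB M⁻¹ :=
  gp_inv (S := (integralClosure ℤ ℂ).toSubring) h hd

theorem IntSL.one : IntSL L (1 : Mat r) :=
  ⟨gp_one L.toSubfield.toSubring, IntB.one, det_one⟩

theorem IntSL.mul (h : IntSL L M) (h' : IntSL L N) : IntSL L (M * N) :=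
  ⟨gp_mul (S := L.toSubfield.toSubring) h.1 h'.1, h.2.1.mul h'.2.1, by
    rw [det_mul, h.2.2, h'.2.2, mul_one]⟩

theorem IntSL.inv (h : IntSL L M) : IntSL L M⁻¹ := by
  refine ⟨gp_inv (S := L.toSubfield.toSubring) h.1 ?_, h.2.1.inv ?_, ?_⟩
  · rw [h.2.2, inv_one]; exact one_mem _
  · rw [h.2.2, inv_one]; exact isIntegral_one
  · rw [det_nonsing_inv, h.2.2, Ring.inverse_one]

theorem IntSL.smul {ω : ℂ} (hω : ω ∈ L) (h1 : ω ^ r = 1) (hr : 0 < r) (h : IntSL L M) :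
    IntSL L (ω • M) := by
  refine ⟨gp_smul (S := L.toSubfield.toSubring) hω h.1, h.2.1.smul ?_, ?_⟩
  · exact IsIntegral.of_pow hr (by rw [h1]; exact isIntegral_one)
  · rw [det_smul, Fintype.card_fin, h1, h.2.2, mul_one]

theorem IntSL.gp (h : IntSL L M) : Gp L M := ⟨1, M, one_ne_zero, h, (one_smul _ _).symm⟩

theorem Gp.one : Gp L (1 : Mat r) := IntSL.one.gp

theorem Gp.det_ne (h : Gp L M) : M.det ≠ 0 := by
  obtain ⟨c, N, hc, hN, rfl⟩ := h
  rw [det_smul, hN.2.2, mul_one]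
  exact pow_ne_zero _ hc

theorem Gp.mul (h : Gp L M) (h' : Gp L N) : Gp L (M * N) := by
  obtain ⟨c, M', hc, hM, rfl⟩ := h
  obtain ⟨c', N', hc', hN, rfl⟩ := h'
  refine ⟨c * c', M' * N', mul_ne_zero hc hc', hM.mul hN, ?_⟩
  rw [smul_mul_assoc, mul_smul_comm, smul_smul]

theorem Gp.inv (h : Gp L M) : Gp L M⁻¹ := by
  obtain ⟨c, N, hc, hN, rfl⟩ := h
  refine ⟨c⁻¹, N⁻¹, inv_ne_zero hc, hN.inv, Matrix.inv_eq_right_inv ?_⟩
  rw [smul_mul_assoc, mul_smul_comm, smul_smul, mul_inv_cancel₀ hc, one_smul,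
    Matrix.mul_nonsing_inv _ (by rw [hN.2.2]; exact isUnit_one)]

theorem Gp.smul {c : ℂ} (hc : c ≠ 0) (h : Gp L M) : Gp L (c • M) := by
  obtain ⟨c', N, hc', hN, rfl⟩ := h
  exact ⟨c * c', N, mul_ne_zero hc hc', hN, smul_smul _ _ _⟩

/-- `M ^ r = det M • ((det M)⁻¹ • M ^ r)` -/
theorem gp_pow (hL : ∀ i j, M i j ∈ L) (h : IntB M) (h0 : M.det ≠ 0)
    (hd : IsIntegral ℤ M.det⁻¹) : Gp L (M ^ r) := by
  have h1 : M.det ∈ L := gp_det (S := L.toSubfield.toSubring) hL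
  refine ⟨M.det, M.det⁻¹ • M ^ r, h0, ⟨gp_smul (S := L.toSubfield.toSubring) (L.inv_mem h1)
    (gp_pow' (S := L.toSubfield.toSubring) hL r), (h.pow r).smul hd, ?_⟩, ?_⟩
  · rw [det_smul, Fintype.card_fin, det_pow, ← mul_pow, inv_mul_cancel₀ h0, one_pow]
  · rw [smul_smul, mul_inv_cancel₀ h0, one_smul]

/-- `1 + ζ` is a unit of absolute value different from one -/
theorem Good.exists_unit (hL : Good L r) :
    ∃ θ ∈ L, θ ≠ 0 ∧ IsIntegral ℤ θ ∧ IsIntegral ℤ θ⁻¹ ∧ ‖θ‖ ≠ 1 := by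
  obtain ⟨-, ⟨ζ, hζL, hζ⟩, -⟩ := hL
  have h5 : ζ ^ 5 = 1 := hζ.pow_eq_one
  have hs : 1 + ζ + ζ ^ 2 + ζ ^ 3 + ζ ^ 4 = 0 := by
    have := hζ.geom_sum_eq_zero (by norm_num)
    simpa [Finset.sum_range_succ] using this
  have hi : IsIntegral ℤ ζ := hζ.isIntegral (by norm_num)
  have hu : (1 + ζ) * (-ζ * (1 + ζ ^ 2)) = 1 := by linear_combination (-ζ) * hs + h5
  refine ⟨1 + ζ, add_mem (one_mem _) hζL, left_ne_zero_of_mul_eq_one hu, isIntegral_one.add hi,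
    ?_, fun hn => ?_⟩
  · rw [← eq_inv_of_mul_eq_one_right hu]
    exact hi.neg.mul (isIntegral_one.add (hi.pow 2))
  · have h1 : ‖ζ‖ = 1 := hζ.norm'_eq_one (by norm_num)
    have h2 : ζ * (starRingEnd ℂ) ζ = 1 := by
      rw [Complex.mul_conj, Complex.normSq_eq_norm_sq, h1]; simp
    have h3 : (1 + ζ) * (1 + (starRingEnd ℂ) ζ) = 1 := by
      have := Complex.mul_conj (1 + ζ)
      rw [Complex.normSq_eq_norm_sq, hn, map_add, map_one] at this
      simpa using this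
    have h4 : ζ ^ 3 = 1 := by linear_combination (ζ - 1) * ζ * h3 - (ζ - 1) * (ζ + 1) * h2
    have := hζ.dvd_of_pow_eq_one 3 h4
    omega

theorem exists_good (hr : 0 < r) (T : Set ℂ) (hT : T.Finite) (h : ∀ z ∈ T, IsIntegral ℤ z) :
    ∃ L : IntermediateField ℚ ℂ, Good L r ∧ ∀ z ∈ T, z ∈ L := by
  have h5 := Complex.isPrimitiveRoot_exp 5 (by norm_num)
  have hω := Complex.isPrimitiveRoot_exp r hr.ne'
  generalize Complex.exp (2 * Real.pi * Complex.I / (5 : ℕ)) = ζ at h5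
  generalize Complex.exp (2 * Real.pi * Complex.I / r) = ω at hω
  have hS : (insert ζ (insert ω T)).Finite := (hT.insert ω).insert ζ
  have : Finite (insert ζ (insert ω T) : Set ℂ) := hS
  refine ⟨IntermediateField.adjoin ℚ (insert ζ (insert ω T)),
    ⟨IntermediateField.finiteDimensional_adjoin ?_,
      ⟨ζ, IntermediateField.subset_adjoin _ _ (by simp), h5⟩,
      ⟨ω, IntermediateField.subset_adjoin _ _ (by simp), hω⟩⟩,
    fun z hz => IntermediateField.subset_adjoin _ _ (by simp [hz])⟩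
  rintro x (rfl | rfl | hx)
  · exact (h5.isIntegral (by norm_num)).tower_top
  · exact (hω.isIntegral hr).tower_top
  · exact (h x hx).tower_top

end Vale.Agent.P002
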