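import Vale.Agent.P002.Jordan
import Vale.Agent.P002.Gp

set_option linter.unusedVariables false

namespace Vale.Agent.P002

open Matrix Filter Topology

variable {r : ℕ} {C t s g : Mat r}

theorem rs_conj_pow {P : Mat r} (hP : P.det ≠ 0) (M : Mat r) (k : ℕ) :
    (P * M * P⁻¹) ^ k = P * M ^ k * P⁻¹ := by
  induction k with
  | zero => rw [pow_zero, pow_zero, mul_one, mul_inv'' hP]
  | succ k ih =>
    rw [pow_succ, ih, pow_succ]
    simp only [mul_assoc, imc hP]

theorem rs_trace_conj {P : Mat r} (hP : P.det ≠ 0) (M : Mat r) :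
    (P * M * P⁻¹).trace = M.trace := by
  rw [Matrix.trace_mul_comm, imc hP]

theorem rs_gram_conj {P : Mat r} (hP : P.det ≠ 0) (M : Mat r) :
    gram (P * M * P⁻¹) = gram M := by
  unfold gram
  simp only [rs_conj_pow hP, rs_trace_conj hP]

theorem rs_tri_mul_diag {M N : Mat r} (hM : M.BlockTriangular id) (hN : N.BlockTriangular id)
    (i : Fin r) : (M * N) i i = M i i * N i i := by
  rw [Matrix.mul_apply]
  refine Finset.sum_eq_single i (fun j _ hj => ?_) (fun h => absurd (Finset.mem_univ i) h)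
  rcases lt_or_gt_of_ne hj with h | h
  · rw [hM (show id j < id i from h), zero_mul]
  · rw [hN (show id i < id j from h), mul_zero]

theorem rs_tri_pow {M : Mat r} (hM : M.BlockTriangular id) (k : ℕ) :
    (M ^ k).BlockTriangular id ∧ ∀ i, (M ^ k) i i = M i i ^ k := by
  induction k with
  | zero =>
    rw [pow_zero]
    exact ⟨Matrix.blockTriangular_one, fun i => by simp⟩
  | succ k ih =>
    rw [pow_succ]
    refine ⟨ih.1.mul hM, fun i => ?_⟩
    rw [rs_tri_mul_diag ih.1 hM, ih.2, pow_succ]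

theorem rs_gram_tri {M : Mat r} (hM : M.BlockTriangular id) :
    gram M = (Matrix.vandermonde fun i => M i i).det ^ 2 := by
  have e : (Matrix.of fun i j : Fin r => (M ^ ((i : ℕ) + (j : ℕ))).trace) =
      (Matrix.vandermonde fun i => M i i)ᵀ * Matrix.vandermonde fun i => M i i := by
    ext i j
    rw [Matrix.of_apply, Matrix.mul_apply, Matrix.trace]
    refine Finset.sum_congr rfl fun k _ => ?_
    rw [Matrix.diag_apply, (rs_tri_pow hM _).2, Matrix.transpose_apply, Matrix.vandermonde_apply,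
      Matrix.vandermonde_apply, pow_add]
  unfold gram
  rw [e, Matrix.det_mul, Matrix.det_transpose, sq]

theorem rs_gram_tri_ne {M : Mat r} (hM : M.BlockTriangular id) :
    gram M ≠ 0 ↔ Function.Injective fun i => M i i := by
  rw [rs_gram_tri hM, ← Matrix.det_vandermonde_ne_zero_iff]
  exact pow_ne_zero_iff two_ne_zero

theorem rs_jb_tri (μ η : Fin r → ℂ) : (jb μ η).BlockTriangular id := by
  intro i j hij
  have h : j < i := hij
  have h1 : i ≠ j := ne_of_gt h
  have h2 : ¬ (j : ℕ) = (i : ℕ) + 1 := by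
    have := Fin.lt_def.1 h
    omega
  simp [jb, h1, h2]

theorem rs_jb_diag (μ η : Fin r → ℂ) (i : Fin r) : jb μ η i i = μ i := by
  simp [jb]

theorem reg_gram {E : Type} [AddCommGroup E] [Module ℂ E] {U : Set E} {C : E → Mat r}
    (hC : RegF U C) : Reg U fun x => gram (C x) :=
  RegF.det (M := fun x => Matrix.of fun i j : Fin r => (C x ^ ((i : ℕ) + (j : ℕ))).trace)
    (RegF.of_entries fun i j => (hC.pow ((i : ℕ) + (j : ℕ))).trace)

/-- `tr C^k = ∑ μ_i^k` for a triangular matrix, so `gram` is the square of a Vandermonde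
determinant; use `jordan` for the converse (`η i = 0` whenever `i + 1 < r`, if `μ` is
injective). -/
theorem rs_iff_gram (C : Mat r) : RS C ↔ gram C ≠ 0 := by
  constructor
  · rintro ⟨P, d, hP, hd, rfl⟩
    rw [rs_gram_conj hP, rs_gram_tri_ne (Matrix.blockTriangular_diagonal d)]
    simpa using hd
  · intro h
    obtain ⟨P, μ, η, hP, h01, hμ, rfl⟩ := jordan C
    rw [rs_gram_conj hP, rs_gram_tri_ne (rs_jb_tri μ η)] at h
    simp only [rs_jb_diag] at h
    refine ⟨P, μ, hP, h, ?_⟩
    have e : jb μ η = diagonal μ := by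
      ext i j
      by_cases hij : i = j
      · subst hij
        simp [jb]
      · rw [Matrix.diagonal_apply_ne _ hij]
        by_cases h2 : (j : ℕ) = (i : ℕ) + 1
        · have h3 : η i = 0 := by
            by_contra h0
            exact hij (h (hμ i j h2 h0))
          simp [jb, hij, h3]
        · simp [jb, hij, h2]
    rw [e]

theorem rs_of_tri (ht : C.BlockTriangular id) (hd : Function.Injective fun i => C i i) :
    RS C := by
  rw [rs_iff_gram, rs_gram_tri_ne ht]
  exact hd

theorem bas_rs {E : Type} [AddCommGroup E] [Module ℂ E] {U : Set E} (hU : Bas U) {C : E → Mat r}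
    (hC : RegF U C) : Bas {x | x ∈ U ∧ RS (C x)} :=
  (hU.of_reg (reg_gram hC)).congr fun x => by
    simp only [Set.mem_ofPred_eq, rs_iff_gram]

theorem rs_diagonal {d : Fin r → ℂ} (hd : Function.Injective d) : RS (diagonal d) :=
  ⟨1, d, by simp, hd, by simp⟩

theorem RS.conj (h : RS C) (hg : g.det ≠ 0) : RS (g * C * g⁻¹) := by
  rw [rs_iff_gram] at h ⊢
  rwa [rs_gram_conj hg]

theorem RS.smul (h : RS C) {c : ℂ} (hc : c ≠ 0) : RS (c • C) := by
  obtain ⟨P, d, hP, hd, rfl⟩ := h
  refine ⟨P, c • d, hP, fun i j hij => hd (mul_left_cancel₀ hc hij), ?_⟩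
  rw [Matrix.diagonal_smul, mul_smul_comm, smul_mul_assoc]

theorem InA.one : InA C 1 := ⟨1, by simp⟩

theorem InA.self : InA C C := ⟨Polynomial.X, by simp⟩

theorem InA.mul (h : InA C s) (h' : InA C t) : InA C (s * t) := by
  obtain ⟨p, rfl⟩ := h
  obtain ⟨q, rfl⟩ := h'
  exact ⟨p * q, by rw [map_mul]⟩

theorem InA.add (h : InA C s) (h' : InA C t) : InA C (s + t) := by
  obtain ⟨p, rfl⟩ := h
  obtain ⟨q, rfl⟩ := h'
  exact ⟨p + q, by rw [map_add]⟩

theorem InA.smul (c : ℂ) (h : InA C t) : InA C (c • t) := by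
  obtain ⟨p, rfl⟩ := h
  exact ⟨c • p, by rw [map_smul]⟩

theorem InA.pow (h : InA C t) (k : ℕ) : InA C (t ^ k) := by
  obtain ⟨p, rfl⟩ := h
  exact ⟨p ^ k, by rw [map_pow]⟩

theorem InA.trans (h : InA C s) (h' : InA s t) : InA C t := by
  obtain ⟨p, rfl⟩ := h
  obtain ⟨q, rfl⟩ := h'
  exact ⟨q.comp p, by rw [Polynomial.aeval_comp]⟩

/-- Cayley-Hamilton (`Matrix.aeval_self_charpoly`); the inverse is `0` if `det t = 0`. -/
theorem InA.inv (h : InA C t) : InA C t⁻¹ := by
  refine h.trans ?_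
  by_cases h0 : t.det = 0
  · rw [Matrix.nonsing_inv_apply_not_isUnit t (by rw [h0]; exact not_isUnit_zero)]
    exact ⟨0, by simp⟩
  · have hc : t.charpoly.coeff 0 ≠ 0 := by
      intro hc
      apply h0
      rw [Matrix.det_eq_sign_charpoly_coeff, hc, mul_zero]
    have h1 := Matrix.aeval_self_charpoly t
    rw [← Polynomial.divX_mul_X_add t.charpoly, map_add, map_mul, Polynomial.aeval_X,
      Polynomial.aeval_C, Algebra.algebraMap_eq_smul_one] at h1
    refine ⟨(-(t.charpoly.coeff 0)⁻¹) • t.charpoly.divX, ?_⟩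
    rw [map_smul]
    apply Matrix.inv_eq_left_inv
    rw [smul_mul_assoc, eq_neg_of_add_eq_zero_left h1, smul_neg, smul_smul, neg_mul,
      inv_mul_cancel₀ hc, neg_smul, neg_neg, one_smul]

theorem InA.comm (h : InA C s) (h' : InA C t) : Commute s t := by
  obtain ⟨p, rfl⟩ := h
  obtain ⟨q, rfl⟩ := h'
  exact (Commute.all p q).map (Polynomial.aeval C)

theorem InA.commute (h : InA C t) : Commute t C := h.comm InA.self

theorem inA_smul_iff {c : ℂ} (hc : c ≠ 0) : InA (c • C) t ↔ InA C t := by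
  refine ⟨fun h => (InA.smul c InA.self).trans h, fun h => InA.trans ?_ h⟩
  have := InA.smul c⁻¹ (InA.self (C := c • C))
  rwa [smul_smul, inv_mul_cancel₀ hc, one_smul] at this

theorem aeval_conj_diag {P : Mat r} (hP : P.det ≠ 0) (d : Fin r → ℂ) (p : Polynomial ℂ) :
    Polynomial.aeval (P * diagonal d * P⁻¹) p = P * diagonal (fun i => p.eval (d i)) * P⁻¹ := by
  induction p using Polynomial.induction_on' with
  | add p q hp hq =>
    rw [map_add, hp, hq, ← add_mul, ← mul_add, Matrix.diagonal_add]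
    simp only [Polynomial.eval_add]
  | monomial k c =>
    rw [Polynomial.aeval_monomial, ← Algebra.smul_def, rs_conj_pow hP, Matrix.diagonal_pow,
      ← smul_mul_assoc, ← mul_smul_comm, ← Matrix.diagonal_smul]
    simp only [Polynomial.eval_monomial]
    rfl

/-- Lagrange interpolation -/
theorem inA_diag {P : Mat r} (hP : P.det ≠ 0) {d : Fin r → ℂ} (hd : Function.Injective d)
    (v : Fin r → ℂ) : InA (P * diagonal d * P⁻¹) (P * diagonal v * P⁻¹) := by
  refine ⟨Lagrange.interpolate Finset.univ d v, ?_⟩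
  rw [aeval_conj_diag hP]
  have e : (fun i => (Lagrange.interpolate Finset.univ d v).eval (d i)) = v := by
    funext i
    exact Lagrange.eval_interpolate_at_node v hd.injOn (Finset.mem_univ i)
  rw [e]

theorem inA_diagonal {d : Fin r → ℂ} (hd : Function.Injective d) (v : Fin r → ℂ) :
    InA (diagonal d) (diagonal v) := by
  have := inA_diag (P := (1 : Mat r)) (by simp) hd v
  simpa using this

theorem RS.inA_of_commute (h : RS C) (ht : Commute t C) : InA C t := by
  obtain ⟨P, d, hP, hd, rfl⟩ := h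
  have h1 : P⁻¹ * t * P * diagonal d = diagonal d * (P⁻¹ * t * P) := by
    have h2 := congrArg (fun X => P⁻¹ * X * P) ht.eq
    simpa only [mul_assoc, imc hP, inv_mul' hP, mul_one] using h2
  have h3 : P⁻¹ * t * P = diagonal fun i => (P⁻¹ * t * P) i i := by
    ext i j
    by_cases hij : i = j
    · subst hij
      simp
    · rw [Matrix.diagonal_apply_ne _ hij]
      have h4 := congrFun (congrFun h1 i) j
      rw [Matrix.mul_diagonal, Matrix.diagonal_mul, mul_comm] at h4
      by_contra h0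
      exact hij (hd (mul_right_cancel₀ h0 h4)).symm
  have h5 : t = P * (diagonal fun i => (P⁻¹ * t * P) i i) * P⁻¹ := by
    rw [← h3]
    simp only [mul_assoc, mic hP, mul_inv'' hP, mul_one]
  rw [h5]
  exact inA_diag hP hd _

theorem rs_ex : ∃ D : Mat r, D.det ≠ 0 ∧ RS D := by
  refine ⟨diagonal fun i : Fin r => ((i : ℕ) : ℂ) + 1, ?_, rs_diagonal fun i j hij => ?_⟩
  · rw [Matrix.det_diagonal]
    exact Finset.prod_ne_zero_iff.2 fun i _ => Nat.cast_add_one_ne_zero _
  · exact Fin.ext (Nat.cast_injective (R := ℂ) (add_right_cancel hij))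

theorem gen_rs : Gen fun B : Mat r => B.det ≠ 0 ∧ RS B := by
  obtain ⟨D, hD, hD'⟩ := rs_ex (r := r)
  exact (bas_rs (bas_det (n := Fin r)) RegF.id).gen ⟨D, hD, hD'⟩

theorem gen_rs_mul_inv (hg : g.det ≠ 0) : Gen fun B : Mat r => B.det ≠ 0 ∧ RS (g * B⁻¹) := by
  obtain ⟨D, hD, hD'⟩ := rs_ex (r := r)
  refine (bas_rs (bas_det (n := Fin r)) (C := fun B : Mat r => g * B⁻¹)
    ((RegF.const g).mul (RegF.id.inv fun x hx => hx))).gen
    ⟨D⁻¹ * g, det_mul_ne (det_inv_ne hD) hg, ?_⟩
  rw [Matrix.mul_inv_rev, inv_inv' hD, mic hg]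
  exact hD'

/-- an integral upper triangular representative of a conjugacy class -/
theorem tri_rep (c : Mat r) (hc : ∀ z, c.charpoly.IsRoot z → IsIntegral ℤ z) :
    ∃ h c' : Mat r, h.det = 1 ∧ IntB c' ∧ c'.BlockTriangular id ∧ c = h * c' * h⁻¹ := by
  obtain ⟨P, μ, η, hP, h01, hμ, e⟩ := jordan c
  obtain ⟨a, ha, ha1⟩ := exists_smul_det_one hP
  have hch : c.charpoly = ∏ i, (Polynomial.X - Polynomial.C (μ i)) := by
    rw [e, Matrix.charpoly_mul_comm, imc hP, Matrix.charpoly_of_isUpperTriangular _ (rs_jb_tri μ η)]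
    simp only [rs_jb_diag]
  refine ⟨a • P, jb μ η, ha1, fun i j => ?_, rs_jb_tri μ η, ?_⟩
  · by_cases hij : i = j
    · subst hij
      rw [rs_jb_diag]
      apply hc
      rw [hch, Polynomial.IsRoot.def, Polynomial.eval_prod]
      exact Finset.prod_eq_zero (Finset.mem_univ i) (by simp)
    · by_cases h2 : (j : ℕ) = (i : ℕ) + 1
      · have e2 : jb μ η i j = η i := by simp [jb, hij, h2]
        rw [e2]
        rcases h01 i with h | h
        · rw [h]; exact isIntegral_zero
        · rw [h]; exact isIntegral_one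
      · have e2 : jb μ η i j = 0 := by simp [jb, hij, h2]
        rw [e2]
        exact isIntegral_zero
  · have e3 : (a • P)⁻¹ = a⁻¹ • P⁻¹ := by
      apply Matrix.inv_eq_left_inv
      rw [smul_mul_assoc, mul_smul_comm, smul_smul, inv_mul_cancel₀ ha, one_smul, inv_mul' hP]
    rw [e3, smul_mul_assoc, smul_mul_assoc, mul_smul_comm, smul_smul, mul_inv_cancel₀ ha,
      one_smul]
    exact e

end Vale.Agent.P002
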