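import Vale.Agent.P002.SysB
import Vale.Agent.P002.RS
import Vale.Agent.P002.Kry
import Vale.Agent.P002.Mm

set_option linter.unusedVariables false

namespace Vale.Agent.P002

open Matrix Filter Topology

variable {r : ℕ} [NeZero r] {J : Type} [Fintype J] [DecidableEq J] {σ : Sys r J}
  {Z : Set (J → Mat r)}

/-- the solution of the linear system of the chart -/
noncomputable def chartA (d : Fin r → ℂ) (Y W : Mat r) : Mat r :=
  Y + vecMulVec (fun _ => 1) ((Mm d Y W)⁻¹ *ᵥ fun i => if i = 0 then 0 else -Gv (d i) Y W)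

theorem chartA_charpoly {d : Fin r → ℂ} (hd : Function.Injective d) (hd0 : ∀ i, d i ≠ 0)
    {Y W : Mat r} (hW : W.det = 1) (hM : (Mm d Y W).det ≠ 0) :
    (W * chartA d Y W).charpoly = (chartA d Y W).charpoly := by
  refine charpoly_eq_of_gv hd hd0 hW fun i hi => ?_
  rw [chartA, gv_affine d Y W _ hi, mulVec_mulVec, mul_inv'' hM, one_mulVec, if_neg hi,
    add_neg_cancel]

/-- `-w` solves the system -/
theorem chartA_unique {d : Fin r → ℂ} {Y W A : Mat r} (hM : (Mm d Y W).det ≠ 0) {w : Fin r → ℂ}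
    (hw : w 0 = 0) (hY : Y = A + vecMulVec (fun _ => 1) w) (hA : (W * A).charpoly = A.charpoly) :
    chartA d Y W = A := by
  have hA' : Y + vecMulVec (fun _ => 1) (-w) = A := by
    rw [hY]
    ext i j
    simp [vecMulVec_apply]
  have key : (fun i => if i = 0 then 0 else -Gv (d i) Y W) = Mm d Y W *ᵥ (-w) := by
    funext i
    by_cases hi : i = 0
    · subst hi
      rw [if_pos rfl, mm_zero, Pi.neg_apply, hw, neg_zero]
    · have h1 := gv_affine d Y W (-w) hi
      rw [hA', gv_of_charpoly hA] at h1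
      rw [if_neg hi]
      exact (eq_neg_of_add_eq_zero_right h1.symm).symm
  rw [chartA, key, mulVec_mulVec, inv_mul' hM, one_mulVec, hA']

omit [NeZero r] [Fintype J] in
theorem chart_cp {y : J → Mat r} (hy : y ∈ σ.R) :
    (σ.W y * y σ.a).charpoly = (y σ.a).charpoly := by
  rw [σ.W_mul_a hy, Matrix.charpoly_mul_comm, imc (hy.1 σ.b)]

omit [Fintype J] in
theorem chart_self {d : Fin r → ℂ} {y : J → Mat r} (hy : y ∈ σ.R)
    (hM : (Mm d (y σ.a) (σ.W y)).det ≠ 0) : chartA d (y σ.a) (σ.W y) = y σ.a :=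
  chartA_unique hM (w := 0) rfl (by ext i j; simp) (chart_cp hy)

theorem chart_regA {E : Type} [AddCommGroup E] [Module ℂ E] {U : Set E} {Y W : E → Mat r}
    (d : Fin r → ℂ) (hY : RegF U Y) (hW : RegF U W)
    (hM : ∀ y ∈ U, (Mm d (Y y) (W y)).det ≠ 0) : RegF U fun y => chartA d (Y y) (W y) := by
  refine hY.add ((RegF.const _).vecMulVec (((regF_mm d hY hW).inv hM).mulVec
    (RegF.pi fun i => ?_)))
  by_cases hi : i = 0
  · exact (RegF.const 0).congr fun y _ => if_pos hi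
  · exact (reg_gv (d i) hY hW).neg.regF.congr fun y _ => if_neg hi

/-- Fix the target `x`, let `u' = x b *ᵥ 1`, `A y = chartA d (y a) (σ.W y)`,
`B₀ y = kry (σ.W y * A y) u' * (kry (A y) 1)⁻¹`, `c y = update (update y a (A y)) b (B₀ y)` on the
basic open set `D = {y ∈ UU | det (Mm ..) ≠ 0 ∧ det (kry (A y) 1) ≠ 0}`, which contains `x₀` and
`x` (`chartA_unique` with `w = 0`, `W_mul_a`, `Matrix.charpoly_mul_comm` or `charpoly_conj`), and
`c x = x` (`kry_conj`). For `y` near `x₀` take `z` from `hloc`: `A y = z a`, and if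
`det (B₀ y) ≠ 0` then `t = (z b)⁻¹ * B₀ y` commutes with `z a` (`kry_intertwine`), so
`c y = update z b (z b * t) ∈ Z` (`hZ.ma`, `RS.inA_of_commute`). For a polynomial `P` vanishing on
`Z` the regular function `P (c y) * det (B₀ y)` vanishes near `x₀`, hence at `x`. -/
theorem chart (hZ : MoveInv σ Z) {d : Fin r → ℂ} (hd : Function.Injective d)
    (hd0 : ∀ i, d i ≠ 0) {x₀ : J → Mat r} (hx₀ : x₀ ∈ σ.R) (hxa : x₀ σ.a = diagonal d)
    (hM : (Mm d (x₀ σ.a) (σ.W x₀)).det ≠ 0) (hloc : Loc σ Z x₀) {x : J → Mat r} (hx : x ∈ σ.R)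
    (h1 : (Mm d (x σ.a) (σ.W x)).det ≠ 0) (h2 : (kry (x σ.a) fun _ => 1).det ≠ 0) : x ∈ Z := by
  let A : (J → Mat r) → Mat r := fun y => chartA d (y σ.a) (σ.W y)
  let B : (J → Mat r) → Mat r := fun y =>
    kry (σ.W y * A y) (x σ.b *ᵥ fun _ => 1) * (kry (A y) fun _ => 1)⁻¹
  let c : (J → Mat r) → J → Mat r := fun y =>
    Function.update (Function.update y σ.a (A y)) σ.b (B y)
  have hW : RegF (UU r J) σ.W := σ.W_word.regF σ.cs_det
  let D₁ : Set (J → Mat r) := {y | y ∈ UU r J ∧ (Mm d (y σ.a) (σ.W y)).det ≠ 0}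
  have hD₁ : Bas D₁ := bas_UU.of_reg (regF_mm d (RegF.proj σ.a) hW).det
  have hA₁ : RegF D₁ A :=
    chart_regA d (RegF.proj σ.a) (hW.mono fun y hy => hy.1) fun y hy => hy.2
  let D : Set (J → Mat r) := {y | y ∈ D₁ ∧ (kry (A y) fun _ => 1).det ≠ 0}
  have hD : Bas D := hD₁.of_reg (regF_kry hA₁ (RegF.const _)).det
  have hA : RegF D A := hA₁.mono fun y hy => hy.1
  have hB : RegF D B :=
    (regF_kry ((hW.mono fun y hy => hy.1.1).mul hA) (RegF.const _)).mul
      ((regF_kry hA (RegF.const _)).inv fun y hy => hy.2)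
  have hc : RegF D c := (RegF.id.update σ.a hA).update σ.b hB
  have hAx : A x = x σ.a := chart_self hx h1
  have hAx₀ : A x₀ = x₀ σ.a := chart_self hx₀ hM
  have hxD : x ∈ D := ⟨⟨hx.1, h1⟩, by rw [hAx]; exact h2⟩
  have hx₀D : x₀ ∈ D := ⟨⟨hx₀.1, hM⟩, by rw [hAx₀, hxa]; exact kry_diag_ne hd⟩
  have hBx : B x = x σ.b := by
    show kry (σ.W x * A x) (x σ.b *ᵥ fun _ => 1) * (kry (A x) fun _ => 1)⁻¹ = _
    rw [hAx, σ.W_mul_a hx, kry_conj (hx.1 σ.b), mul_assoc, mul_inv'' h2, mul_one]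
  have hcx : c x = x := by
    show Function.update (Function.update x σ.a (A x)) σ.b (B x) = x
    rw [hAx, hBx, Function.update_eq_self, Function.update_eq_self]
  have hnear : ∀ᶠ y in 𝓝 x₀, (B y).det ≠ 0 → c y ∈ Z := by
    filter_upwards [hloc, hD.mem_nhds hx₀D] with y hy hyD hBy
    obtain ⟨z, hzZ, hzU, hrs, ⟨w, hw, hya⟩, hyz⟩ := hy
    have hzR : z ∈ σ.R := ⟨hzU, hZ.rel z hzZ hzU⟩
    have hWy : σ.W y = σ.W z := σ.W_word.indep fun k hk => hyz k hk.1 hk.2
    have hcp : (σ.W y * z σ.a).charpoly = (z σ.a).charpoly := by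
      rw [hWy]; exact chart_cp hzR
    have hAy : A y = z σ.a := chartA_unique hyD.1.2 hw hya hcp
    have hK : (kry (z σ.a) fun _ => 1).det ≠ 0 := by rw [← hAy]; exact hyD.2
    have hint : B y * z σ.a = z σ.b * z σ.a * (z σ.b)⁻¹ * B y := by
      have h3 := kry_intertwine hcp (fun _ => 1) (x σ.b *ᵥ fun _ => 1) hK
      have h4 : B y = kry (σ.W y * z σ.a) (x σ.b *ᵥ fun _ => 1) * (kry (z σ.a) fun _ => 1)⁻¹ := by
        rw [← hAy]
      rw [← h4, hWy, σ.W_mul_a hzR] at h3
      exact h3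
    have hcom : Commute ((z σ.b)⁻¹ * B y) (z σ.a) := by
      show (z σ.b)⁻¹ * B y * z σ.a = z σ.a * ((z σ.b)⁻¹ * B y)
      rw [mul_assoc, hint]
      simp only [mul_assoc, imc (hzU σ.b)]
    have h5 := hZ.ma z hzZ hzU hrs _ (hrs.inA_of_commute hcom)
      (det_mul_ne (det_inv_ne (hzU σ.b)) hBy)
    rw [mic (hzU σ.b)] at h5
    have h6 : Function.update (Function.update y σ.a (A y)) σ.b (B y) =
        Function.update z σ.b (B y) := by
      funext k
      by_cases hb : k = σ.b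
      · subst hb
        rw [Function.update_self, Function.update_self]
      · rw [Function.update_of_ne hb, Function.update_of_ne hb]
        by_cases ha : k = σ.a
        · subst ha
          rw [Function.update_self, hAy]
        · rw [Function.update_of_ne ha, hyz k ha hb]
    show Function.update (Function.update y σ.a (A y)) σ.b (B y) ∈ Z
    rw [h6]
    exact h5
  refine hZ.closed fun P hP h0 => ?_
  have h7 := ((hP.comp hc).mul hB.det).eq_zero_of_eventually (hD.mem_nhds hx₀D) (by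
    filter_upwards [hnear] with y hy
    by_cases hBy : (B y).det = 0
    · rw [hBy, mul_zero]
    · rw [h0 _ (hy hBy), zero_mul]) hxD
  rw [hcx, hBx] at h7
  exact (mul_eq_zero.1 h7).resolve_right (hx.1 σ.b)

end Vale.Agent.P002
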