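import Vale.Agent.P002.TorusEl

set_option linter.unusedVariables false

namespace Vale.Agent.P002

open Matrix Filter Topology

variable {r : ℕ} {L : IntermediateField ℚ ℂ}

theorem dense_conj_mul {P : Mat r} (hP : P.det ≠ 0) (u v : Fin r → ℂ) :
    P * diagonal (u * v) * P⁻¹ = P * diagonal u * P⁻¹ * (P * diagonal v * P⁻¹) := by
  have e : diagonal (u * v) = diagonal u * diagonal v := by
    rw [diagonal_mul_diagonal]
    rfl
  simp only [e, mul_assoc, imc hP]

theorem dense_diag_ne {P : Mat r} (hP : P.det ≠ 0) {u : Fin r → ℂ}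
    (h : (P * diagonal u * P⁻¹).det ≠ 0) (i : Fin r) : u i ≠ 0 := by
  rw [det_mul, det_mul, det_diagonal] at h
  exact Finset.prod_ne_zero_iff.1 (right_ne_zero_of_mul (left_ne_zero_of_mul h)) i
    (Finset.mem_univ i)

theorem dense_torus {P : Mat r} (hP : P.det ≠ 0)
    (h : ∀ m : Fin r → ℤ, m ≠ 0 →
      ∃ v : Fin r → ℂ, Gp L (P * diagonal v * P⁻¹) ∧ ∏ i, v i ^ m i ≠ 1) (x : Fin r → ℂ) :
    x ∈ Zc {v : Fin r → ℂ | Gp L (P * diagonal v * P⁻¹)} := by
  refine dense_of_chars _ ?_ (fun u hu v hv => ?_) (fun u hu => dense_diag_ne hP (Gp.det_ne hu)) h x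
  · show Gp L (P * diagonal (fun _ => 1) * P⁻¹)
    rw [diagonal_one, mul_one, mul_inv'' hP]
    exact Gp.one
  · show Gp L (P * diagonal (u * v) * P⁻¹)
    rw [dense_conj_mul hP]
    exact Gp.mul hu hv

theorem dense_unit (hL : Good L r) (m : Fin r → ℤ) (hm : m ≠ 0) :
    ∃ v : Fin r → ℂ, Gp L (diagonal v) ∧ ∏ i, v i ^ m i ≠ 1 := by
  obtain ⟨i₀, hi⟩ := Function.ne_iff.1 hm
  obtain ⟨θ, h1, h2, h3, h4, h5⟩ := hL.exists_unit
  have hdet : (diagonal (Function.update (fun _ : Fin r => (1 : ℂ)) i₀ θ)).det = θ := by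
    rw [det_diagonal, Finset.prod_update_of_mem (Finset.mem_univ i₀)]
    simp
  have hv : ∀ (p : ℂ → Prop), p 0 → p 1 → p θ → ∀ i j,
      p (diagonal (Function.update (fun _ : Fin r => (1 : ℂ)) i₀ θ) i j) := by
    intro p p0 p1 pθ i j
    rw [diagonal_apply]
    split_ifs
    · rw [Function.update_apply]
      split_ifs
      exacts [pθ, p1]
    · exact p0
  have hg := gp_pow (L := L) (hv (· ∈ L) L.zero_mem L.one_mem h1)
    (hv (IsIntegral ℤ) isIntegral_zero isIntegral_one h3) (by rwa [hdet]) (by rwa [hdet])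
  rw [diagonal_pow] at hg
  refine ⟨_, hg, fun e => ?_⟩
  rw [Finset.prod_eq_single i₀ (fun i _ hi => by simp [Function.update_of_ne hi])
    (fun h => absurd (Finset.mem_univ _) h), Pi.pow_apply, Function.update_self,
    ← _root_.zpow_natCast, ← _root_.zpow_mul] at e
  have e2 := congrArg norm e
  rw [norm_zpow, norm_one] at e2
  have hr : (r : ℤ) ≠ 0 := by
    have := i₀.pos
    omega
  exact mul_ne_zero hr hi ((zpow_eq_one_iff_right₀ (norm_nonneg θ) h5).1 e2)

/-- Density of the integral points of the torus of a regular semisimple integral matrix.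
Hint: `C = c • C₀`, apply `dense_of_chars` to `Γ = {v | Gp L (P * diagonal v * P⁻¹)}` and `Zc.map`
along the linear map `v ↦ P * diagonal v * P⁻¹`. -/
theorem torus_dense (hL : Good L r) {C : Mat r} (hC : Gp L C) (hRS : RS C) {t : Mat r}
    (ht : InA C t) : t ∈ Zc {s | Gp L s ∧ InA C s} := by
  obtain ⟨c, N, hc, hN, hCN⟩ := hC
  obtain ⟨P, d, hP, hd, rfl⟩ := hRS
  obtain ⟨p, rfl⟩ := ht
  have e : N = P * diagonal (c⁻¹ • d) * P⁻¹ := by
    rw [diagonal_smul, Matrix.mul_smul, Matrix.smul_mul, hCN, smul_smul, inv_mul_cancel₀ hc,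
      one_smul]
  have hd' : Function.Injective (c⁻¹ • d) := fun i j h =>
    hd (mul_left_cancel₀ (inv_ne_zero hc) h)
  rw [aeval_conj_diag hP]
  exact Zc.map (dense_torus hP (exists_torus_el hL hP hd' (e ▸ hN)) _) Bas.univ (Set.mem_univ _)
    (f := fun v => P * diagonal v * P⁻¹)
    (((RegF.const P).mul RegF.id.diagonal).mul (RegF.const P⁻¹))
    fun s hs _ => Zc.subset _ ⟨hs, inA_diag hP hd s⟩

/-- Hint: the closure is closed under products (`Zc.prod`, `Zc.map`), contains all transvections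
(`Zc.of_infinite` for the integers) and all diagonal matrices (`dense_of_chars` with
`Good.exists_unit`, `gp_pow`); `Matrix.diagonal_transvection_induction`. -/
theorem gp_dense (hL : Good L r) (M : Mat r) : M ∈ Zc {s | Gp L s} := by
  refine diagonal_transvection_induction (fun M => M ∈ Zc {s | Gp L s}) M (fun D _ => ?_)
    (fun t => ?_) fun A B hA hB => ?_
  · have h1 : (1 : Mat r).det ≠ 0 := by simp
    refine Zc.map (dense_torus (L := L) h1 (fun m hm => ?_) D) Bas.univ (Set.mem_univ _)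
      (f := fun v => diagonal v) RegF.id.diagonal fun s hs _ => Zc.subset _ ?_
    · simpa using dense_unit hL m hm
    · simpa using hs
  · obtain ⟨i, j, hij, c⟩ := t
    refine Zc.map (Zc.of_infinite (Set.infinite_range_of_injective
      (Int.cast_injective (α := ℂ))) c) Bas.univ (Set.mem_univ _)
      (f := fun c => transvection i j c) ?_ ?_
    · refine ((RegF.const 1).add (RegF.smul RegF.id.reg (RegF.const (single i j 1)))).congr
        fun x _ => ?_
      simp [transvection]
    · rintro _ ⟨k, rfl⟩ _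
      have hv : ∀ (p : ℂ → Prop), (∀ z : ℤ, p z) → ∀ a b, p (transvection i j (k : ℂ) a b) := by
        intro p hp a b
        have e : transvection i j (k : ℂ) a b = (transvection i j k a b : ℤ) := by
          simp only [transvection, Matrix.add_apply, one_apply, single_apply]
          push_cast
          rfl
        rw [e]
        exact hp _
      exact Zc.subset _ (IntSL.gp ⟨hv (· ∈ L) fun z => intCast_mem L z,
        hv (IsIntegral ℤ) fun z => isIntegral_algebraMap (x := z), det_transvection_of_ne i j hij _⟩)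
  · exact Zc.map (Zc.prod hA hB) Bas.univ (Set.mem_univ _) (f := fun q => q.1 * q.2)
      (RegF.id.fst.mul RegF.id.snd) fun s hs _ => Zc.subset _ (Gp.mul hs.1 hs.2)

/-- Moves along tori extend to the closure. Hint: `t = p (C x)`; on the basic open set
`U' = {y ∈ U | RS (C y) ∧ det (p (C y)) ≠ 0}` the map `y ↦ m (y, p (C y))` is regular; for
`s ∈ S ∩ U'` use `torus_dense` and `Zc.map` along `t ↦ m (s, t)`. -/
theorem move_gen (hL : Good L r) {E : Type} [AddCommGroup E] [Module ℂ E] {S U : Set E}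
    (hU : Bas U) {C : E → Mat r} (hC : RegF U C) {m : E × Mat r → E}
    (hm : RegF {q : E × Mat r | q.1 ∈ U ∧ q.2.det ≠ 0} m) (hCS : ∀ s ∈ S, Gp L (C s))
    (hmS : ∀ s ∈ S, ∀ t, Gp L t → InA (C s) t → m (s, t) ∈ S) {x : E} (hx : x ∈ Zc S)
    (hxU : x ∈ U) (hRS : RS (C x)) {t : Mat r} (ht : InA (C x) t) (htd : t.det ≠ 0) :
    m (x, t) ∈ Zc S := by
  obtain ⟨p, rfl⟩ := ht
  have hC' : RegF {y | y ∈ U ∧ RS (C y)} fun y => Polynomial.aeval (C y) p :=
    (hC.aeval p).mono fun y hy => hy.1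
  have hU' := (bas_rs hU hC).of_reg hC'.det
  refine Zc.map hx hU' ⟨⟨hxU, hRS⟩, htd⟩ (f := fun y => m (y, Polynomial.aeval (C y) p))
    (hm.comp (RegF.id.prodMk (hC'.mono fun y hy => hy.1)) fun y hy => ⟨hy.1.1, hy.2⟩)
    fun s hs hsU => ?_
  exact Zc.map (torus_dense hL (hCS s hs) hsU.1.2 ⟨p, rfl⟩) bas_det hsU.2 (f := fun t => m (s, t))
    (hm.comp ((RegF.const s).prodMk RegF.id) fun t ht => ⟨hsU.1.1, ht⟩)
    fun t ht _ => Zc.subset _ (hmS s hs t ht.1 ht.2)

end Vale.Agent.P002
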