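import Vale.Agent.P002.Reg

set_option linter.unusedVariables false

namespace Vale.Agent.P002

open Matrix Filter Topology

variable {r : ℕ} {J : Type} [Finite J] [DecidableEq J]

theorem descent_poly {P : (J → Mat r) → ℂ} (hP : IsPoly P) (k : J) :
    ∃ (N : ℕ) (q : (J → Mat r) → Polynomial ℂ), (∀ y, (q y).natDegree ≤ N) ∧
      (∀ n, IsPoly fun y => (q y).coeff n) ∧
      ∀ (c : ℂ) y, P (Function.update y k (c • y k)) = (q y).eval c := by
  induction hP with
  | const c => exact ⟨0, fun _ => Polynomial.C c, fun _ => by simp, fun _ => .const _, by simp⟩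
  | lin l =>
    let B : (J → Mat r) →ₗ[ℂ] J → Mat r :=
      (LinearMap.single ℂ (fun _ => Mat r) k).comp (LinearMap.proj k)
    refine ⟨1, fun y => Polynomial.C (l (B y)) * Polynomial.X + Polynomial.C (l (y - B y)),
      fun y => Polynomial.natDegree_linear_le, fun n => ?_, fun c y => ?_⟩
    · refine (((IsPoly.lin (l.comp B)).mul (.const ((Polynomial.X : Polynomial ℂ).coeff n))).add
        ((IsPoly.lin (l.comp (LinearMap.id - B))).mul
          (.const ((1 : Polynomial ℂ).coeff n)))).congr fun y => ?_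
      rw [Polynomial.coeff_add, Polynomial.coeff_C_mul, ← mul_one (Polynomial.C (l (y - B y))),
        Polynomial.coeff_C_mul]
      rfl
    · have : Function.update y k (c • y k) = c • B y + (y - B y) := by
        funext j
        by_cases h : j = k
        · subst h; simp [B]
        · simp [B, h]
      simp only [this, map_add, map_smul, Polynomial.eval_add, Polynomial.eval_mul,
        Polynomial.eval_C, Polynomial.eval_X, smul_eq_mul]
      ring
  | add _ _ h1 h2 =>
    obtain ⟨N, q, a1, a2, a3⟩ := h1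
    obtain ⟨N', q', b1, b2, b3⟩ := h2
    exact ⟨max N N', fun y => q y + q' y, fun y => Polynomial.natDegree_add_le_of_le (a1 y) (b1 y),
      fun n => ((a2 n).add (b2 n)).congr fun y => Polynomial.coeff_add _ _ _,
      fun c y => by simp only [a3, b3, Polynomial.eval_add]⟩
  | mul _ _ h1 h2 =>
    obtain ⟨N, q, a1, a2, a3⟩ := h1
    obtain ⟨N', q', b1, b2, b3⟩ := h2
    exact ⟨N + N', fun y => q y * q' y, fun y => Polynomial.natDegree_mul_le_of_le (a1 y) (b1 y),
      fun n => (IsPoly.sum _ fun p _ => (a2 p.1).mul (b2 p.2)).congr fun y =>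
        Polynomial.coeff_mul _ _ _, fun c y => by simp only [a3, b3, Polynomial.eval_mul]⟩

omit [Finite J] in
theorem descent_upd (k : J) (c d : ℂ) (y : J → Mat r) :
    Function.update (Function.update y k (d • y k)) k (c • Function.update y k (d • y k) k) =
      Function.update y k ((d * c) • y k) := by
  simp [smul_smul, mul_comm]

/-- homogeneous components with respect to the scaling of one coordinate (induction on `IsPoly`;
it may be easier to produce `q : (J → Mat r) → ℂ[X]` with bounded degree and polynomial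
coefficients) -/
theorem IsPoly.homog {P : (J → Mat r) → ℂ} (hP : IsPoly P) (k : J) :
    ∃ (N : ℕ) (Q : ℕ → (J → Mat r) → ℂ), (∀ n, IsPoly (Q n)) ∧
      (∀ (c : ℂ) y, P (Function.update y k (c • y k)) = ∑ n ∈ Finset.range N, c ^ n * Q n y) ∧
      ∀ n (c : ℂ) y, Q n (Function.update y k (c • y k)) = c ^ n * Q n y := by
  obtain ⟨N, q, a1, a2, a3⟩ := descent_poly hP k
  refine ⟨N + 1, fun n y => (q y).coeff n, a2, fun c y => ?_, fun n c y => ?_⟩
  · rw [a3, Polynomial.eval_eq_sum_range' (Nat.lt_succ_of_le (a1 y))]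
    exact Finset.sum_congr rfl fun _ _ => mul_comm _ _
  · have : q (Function.update y k (c • y k)) = (q y).comp (Polynomial.C c * Polynomial.X) :=
      Polynomial.funext fun d => by
        rw [← a3, descent_upd, a3]
        simp [Polynomial.eval_comp]
    simp only [this, Polynomial.comp_C_mul_X_coeff]
    exact mul_comm _ _

/-- For `ρ < r` let `φ ρ y = ∑ n ≡ ρ mod r, Q n y * (det (y k))⁻¹ ^ (n / r)`, regular on
`det (y k) ≠ 0`. On `S` it is `∑ n ≡ ρ, Q n`, which vanishes (apply `hS2` repeatedly and average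
with powers of `ω`, or use a Vandermonde argument), and `φ ρ (update s k (c • s k)) = c ^ ρ * φ ρ s`.
So `φ ρ x = 0` (`Zc.reg_zero`) and `P x = ∑ ρ, φ ρ x`. -/
theorem descent_one (hr : 0 < r) {ω : ℂ} (hω : IsPrimitiveRoot ω r) (k : J)
    {S : Set (J → Mat r)} (hS1 : ∀ s ∈ S, (s k).det = 1)
    (hS2 : ∀ s ∈ S, Function.update s k (ω • s k) ∈ S) {x : J → Mat r} (hx : (x k).det = 1)
    (h : x ∈ Zc {y | ∃ s ∈ S, ∃ c : ℂ, c ≠ 0 ∧ y = Function.update s k (c • s k)}) :
    x ∈ Zc S := by
  intro P hP h0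
  obtain ⟨N, Q, a1, a2, a3⟩ := hP.homog k
  let g : ℕ → Fin r := fun n => ⟨n % r, Nat.mod_lt n hr⟩
  have hS : ∀ j : ℕ, ∀ s ∈ S, Function.update s k (ω ^ j • s k) ∈ S := by
    intro j s hs
    induction j with
    | zero => simpa using hs
    | succ j ih => rw [pow_succ, ← descent_upd]; exact hS2 _ ih
  have h1 : ∀ s ∈ S, ∀ ρ, ∑ n ∈ Finset.range N with g n = ρ, Q n s = 0 := fun s hs => by
    refine congrFun (Matrix.eq_zero_of_forall_pow_sum_mul_pow_eq_zero
      (f := fun ρ : Fin r => ω ^ (ρ : ℕ)) (fun a b e => Fin.ext (hω.pow_inj a.2 b.2 e))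
      fun j => ?_)
    rw [← h0 _ (hS j s hs), a2, ← Finset.sum_fiberwise _ g]
    refine Finset.sum_congr rfl fun ρ _ => ?_
    rw [Finset.sum_mul]
    refine Finset.sum_congr rfl fun n hn => ?_
    rw [← (Finset.mem_filter.1 hn).2, mul_comm, pow_right_comm _ _ n]
    congr 2
    exact (pow_eq_pow_mod n hω.pow_eq_one).symm
  have hU : Bas {y : J → Mat r | y ∈ Set.univ ∧ (y k).det ≠ 0} :=
    Bas.univ.of_reg (RegF.proj k).det
  have h2 : ∀ ρ, ∑ n ∈ Finset.range N with g n = ρ, Q n x * (x k).det⁻¹ ^ (n / r) = 0 := by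
    intro ρ
    refine Zc.reg_zero h hU ⟨trivial, by rw [hx]; exact one_ne_zero⟩
      (Reg.sum _ fun n _ => ((a1 n).reg _).mul (((RegF.proj k).det.inv fun y hy => hy.2).pow _)) ?_
    rintro _ ⟨s, hs, c, hc, rfl⟩ -
    refine Eq.trans (Finset.sum_congr rfl fun n hn => ?_)
      ((Finset.mul_sum _ _ (c ^ (ρ : ℕ))).symm.trans (by rw [h1 s hs ρ, mul_zero]))
    rw [a3, Function.update_self, Matrix.det_smul, hS1 s hs, Fintype.card_fin,
      ← (Finset.mem_filter.1 hn).2]
    conv_lhs => rw [← Nat.mod_add_div n r, pow_add, pow_mul, Nat.mod_add_div]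
    simp only [g, inv_pow, mul_one]
    field_simp
  have h3 := a2 1 x
  rw [one_smul, Function.update_eq_self, ← Finset.sum_fiberwise _ g] at h3
  rw [h3]
  exact Finset.sum_eq_zero fun ρ _ => by simpa [hx] using h2 ρ

/-- induction over finsets `T` of coordinates that are scaled -/
theorem descent (hr : 0 < r) {ω : ℂ} (hω : IsPrimitiveRoot ω r) {S : Set (J → Mat r)}
    (hS1 : ∀ s ∈ S, ∀ k, (s k).det = 1)
    (hS2 : ∀ s ∈ S, ∀ k, Function.update s k (ω • s k) ∈ S) {x : J → Mat r}
    (hx : ∀ k, (x k).det = 1)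
    (h : x ∈ Zc {y | ∃ s ∈ S, ∃ c : J → ℂ, (∀ k, c k ≠ 0) ∧ y = fun k => c k • s k}) :
    x ∈ Zc S := by
  have := Fintype.ofFinite J
  have key : ∀ T : Finset J, x ∈ Zc {y | ∃ s ∈ S, ∃ c : J → ℂ, (∀ k, c k ≠ 0) ∧
      (∀ k ∉ T, c k = 1) ∧ y = fun k => c k • s k} → x ∈ Zc S := by
    intro T
    induction T using Finset.induction_on with
    | empty =>
      refine fun h => Zc.mono ?_ h
      rintro _ ⟨s, hs, c, -, hc, rfl⟩
      simpa [fun k => hc k (Finset.notMem_empty k)] using hs
    | insert k T hk ih =>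
      refine fun h => ih (descent_one hr hω k ?_ ?_ (hx k) (Zc.mono ?_ h))
      · rintro _ ⟨s, hs, c, -, hc, rfl⟩
        simpa [hc k hk] using hS1 s hs k
      · rintro _ ⟨s, hs, c, h0, hc, rfl⟩
        refine ⟨_, hS2 s hs k, c, h0, hc, funext fun j => ?_⟩
        by_cases e : j = k
        · subst e; simp [smul_comm ω]
        · simp [e]
      · rintro _ ⟨s, hs, c, h0, hc, rfl⟩
        refine ⟨_, ⟨s, hs, Function.update c k 1, fun j => ?_, fun j hj => ?_, rfl⟩, c k, h0 k,
          funext fun j => ?_⟩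
        · by_cases e : j = k
          · subst e; simp
          · simp [e, h0]
        · by_cases e : j = k
          · subst e; simp
          · rw [Function.update_of_ne e, hc j (by simp [e, hj])]
        · by_cases e : j = k
          · subst e; simp
          · simp [e]
  refine key Finset.univ (Zc.mono ?_ h)
  rintro _ ⟨s, hs, c, h0, rfl⟩
  exact ⟨s, hs, c, h0, fun k hk => absurd (Finset.mem_univ k) hk, rfl⟩

end Vale.Agent.P002
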