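import Vale.Agent.P002.Defs

set_option linter.unusedVariables false

namespace Vale.Agent.P002

open Matrix Filter Topology

open NumberField in
/-- a linear relation between the logarithms of all units is a multiple of the product formula -/
theorem dirich_rel (K : Type) [Field K] [NumberField K] (d : InfinitePlace K → ℝ)
    (h : ∀ u : (𝓞 K)ˣ, ∑ w, d w * ((InfinitePlace.mult w : ℝ) * Real.log (w (u : K))) = 0)
    (w₁ : InfinitePlace K) (h1 : d w₁ = 0) (w : InfinitePlace K) : d w = 0 := by
  classical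
  obtain ⟨v, -, hv⟩ := Finset.exists_max_image Finset.univ d ⟨w, Finset.mem_univ _⟩
  have key : ∀ w, d w = d v := by
    obtain ⟨u, hu⟩ := Units.dirichletUnitTheorem.exists_unit K v
    have h2 : ∑ w, (d v - d w) * ((InfinitePlace.mult w : ℝ) * Real.log (w (u : K))) = 0 := by
      simp only [sub_mul]
      rw [Finset.sum_sub_distrib, h u, ← Finset.mul_sum, Units.sum_mult_mul_log, mul_zero,
        sub_zero]
    have h3 : ∀ w : InfinitePlace K, w ≠ v →
        (InfinitePlace.mult w : ℝ) * Real.log (w (u : K)) < 0 := fun w hw =>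
      mul_neg_of_pos_of_neg (Nat.cast_pos.2 InfinitePlace.mult_pos) (hu w hw)
    have h4 : ∀ w ∈ (Finset.univ : Finset (InfinitePlace K)),
        (d v - d w) * ((InfinitePlace.mult w : ℝ) * Real.log (w (u : K))) ≤ 0 := by
      intro w _
      by_cases hw : w = v
      · rw [hw, sub_self, zero_mul]
      · exact mul_nonpos_of_nonneg_of_nonpos (sub_nonneg.2 (hv w (Finset.mem_univ _)))
          (h3 w hw).le
    intro w
    by_cases hw : w = v
    · rw [hw]
    · have := (Finset.sum_eq_zero_iff_of_nonpos h4).1 h2 w (Finset.mem_univ _)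
      exact (sub_eq_zero.1 ((mul_eq_zero.1 this).resolve_right (h3 w hw).ne)).symm
  rw [key w, ← key w₁, h1]

theorem dirich_conj {z : ℂ} (hz : IsPrimitiveRoot z 5) : starRingEnd ℂ z * z = 1 := by
  rw [mul_comm, Complex.mul_conj, Complex.normSq_eq_norm_sq, hz.norm'_eq_one (by norm_num)]
  simp

theorem dirich_ne {z : ℂ} (hz : IsPrimitiveRoot z 5) {k : ℕ} (h0 : 0 < k) (h5 : k < 5) :
    z ^ k ≠ 1 := hz.pow_ne_one_of_pos_of_lt h0.ne' h5

/-- Multiplicative independence of embeddings on units. Hint: if `ι` is not empty let `z = e i ζ`.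
The infinite places `InfinitePlace.mk (e i)` are pairwise distinct (`e j = conjugate (e i)` would
give `z = conj z = z⁻¹`), and there is a further place `w₀ = mk φ` with `φ ζ = z ^ 2`
(`NumberField.Embeddings.range_eval_eq_rootSet_minpoly`, `Polynomial.cyclotomic_eq_minpoly_rat`).
By Dirichlet (`NumberField.Units.dirichletUnitTheorem.unitLattice_span_eq_top`,
`sum_logEmbedding_component` or `sum_mult_mul_log`) a linear relation
`∑ w, c w * log (w u) = 0` for all units `u` has `c w` proportional to `w.mult`; it has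
`c w₀ = 0`, hence `c = 0`. -/
theorem dirichlet_indep (K : Type) [Field K] [NumberField K] (ζ : K) (hζ : IsPrimitiveRoot ζ 5)
    {ι : Type} [Fintype ι] (e : ι → (K →+* ℂ)) (he : Function.Injective e)
    (hfix : ∀ i j, e i ζ = e j ζ) (m : ι → ℤ)
    (h : ∀ u : K, u ≠ 0 → IsIntegral ℤ u → IsIntegral ℤ u⁻¹ → ∏ i, ‖e i u‖ ^ m i = 1) :
    m = 0 := by
  classical
  funext i₀
  have hz : IsPrimitiveRoot (e i₀ ζ) 5 := hζ.map_of_injective (e i₀).injective
  have hz0 : e i₀ ζ ≠ 0 := hz.ne_zero (by norm_num)
  have hc := dirich_conj hz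
  have hinj : ∀ i j, NumberField.InfinitePlace.mk (e i) = NumberField.InfinitePlace.mk (e j) →
      i = j := by
    intro i j hij
    rcases NumberField.InfinitePlace.mk_eq_iff.1 hij with h1 | h1
    · exact he h1
    · exfalso
      have h2 : starRingEnd ℂ (e i ζ) = e j ζ := RingHom.congr_fun h1 ζ
      rw [hfix i i₀, hfix j i₀] at h2
      rw [h2, ← pow_two] at hc
      exact dirich_ne hz (by norm_num) (by norm_num) hc
  obtain ⟨φ, hφ⟩ : ∃ φ : K →+* ℂ, φ ζ = e i₀ ζ ^ 2 := by
    have h1 : e i₀ ζ ^ 2 ∈ (minpoly ℚ ζ).rootSet ℂ := by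
      rw [← Polynomial.cyclotomic_eq_minpoly_rat hζ (by norm_num),
        Polynomial.mem_rootSet_of_ne (Polynomial.cyclotomic_ne_zero 5 ℚ), Polynomial.aeval_def,
        ← Polynomial.eval_map, Polynomial.map_cyclotomic]
      exact (hz.pow_of_coprime 2 (by norm_num)).isRoot_cyclotomic (by norm_num)
    rw [← NumberField.Embeddings.range_eval_eq_rootSet_minpoly K ℂ ζ] at h1
    exact h1
  have hφne : ∀ i, NumberField.InfinitePlace.mk (e i) ≠ NumberField.InfinitePlace.mk φ := by
    intro i hi
    rcases NumberField.InfinitePlace.mk_eq_iff.1 hi with h1 | h1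
    · have h2 : e i ζ = φ ζ := RingHom.congr_fun h1 ζ
      rw [hfix i i₀, hφ, pow_two] at h2
      refine dirich_ne hz (k := 1) (by norm_num) (by norm_num) ?_
      rw [pow_one]
      exact (mul_left_cancel₀ hz0 ((mul_one _).trans h2)).symm
    · have h2 : starRingEnd ℂ (e i ζ) = φ ζ := RingHom.congr_fun h1 ζ
      rw [hfix i i₀, hφ] at h2
      rw [h2, ← pow_succ] at hc
      exact dirich_ne hz (by norm_num) (by norm_num) hc
  let d : NumberField.InfinitePlace K → ℝ := fun w =>
    (∑ i, if NumberField.InfinitePlace.mk (e i) = w then (m i : ℝ) else 0) / w.mult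
  have hm : ∀ w : NumberField.InfinitePlace K, (w.mult : ℝ) ≠ 0 := fun w =>
    (Nat.cast_pos.2 NumberField.InfinitePlace.mult_pos).ne'
  have key := dirich_rel K d (fun u => ?_) (NumberField.InfinitePlace.mk φ) ?_
    (NumberField.InfinitePlace.mk (e i₀))
  · have h1 := (div_eq_zero_iff.1 key).resolve_right (hm _)
    rw [Finset.sum_eq_single i₀ (fun i _ hi => if_neg fun h => hi (hinj _ _ h))
      (fun h => absurd (Finset.mem_univ _) h), if_pos rfl] at h1
    exact_mod_cast h1
  · have hu0 : (u : K) ≠ 0 := NumberField.Units.coe_ne_zero u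
    have hi : IsIntegral ℤ (u : K)⁻¹ := by
      have h1 := NumberField.Units.coe_zpow u (-1)
      rw [_root_.zpow_neg_one, _root_.zpow_neg_one] at h1
      rw [← h1]
      exact (u⁻¹ : (NumberField.RingOfIntegers K)ˣ).1.isIntegral_coe
    have h1 := congrArg Real.log (h u hu0 u.1.isIntegral_coe hi)
    rw [Real.log_prod fun i _ => zpow_ne_zero _ (norm_ne_zero_iff.2 ((map_ne_zero _).2 hu0)),
      Real.log_one] at h1
    rw [← h1]
    have h2 : ∀ w : NumberField.InfinitePlace K, d w * ((w.mult : ℝ) * Real.log (w (u : K))) =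
        ∑ i, if NumberField.InfinitePlace.mk (e i) = w then (m i : ℝ) * Real.log (w (u : K))
          else 0 := by
      intro w
      rw [← mul_assoc, div_mul_cancel₀ _ (hm w), Finset.sum_mul]
      exact Finset.sum_congr rfl fun i _ => by rw [ite_mul, zero_mul]
    rw [Finset.sum_congr rfl fun w _ => h2 w, Finset.sum_comm]
    refine Finset.sum_congr rfl fun i _ => ?_
    rw [Finset.sum_ite_eq, if_pos (Finset.mem_univ _), Real.log_zpow,
      NumberField.InfinitePlace.apply]
  · show _ / _ = _
    rw [Finset.sum_eq_zero fun i _ => if_neg (hφne i), zero_div]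

end Vale.Agent.P002
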