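import Vale.Agent.P002.SysB

set_option linter.unusedVariables false

namespace Vale.Agent.P002

open Matrix Filter Topology

variable {r : ℕ} {J : Type} [DecidableEq J] (σ : Sys r J) {y : J → Mat r} {t : Mat r}

theorem update_UU (hy : y ∈ UU r J) (i : J) (ht : t.det ≠ 0) :
    Function.update y i (y i * t) ∈ UU r J := by
  intro k
  by_cases hk : k = i
  · subst hk
    rw [Function.update_self]
    exact det_mul_ne (hy k) ht
  · rw [Function.update_of_ne hk]
    exact hy k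

theorem dmalg_left {A B t : Mat r} (hc : Commute t B) (ht : t.det ≠ 0) :
    cm (A * t) B = cm A B := by
  have e : t * (B * (t⁻¹ * (A⁻¹ * B⁻¹))) = B * (A⁻¹ * B⁻¹) := by
    rw [← mul_assoc, hc.eq, mul_assoc, mic ht]
  simp only [cm, Matrix.mul_inv_rev, mul_assoc, e]

theorem dmalg_right {A B t : Mat r} (hc : Commute t A) (ht : t.det ≠ 0) :
    cm A (B * t) = cm A B := by
  have e : t * (A⁻¹ * (t⁻¹ * B⁻¹)) = A⁻¹ * B⁻¹ := by
    rw [← mul_assoc, (commute_inv hc).eq, mul_assoc, mic ht]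
  simp only [cm, Matrix.mul_inv_rev, mul_assoc, e]

namespace Sys

theorem rel_ma (hy : y ∈ UU r J) (hc : Commute t (y σ.a)) (ht : t.det ≠ 0) :
    σ.rel (Function.update y σ.b (y σ.b * t)) = σ.rel y := by
  rw [rel, rel, σ.W_word.indep (y' := y) fun k hk => Function.update_of_ne hk.2 _ _,
    Function.update_self, Function.update_of_ne σ.ab, dmalg_right hc ht]

theorem rel_mb (hy : y ∈ UU r J) (hc : Commute t (y σ.b)) (ht : t.det ≠ 0) :
    σ.rel (Function.update y σ.a (y σ.a * t)) = σ.rel y := by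
  rw [rel, rel, σ.W_word.indep (y' := y) fun k hk => Function.update_of_ne hk.1 _ _,
    Function.update_self, Function.update_of_ne σ.ab.symm, dmalg_left hc ht]

theorem W_mβ (hy : y ∈ UU r J) (hc : Commute t (y σ.β)) (ht : t.det ≠ 0) :
    σ.W (Function.update y σ.α (y σ.α * t)) = σ.W y := by
  rw [W, W, σ.W'_word.indep (y' := y) fun k hk => Function.update_of_ne hk.2.2.1 _ _,
    Function.update_self, Function.update_of_ne σ.αβ.symm, dmalg_left hc ht]

theorem rel_mβ (hy : y ∈ UU r J) (hc : Commute t (y σ.β)) (ht : t.det ≠ 0) :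
    σ.rel (Function.update y σ.α (y σ.α * t)) = σ.rel y := by
  rw [rel, rel, σ.W_mβ hy hc ht, Function.update_of_ne σ.aα, Function.update_of_ne σ.bα]

theorem dm_a (k : Option J) : σ.dm k y t σ.a = t * y σ.a * t⁻¹ := if_pos rfl

theorem dm_b (k : Option J) : σ.dm k y t σ.b = y σ.b * t⁻¹ :=
  (if_neg σ.ab.symm).trans (if_pos rfl)

theorem dm_β (k : Option J) : σ.dm k y t σ.β = σ.Dk k y * t * (σ.Dk k y)⁻¹ * y σ.β :=
  (if_neg σ.aβ.symm).trans ((if_neg σ.bβ.symm).trans (if_pos rfl))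

theorem dm_α {k : Option J} (hk : ∀ j, k = some j → σ.Rest j) : σ.dm k y t σ.α = y σ.α :=
  (if_neg σ.aα.symm).trans ((if_neg σ.bα.symm).trans ((if_neg σ.αβ).trans
    (if_neg fun h => (hk _ h).2.2.1 rfl)))

theorem dm_rest (k : Option J) {j : J} (hj : σ.Rest j) :
    σ.dm k y t j = if k = some j then σ.S j y * t * (σ.S j y)⁻¹ * y j else y j :=
  (if_neg hj.1).trans ((if_neg hj.2.1).trans (if_neg hj.2.2.2))

theorem dmalg_D (k : Option J) (hy : y ∈ UU r J) : (σ.Dk k y).det ≠ 0 :=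
  (σ.Dk_word k).det_ne σ.cs_det fun j _ => hy j

theorem dmalg_S (j : J) (hy : y ∈ UU r J) : (σ.S j y).det ≠ 0 :=
  (σ.S_word j).det_ne σ.cs_det fun j _ => hy j

theorem dmalg_W' {k : Option J} (hk : ∀ j, k = some j → σ.Rest j) (hy : y ∈ UU r J)
    (ht : t.det ≠ 0) : σ.W' (σ.dm k y t) = σ.Dk k y * t * (σ.Dk k y)⁻¹ * σ.W' y * t⁻¹ := by
  rcases k with _ | j
  · have hD := σ.dmalg_D none hy
    rw [σ.W'_word.indep (y' := y) fun i hi => (σ.dm_rest none hi).trans (if_neg nofun)]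
    simp only [Dk] at hD ⊢
    simp only [mul_assoc, imc hD, mul_inv'' ht, mul_one]
  · have hj := hk j rfl
    have hS := σ.dmalg_S j hy
    have hP : (σ.P j y).det ≠ 0 := (σ.P_word j).det_ne σ.cs_det fun j _ => hy j
    have e : σ.W' (σ.dm (some j) y t) =
        σ.W' (Function.update y j (σ.S j y * t * (σ.S j y)⁻¹ * y j)) := by
      refine σ.W'_word.indep fun i hi => ?_
      rw [σ.dm_rest _ hi]
      by_cases h : i = j
      · subst h
        rw [if_pos rfl, Function.update_self]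
      · rw [if_neg fun h' => h (Option.some.inj h').symm, Function.update_of_ne h]
    rw [e, σ.W'_update hj, σ.W'_split hj]
    simp only [Dk, Matrix.mul_inv_rev, inv_inv' hS, mul_assoc, imc hP, inv_mul' hS, mul_one]

/-- With `D = Dk k y`, `u = D t D⁻¹`, `A = y a`, `A₂ = y α`:
`W (dm k y t) = A₂ u A₂⁻¹ * W y * t⁻¹ = W y * A * t * A⁻¹ * t⁻¹` because `t` commutes with
`Ck k y`. -/
theorem rel_dm {k : Option J} (hk : ∀ j, k = some j → σ.Rest j) (hy : y ∈ σ.R)
    (hc : Commute t (σ.Ck k y)) (ht : t.det ≠ 0) : σ.rel (σ.dm k y t) = 1 := by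
  have hD := σ.dmalg_D k hy.1
  have ha := hy.1 σ.a
  have hb := hy.1 σ.b
  have hα := hy.1 σ.α
  have ht' := det_inv_ne ht
  have h1 : σ.W (σ.dm k y t) = y σ.α * σ.Dk k y * (t * σ.Ck k y) * (y σ.a)⁻¹ * t⁻¹ := by
    rw [W, σ.dmalg_W' hk hy.1 ht, σ.dm_α hk, σ.dm_β, Ck, W]
    simp only [cm, Matrix.mul_inv_rev, inv_inv' hD, mul_assoc, imc hD, mic hD, imc ht, imc hα,
      mic ha]
  refine σ.rel_of_W_mul_a ?_ ?_ ?_
  · rw [dm_a]
    exact det_mul_ne (det_mul_ne ht ha) ht'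
  · rw [dm_b]
    exact det_mul_ne hb ht'
  · have h2 : ∀ X, σ.W y * (y σ.a * X) = y σ.b * (y σ.a * ((y σ.b)⁻¹ * X)) := fun X => by
      rw [← mul_assoc, σ.W_mul_a hy]
      simp only [mul_assoc]
    rw [h1, hc.eq, dm_a, dm_b, Ck]
    simp only [mul_assoc, mic hD, mic hα, imc ht, mic ht, imc ha, h2, imc hb]

theorem dm_one (k : Option J) (hy : y ∈ UU r J) : σ.dm k y 1 = y := by
  funext j
  unfold dm
  split_ifs with h1 h2 h3 h4
  · rw [h1, inv_one, one_mul, mul_one]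
  · rw [h2, inv_one, mul_one]
  · rw [h3, mul_one, mul_inv'' (σ.dmalg_D k hy), one_mul]
  · rw [mul_one, mul_inv'' (σ.dmalg_S j hy), one_mul]
  · rfl

theorem regF_dm [Finite J] (k : Option J) :
    RegF {q : (J → Mat r) × Mat r | q.1 ∈ UU r J ∧ q.2.det ≠ 0} fun q => σ.dm k q.1 q.2 := by
  have h1 : RegF {q : (J → Mat r) × Mat r | q.1 ∈ UU r J ∧ q.2.det ≠ 0} fun q => q.1 := RegF.id.fst
  have h2 : RegF {q : (J → Mat r) × Mat r | q.1 ∈ UU r J ∧ q.2.det ≠ 0} fun q => q.2 := RegF.id.snd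
  have h3 := h2.inv fun q hq => hq.2
  have hD := ((σ.Dk_word k).regF σ.cs_det).comp h1 fun q hq => hq.1
  refine RegF.pi fun j => ?_
  have hS := ((σ.S_word j).regF σ.cs_det).comp h1 fun q hq => hq.1
  unfold dm
  split_ifs
  · exact (h2.mul (h1.apply _)).mul h3
  · exact (h1.apply _).mul h3
  · exact ((hD.mul h2).mul (hD.inv fun q hq => σ.dmalg_D k hq.1)).mul (h1.apply _)
  · exact ((hS.mul h2).mul (hS.inv fun q hq => σ.dmalg_S j hq.1)).mul (h1.apply _)
  · exact h1.apply _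

theorem gp_dm {L : IntermediateField ℚ ℂ} (hcc : ∀ k, Gp L (σ.cc k)) (k : Option J)
    (hy : ∀ j, Gp L (y j)) (ht : Gp L t) (j : J) : Gp L (σ.dm k y t j) := by
  have hc : ∀ c ∈ Set.range σ.cc, Gp L c := by
    rintro _ ⟨i, rfl⟩
    exact hcc i
  have hD := (σ.Dk_word k).gp hc fun i _ => hy i
  have hS := (σ.S_word j).gp hc fun i _ => hy i
  unfold dm
  split_ifs
  · exact (ht.mul (hy _)).mul ht.inv
  · exact (hy _).mul ht.inv
  · exact ((hD.mul ht).mul hD.inv).mul (hy _)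
  · exact ((hS.mul ht).mul hS.inv).mul (hy _)
  · exact hy _

end Sys

end Vale.Agent.P002
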