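import Vale.Agent.P002.Defs

set_option linter.unusedVariables false

namespace Vale.Agent.P002

open Matrix Filter Topology

variable {E : Type} [NormedAddCommGroup E] [NormedSpace ℂ E] [FiniteDimensional ℂ E]

/-- the directions in `V` are reached by a differentiable family of points of `Z` -/
def reach_R (Z : Set E) (x : E) (V : Submodule ℂ E) : Prop :=
  ∃ (Pm : Type) (_ : NormedAddCommGroup Pm) (_ : NormedSpace ℂ Pm) (_ : FiniteDimensional ℂ Pm)
    (Ψ : Pm → E) (Ψ' : Pm →L[ℂ] E), Ψ 0 = x ∧ HasStrictFDerivAt Ψ Ψ' 0 ∧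
      (∀ᶠ p in 𝓝 (0 : Pm), Ψ p ∈ Z) ∧ V ≤ Ψ'.range

omit [FiniteDimensional ℂ E] in
theorem reach_step {Z : Set E} {x v : E} {V : Submodule ℂ E} (h : reach_R Z x V)
    (hv : Flow Z x v) : reach_R Z x (Submodule.span ℂ {v} ⊔ V) := by
  obtain ⟨Pm, _, _, _, Ψ, Ψ', h0, hd, hZ, hV⟩ := h
  obtain ⟨F, hF, hF0, hFZ, hFv⟩ := hv
  have hs := hF.hasStrictFDerivAt one_ne_zero
  set F' := fderiv ℂ F (x, 0) with hF'
  have e1 : F'.comp (ContinuousLinearMap.inl ℂ E ℂ) = ContinuousLinearMap.id ℂ E := by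
    have d1 : HasFDerivAt (fun y : E => F (y, 0)) (F'.comp (ContinuousLinearMap.inl ℂ E ℂ)) x :=
      HasFDerivAt.comp (g := F) (f := fun y : E => (y, (0 : ℂ))) x hs.hasFDerivAt
        (hasFDerivAt_prodMk_left x 0)
    exact d1.unique ((hasFDerivAt_id x).congr_of_eventuallyEq hF0)
  have e2 : F' (0, 1) = v := by
    have d1 : HasDerivAt (fun τ : ℂ => F (x, τ)) (F' (0, 1)) 0 :=
      HasFDerivAt.comp_hasDerivAt (l := F) (f := fun τ : ℂ => (x, τ)) 0 hs.hasFDerivAt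
        ((hasDerivAt_const (0 : ℂ) x).prodMk (hasDerivAt_id (0 : ℂ)))
    exact d1.unique hFv
  have hp : HasStrictFDerivAt (fun q : Pm × ℂ => (Ψ q.1, q.2))
      (Ψ'.prodMap (ContinuousLinearMap.id ℂ ℂ)) 0 :=
    HasStrictFDerivAt.prodMap (f := Ψ) (f₂ := id) (0 : Pm × ℂ) hd (hasStrictFDerivAt_id _)
  have hs' : HasStrictFDerivAt F F' ((fun q : Pm × ℂ => (Ψ q.1, q.2)) 0) := by
    simpa [h0] using hs
  refine ⟨Pm × ℂ, inferInstance, inferInstance, inferInstance, fun q => F (Ψ q.1, q.2),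
    F'.comp (Ψ'.prodMap (ContinuousLinearMap.id ℂ ℂ)), ?_,
    HasStrictFDerivAt.comp (g := F) (f := fun q : Pm × ℂ => (Ψ q.1, q.2)) 0 hs' hp, ?_, ?_⟩
  · simpa [h0] using hF0.self_of_nhds
  · have t1 : Tendsto (fun q : Pm × ℂ => (Ψ q.1, q.2)) (𝓝 0) (𝓝 (x, 0)) := by
      simpa [h0] using hp.continuousAt.tendsto
    have t2 : Tendsto (fun q : Pm × ℂ => q.1) (𝓝 0) (𝓝 0) := continuous_fst.tendsto' _ _ rfl
    filter_upwards [t1.eventually hFZ, t2.eventually hZ] with q h1 h2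
    exact h1 h2
  · refine sup_le ((Submodule.span_singleton_le_iff_mem _ _).2 ⟨(0, 1), by simpa using e2⟩) ?_
    intro u hu
    obtain ⟨p, rfl⟩ := hV hu
    refine ⟨(p, 0), ?_⟩
    simpa using congrArg (fun L : E →L[ℂ] E => L (Ψ' p)) e1

/-- Hint: say `V` is reached if there are a finite dimensional normed space `Pm` and `Ψ : Pm → E`
with `Ψ 0 = x`, strict derivative `Ψ'` at `0`, `∀ᶠ p in 𝓝 0, Ψ p ∈ Z` and `V ≤ range Ψ'`. If `V`
is reached and `Flow Z x v` (with map `F`) then `V ⊔ span {v}` is reached by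
`(p, τ) ↦ F (Ψ p, τ)` (the derivative of `F` at `(x, 0)` is `(u, τ) ↦ u + τ • v`). Hence
`range l₀ ⊔ span {v | Flow Z x v}` is reached (finite dimension), its sum with `W` is `⊤` by `h`,
and `HasStrictFDerivAt.map_nhds_eq_of_surj` for `(p, w) ↦ Ψ p + w` on `Pm × W` finishes. -/
theorem reach_local {Pm : Type} [NormedAddCommGroup Pm] [NormedSpace ℂ Pm]
    [FiniteDimensional ℂ Pm] (Z : Set E) (x : E) (l₀ : Pm →ₗ[ℂ] E)
    (h₀ : ∀ᶠ p in 𝓝 (0 : Pm), x + l₀ p ∈ Z) (W : Submodule ℂ E)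
    (h : ∀ l : E →ₗ[ℂ] ℂ, (∀ w ∈ W, l w = 0) → (∀ p, l (l₀ p) = 0) →
      (∀ v, Flow Z x v → l v = 0) → l = 0) (O : Set E) (hO : O ∈ 𝓝 x) :
    ∀ᶠ y in 𝓝 x, ∃ z ∈ Z, z ∈ O ∧ y - z ∈ W := by
  classical
  have key : ∀ s : Finset E, (∀ v ∈ s, Flow Z x v) →
      reach_R Z x (Submodule.span ℂ (s : Set E) ⊔ LinearMap.range l₀) := by
    intro s
    induction s using Finset.induction_on with
    | empty =>
      intro _
      refine ⟨Pm, inferInstance, inferInstance, inferInstance, fun p => x + l₀ p,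
        LinearMap.toContinuousLinearMap l₀, by simp,
        (LinearMap.toContinuousLinearMap l₀).hasStrictFDerivAt.const_add x, h₀, ?_⟩
      simp
    | insert a s _ ih =>
      intro hs
      rw [Finset.coe_insert, Submodule.span_insert, sup_assoc]
      exact reach_step (ih fun v hv => hs v (Finset.mem_insert_of_mem hv))
        (hs a (Finset.mem_insert_self _ _))
  obtain ⟨s, hs, hs'⟩ := (Submodule.fg_span_iff_fg_span_finset_subset {v | Flow Z x v}).1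
    (Submodule.FG.of_finite (N := Submodule.span ℂ {v | Flow Z x v}))
  obtain ⟨Q, _, _, _, Ψ, Ψ', h0, hd, hZ, hV⟩ := key s fun v hv => hs hv
  rw [← hs'] at hV
  have htop : Ψ'.range ⊔ W = ⊤ := by
    by_contra hne
    obtain ⟨l, hl, hle⟩ := Submodule.exists_le_ker_of_lt_top _ (lt_top_iff_ne_top.2 hne)
    refine hl (h l (fun w hw => hle (Submodule.mem_sup_right hw))
      (fun p => hle (Submodule.mem_sup_left (hV (Submodule.mem_sup_right ⟨p, rfl⟩))))
      fun v hv => hle (Submodule.mem_sup_left (hV (Submodule.mem_sup_left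
        (Submodule.subset_span hv)))))
  have : CompleteSpace E := FiniteDimensional.complete ℂ E
  have : CompleteSpace (Q × W) := FiniteDimensional.complete ℂ _
  have hΦ : HasStrictFDerivAt (fun q : Q × W => Ψ q.1 + (q.2 : E))
      (Ψ'.comp (ContinuousLinearMap.fst ℂ Q W) + W.subtypeL.comp (ContinuousLinearMap.snd ℂ Q W))
      0 :=
    (HasStrictFDerivAt.comp (g := Ψ) (f := Prod.fst) (0 : Q × W) hd hasStrictFDerivAt_fst).add
      (W.subtypeL.comp (ContinuousLinearMap.snd ℂ Q W)).hasStrictFDerivAt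
  have hm := hΦ.map_nhds_eq_of_surj (by
    rw [eq_top_iff, ← htop]
    intro u hu
    obtain ⟨_, ⟨p, rfl⟩, w, hw, rfl⟩ := Submodule.mem_sup.1 hu
    exact ⟨(p, ⟨w, hw⟩), rfl⟩)
  simp only [Prod.fst_zero, Prod.snd_zero, ZeroMemClass.coe_zero, add_zero, h0] at hm
  rw [← hm, eventually_map]
  have t2 : Tendsto (fun q : Q × W => q.1) (𝓝 0) (𝓝 0) := continuous_fst.tendsto' _ _ rfl
  have t3 : Tendsto Ψ (𝓝 0) (𝓝 x) := h0 ▸ hd.continuousAt.tendsto
  filter_upwards [t2.eventually hZ, t2.eventually (t3.eventually hO)] with q h1 h2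
  exact ⟨Ψ q.1, h1, h2, by simp⟩

/-- conjugation of a flow by a local move: `(y, τ) ↦ m' (F (m y, τ))` -/
theorem Flow.conj {G : Type} [NormedAddCommGroup G] [NormedSpace ℂ G] {Z : Set E} {x v : E}
    (m m' : E → E) (hm : ContDiffAt ℂ 1 m x) (hm' : ContDiffAt ℂ 1 m' (m x))
    (hinv : ∀ᶠ y in 𝓝 x, m' (m y) = y) (hZ : ∀ᶠ y in 𝓝 x, y ∈ Z → m y ∈ Z)
    (hZ' : ∀ᶠ y in 𝓝 (m x), y ∈ Z → m' y ∈ Z) (π : E →L[ℂ] G) (hπ : ∀ y, π (m' y) = π y)
    (h : Flow Z (m x) v) : ∃ v', Flow Z x v' ∧ π v' = π v := by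
  obtain ⟨F, hF, hF0, hFZ, hFv⟩ := h
  have e0 : F (m x, 0) = m x := hF0.self_of_nhds
  have c1 : ContDiffAt ℂ 1 (fun q : E × ℂ => (m q.1, q.2)) (x, 0) :=
    (ContDiffAt.comp (g := m) (f := Prod.fst) (x, (0 : ℂ)) hm contDiffAt_fst).prodMk contDiffAt_snd
  have c2 : ContDiffAt ℂ 1 (fun q : E × ℂ => F (m q.1, q.2)) (x, 0) :=
    ContDiffAt.comp (g := F) (f := fun q : E × ℂ => (m q.1, q.2)) (x, (0 : ℂ)) hF c1
  have hm'' : ContDiffAt ℂ 1 m' (F (m x, 0)) := by rwa [e0]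
  have c3 : ContDiffAt ℂ 1 (fun q : E × ℂ => m' (F (m q.1, q.2))) (x, 0) :=
    ContDiffAt.comp (g := m') (f := fun q : E × ℂ => F (m q.1, q.2)) (x, (0 : ℂ)) hm'' c2
  have d1 : HasDerivAt (fun τ : ℂ => m' (F (m x, τ))) (fderiv ℂ m' (F (m x, 0)) v) 0 :=
    HasFDerivAt.comp_hasDerivAt (l := m') (f := fun τ : ℂ => F (m x, τ)) 0
      (hm''.differentiableAt one_ne_zero).hasFDerivAt hFv
  refine ⟨_, ⟨fun q => m' (F (m q.1, q.2)), c3, ?_, ?_, d1⟩, ?_⟩
  · filter_upwards [hm.continuousAt.tendsto.eventually hF0, hinv] with y h1 h2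
    rw [h1, h2]
  · have t1 : Tendsto (fun q : E × ℂ => (m q.1, q.2)) (𝓝 (x, 0)) (𝓝 (m x, 0)) :=
      c1.continuousAt.tendsto
    have t2 : Tendsto (fun q : E × ℂ => F (m q.1, q.2)) (𝓝 (x, 0)) (𝓝 (m x)) :=
      e0 ▸ c2.continuousAt.tendsto
    have t3 : Tendsto (fun q : E × ℂ => q.1) (𝓝 (x, 0)) (𝓝 x) := continuous_fst.tendsto' _ _ rfl
    filter_upwards [t1.eventually hFZ, t2.eventually hZ', t3.eventually hZ] with q h1 h2 h3 h4
    exact h2 (h1 (h3 h4))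
  · have d2 := π.hasFDerivAt.comp_hasDerivAt (0 : ℂ) d1
    have d3 := π.hasFDerivAt.comp_hasDerivAt (0 : ℂ) hFv
    refine d2.unique (d3.congr_of_eventuallyEq (Eventually.of_forall fun τ => ?_))
    exact hπ _

/-- curves in a level set with prescribed velocity (`HasStrictFDerivAt.implicitFunction`,
`to_implicitFunction`, `map_implicitFunction_eq`) -/
theorem ift_curve {G : Type} [NormedAddCommGroup G] [NormedSpace ℂ G] [FiniteDimensional ℂ G]
    {f : E → G} {f' : E →L[ℂ] G} {x : E} (hf : HasStrictFDerivAt f f' x)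
    (hs : Function.Surjective f') {v : E} (hv : f' v = 0) :
    ∃ γ : ℂ → E, γ 0 = x ∧ HasDerivAt γ v 0 ∧ ∀ᶠ τ in 𝓝 (0 : ℂ), f (γ τ) = f x := by
  have : CompleteSpace E := FiniteDimensional.complete ℂ E
  have hr : f'.range = ⊤ := LinearMap.range_eq_top.2 hs
  let w : f'.ker := ⟨v, hv⟩
  have l1 : HasDerivAt (fun τ : ℂ => τ • w) w 0 := by
    simpa using (hasDerivAt_id (0 : ℂ)).smul_const w
  refine ⟨fun τ => hf.implicitFunction f f' hr (f x) (τ • w), by simp, ?_, ?_⟩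
  · exact HasFDerivAt.comp_hasDerivAt_of_eq (0 : ℂ) (hf.to_implicitFunction hr).hasFDerivAt l1
      (by simp)
  · have t1 : Tendsto (fun τ : ℂ => (f x, τ • w)) (𝓝 0) (𝓝 (f x, 0)) :=
      tendsto_const_nhds.prodMk_nhds (by simpa using l1.continuousAt.tendsto)
    exact t1.eventually (hf.map_implicitFunction_eq hr)

end Vale.Agent.P002
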