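import Vale.Agent.P002.DmAlg
import Vale.Agent.P002.RS
import Vale.Agent.P002.Reach

set_option linter.unusedVariables false

namespace Vale.Agent.P002

open Matrix Filter Topology

/-- flows given by regular maps -/
theorem flows_mk {E : Type} [NormedAddCommGroup E] [NormedSpace ℂ E] [FiniteDimensional ℂ E]
    {Z : Set E} {x : E} {U : Set (E × ℂ)} (hU : Bas U) (hx : (x, (0 : ℂ)) ∈ U) {F : E × ℂ → E}
    (hF : RegF U F) (h0 : ∀ y, (y, (0 : ℂ)) ∈ U → F (y, 0) = y)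
    (hZ : ∀ q ∈ U, q.1 ∈ Z → F q ∈ Z) :
    ∃ v, Flow Z x v ∧ HasDerivAt (fun τ : ℂ => F (x, τ)) v 0 := by
  have hn := hU.mem_nhds hx
  have hc : ContDiffAt ℂ 1 F (x, 0) := hF.contDiffAt hn
  have hd : DifferentiableAt ℂ (fun τ : ℂ => F (x, τ)) 0 :=
    DifferentiableAt.comp (0 : ℂ) (g := F) (f := fun τ : ℂ => (x, τ))
      (hc.differentiableAt one_ne_zero) (by fun_prop)
  refine ⟨_, ⟨F, hc, ?_, ?_, hd.hasDerivAt⟩, hd.hasDerivAt⟩
  · have hc' : ContinuousAt (fun y : E => (y, (0 : ℂ))) x := by fun_prop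
    exact (hc'.eventually_mem hn).mono fun y hy => h0 y hy
  · exact Filter.mem_of_superset hn fun q hq => hZ q hq

/-- the derivative of an affine map -/
theorem flows_affine {G : Type} [NormedAddCommGroup G] [NormedSpace ℂ G] {f : ℂ → G} {v a b : G}
    (h : HasDerivAt f v 0) (e : ∀ τ, f τ = a + τ • b) : v = b := by
  have h1 : HasDerivAt (fun τ : ℂ => a + τ • b) ((1 : ℂ) • b) 0 :=
    ((hasDerivAt_id (0 : ℂ)).smul_const b).const_add a
  rw [show f = fun τ : ℂ => a + τ • b from funext e] at h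
  rw [h.unique h1, one_smul]

open scoped Matrix.Norms.Operator

variable {r : ℕ} {J : Type} [Fintype J] [DecidableEq J] {Z : Set (J → Mat r)} {x : J → Mat r}

/-- `F (y, τ) = update y i (y i * (1 + τ • y j ^ m))`, regular on the whole space
(`RegF.contDiffAt`); `bas_rs`, `bas_UU` and `Bas.mem_nhds` give the open conditions. -/
theorem SM.flow {i j : J} (h : SM Z i j) (hx : x ∈ UU r J) (hRS : RS (x j)) (m : ℕ) :
    Flow Z x (Pi.single i (x i * x j ^ m)) := by
  have hT : RegF (Set.univ : Set ((J → Mat r) × ℂ)) fun q => 1 + q.2 • q.1 j ^ m :=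
    (RegF.const 1).add (RegF.smul RegF.id.snd.reg ((RegF.id.fst.apply j).pow m))
  have hU := (bas_rs (Bas.univ.preimage bas_UU (RegF.id.fst (E := (J → Mat r) × ℂ)))
    (RegF.id.fst.apply j)).inter (Bas.univ.of_reg hT.det)
  obtain ⟨v, hv, hd⟩ := flows_mk (Z := Z) (x := x) hU
    (F := fun q => Function.update q.1 i (q.1 i * (1 + q.2 • q.1 j ^ m)))
    ⟨⟨⟨trivial, hx⟩, hRS⟩, trivial, by simp⟩
    ((RegF.id.fst.update i ((RegF.id.fst.apply i).mul hT)).mono (Set.subset_univ _))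
    (fun y _ => by simp)
    fun q hq hZ => h q.1 hZ hq.1.1.2 hq.1.2 _ (InA.one.add ((InA.self.pow m).smul _)) hq.2.2
  rwa [flows_affine (a := x) (b := Pi.single i (x i * x j ^ m)) hd fun τ => ?_] at hv
  funext k
  by_cases hk : k = i
  · subst hk
    simp [mul_add]
  · simp [hk]

/-- `Flow.conj` with `t = p (x j)`, `m y = update y i (y i * p (y j))`,
`m' y = update y i (y i * (p (y j))⁻¹)` and `π` the map that sets coordinate `i` to zero -/
theorem SM.conj {i j : J} (h : SM Z i j) (hij : i ≠ j) (hx : x ∈ UU r J) (hRS : RS (x j))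
    {t : Mat r} (ht : InA (x j) t) (htd : t.det ≠ 0) {v : J → Mat r}
    (hv : Flow Z (Function.update x i (x i * t)) v) :
    ∃ v', Flow Z x v' ∧ ∀ k, k ≠ i → v' k = v k := by
  obtain ⟨p, rfl⟩ := ht
  have hT : RegF (Set.univ : Set (J → Mat r)) fun y => Polynomial.aeval (y j) p :=
    (RegF.proj j).aeval p
  have hU := (bas_rs bas_UU (RegF.proj (F := Mat r) j)).inter (Bas.univ.of_reg hT.det)
  have hj : ∀ (y : J → Mat r) (M : Mat r), Function.update y i M j = y j := fun y M =>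
    Function.update_of_ne hij.symm _ _
  have h1 := hU.mem_nhds (x := x) ⟨⟨hx, hRS⟩, trivial, htd⟩
  have h2 := hU.mem_nhds (x := Function.update x i (x i * Polynomial.aeval (x j) p))
    ⟨⟨update_UU hx i htd, by rw [hj]; exact hRS⟩, trivial, by rw [hj]; exact htd⟩
  obtain ⟨v', h3, h4⟩ := Flow.conj (Z := Z) (x := x) (v := v)
    (fun y => Function.update y i (y i * Polynomial.aeval (y j) p))
    (fun y => Function.update y i (y i * (Polynomial.aeval (y j) p)⁻¹))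
    ((RegF.id.update i ((RegF.proj i).mul hT)).contDiffAt Filter.univ_mem)
    ((RegF.id.update i ((RegF.proj i).mul ((hT.mono (Set.subset_univ _)).inv
      fun y hy => hy.2.2))).contDiffAt h2)
    (Filter.mem_of_superset h1 fun y hy => by
      have h5 : (Polynomial.aeval (y j) p).det ≠ 0 := hy.2.2
      simp only [Set.mem_ofPred_eq, hj, Function.update_self, Function.update_idem, mul_assoc,
        mul_inv'' h5, mul_one, Function.update_eq_self])
    (Filter.mem_of_superset h1 fun y hy hZ => h y hZ hy.1.1 hy.1.2 _ ⟨p, rfl⟩ hy.2.2)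
    (Filter.mem_of_superset h2 fun y hy hZ =>
      h y hZ hy.1.1 hy.1.2 _ (InA.inv ⟨p, rfl⟩) (det_inv_ne hy.2.2))
    (ContinuousLinearMap.pi fun k : {k : J // k ≠ i} =>
      ContinuousLinearMap.proj (R := ℂ) (φ := fun _ : J => Mat r) k.1)
    (fun y => funext fun k => Function.update_of_ne k.2 _ _) hv
  exact ⟨v', h3, fun k hk => congrFun h4 ⟨k, hk⟩⟩

/-- `F (y, τ) = σ.dm k y (1 + τ • σ.Ck k y)` (`regF_dm`, `dm_one`); the velocity exists by
differentiability, its coordinates at `β` and at the indices in `Rest` are affine in `τ`. -/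
theorem MoveInv.flow_d {σ : Sys r J} (hZ : MoveInv σ Z) {k : Option J}
    (hk : ∀ j, k = some j → σ.Rest j) (hx : x ∈ UU r J) (hRS : RS (σ.Ck k x)) :
    ∃ v, Flow Z x v ∧ v σ.β = σ.Dk k x * σ.Ck k x * (σ.Dk k x)⁻¹ * x σ.β ∧
      ∀ j, σ.Rest j → v j = if k = some j then σ.S j x * σ.Ck k x * (σ.S j x)⁻¹ * x j else 0 := by
  have hU0 := Bas.univ.preimage (bas_UU (r := r) (J := J)) (RegF.id.fst (E := (J → Mat r) × ℂ))
  have hC : RegF {q : (J → Mat r) × ℂ | q ∈ Set.univ ∧ q.1 ∈ UU r J} fun q => σ.Ck k q.1 :=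
    ((σ.Ck_word k).regF σ.cs_det).comp RegF.id.fst fun q hq => hq.2
  have hT : RegF {q : (J → Mat r) × ℂ | q ∈ Set.univ ∧ q.1 ∈ UU r J}
      fun q => 1 + q.2 • σ.Ck k q.1 := (RegF.const 1).add (RegF.smul RegF.id.snd.reg hC)
  have hU : Bas {q : (J → Mat r) × ℂ | q.1 ∈ UU r J ∧ RS (σ.Ck k q.1) ∧
      (1 + q.2 • σ.Ck k q.1).det ≠ 0} :=
    ((bas_rs hU0 hC).inter (hU0.of_reg hT.det)).congr fun q =>
      ⟨fun h => ⟨⟨⟨trivial, h.1⟩, h.2.1⟩, ⟨trivial, h.1⟩, h.2.2⟩,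
        fun h => ⟨h.1.1.2, h.1.2, h.2.2⟩⟩
  have hP : RegF {q : (J → Mat r) × ℂ | q.1 ∈ UU r J ∧ RS (σ.Ck k q.1) ∧
      (1 + q.2 • σ.Ck k q.1).det ≠ 0} fun q => (q.1, 1 + q.2 • σ.Ck k q.1) :=
    RegF.id.fst.prodMk (hT.mono fun q hq => ⟨trivial, hq.1⟩)
  have hF := (σ.regF_dm k).comp hP fun q hq => ⟨hq.1, hq.2.2⟩
  obtain ⟨v, hv, hd⟩ := flows_mk (Z := Z) (x := x) hU
    (F := fun q => σ.dm k q.1 (1 + q.2 • σ.Ck k q.1)) ⟨hx, hRS, by simp⟩ hF
    (fun y hy => by
      simp only [zero_smul, add_zero]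
      exact σ.dm_one k hy.1)
    fun q hq hq' => hZ.md k hk q.1 hq' hq.1 hq.2.1 _ (InA.one.add (InA.self.smul _)) hq.2.2
  rw [hasDerivAt_pi] at hd
  refine ⟨v, hv, flows_affine (a := σ.Dk k x * (σ.Dk k x)⁻¹ * x σ.β) (hd σ.β) fun τ => ?_,
    fun j hj => flows_affine (a := if k = some j then σ.S j x * (σ.S j x)⁻¹ * x j else x j)
      (hd j) fun τ => ?_⟩
  · rw [σ.dm_β]
    simp [mul_add, add_mul]
  · rw [σ.dm_rest k hj]
    split_ifs <;> simp [mul_add, add_mul]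

end Vale.Agent.P002
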