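import Vale.Agent.P002.Dense
import Vale.Agent.P002.Blocks

set_option linter.unusedVariables false

namespace Vale.Agent.P002

open Matrix Filter Topology

variable {r : ℕ} {L : IntermediateField ℚ ℂ}

theorem g1_units (hL : Good L r) (x : Fin r → ℂ) :
    x ∈ Zc {u : Fin r → ℂ | ∀ i, u i ∈ L ∧ u i ≠ 0 ∧ IsIntegral ℤ (u i) ∧ IsIntegral ℤ (u i)⁻¹} := by
  obtain ⟨θ, t1, t2, t3, t4, t5⟩ := hL.exists_unit
  refine dense_of_chars _ (fun i => ?_) (fun u hu v hv i => ?_) (fun u hu i => (hu i).2.1)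
    (fun m hm => ?_) x
  · exact ⟨L.one_mem, one_ne_zero, isIntegral_one, by rw [inv_one]; exact isIntegral_one⟩
  · exact ⟨L.mul_mem (hu i).1 (hv i).1, mul_ne_zero (hu i).2.1 (hv i).2.1,
      (hu i).2.2.1.mul (hv i).2.2.1,
      by rw [Pi.mul_apply, mul_inv]; exact (hu i).2.2.2.mul (hv i).2.2.2⟩
  · obtain ⟨i, hi⟩ := Function.ne_iff.1 hm
    refine ⟨fun j => if j = i then θ else 1, fun j => ?_, ?_⟩
    · by_cases h : j = i
      · simp only [if_pos h]; exact ⟨t1, t2, t3, t4⟩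
      · simp only [if_neg h, inv_one]; exact ⟨L.one_mem, one_ne_zero, isIntegral_one, isIntegral_one⟩
    · rw [Finset.prod_eq_single i (fun j _ h => by simp only [if_neg h, _root_.one_zpow])
        (fun h => (h (Finset.mem_univ i)).elim)]
      simp only [if_true]
      intro h
      have h2 := congrArg norm h
      rw [norm_zpow, norm_one, zpow_eq_one_iff_right₀ (norm_nonneg θ) t5] at h2
      exact hi h2

/-- Hint: the map `u ↦ (∏ i, u i)⁻¹ • u ^ r` is regular on the torus and maps it onto the vectors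
with product one; the vectors of units of `L` are dense by `dense_of_chars` and
`Good.exists_unit`. -/
theorem unit_vec_dense (hr : 0 < r) (hL : Good L r) {v : Fin r → ℂ} (hv : ∏ i, v i = 1) :
    v ∈ Zc {u : Fin r → ℂ | (∀ i, u i ∈ L ∧ IsIntegral ℤ (u i)) ∧ ∏ i, u i = 1} := by
  have i0 : Fin r := ⟨0, hr⟩
  have hp : ∀ U : Set (Fin r → ℂ), Reg U fun u => ∏ i, u i := fun U =>
    Reg.prod Finset.univ fun i _ => (RegF.proj i).reg
  have hU : Bas {u : Fin r → ℂ | u ∈ Set.univ ∧ ∏ i, u i ≠ 0} := Bas.univ.of_reg (hp _)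
  have hf : RegF {u : Fin r → ℂ | u ∈ Set.univ ∧ ∏ i, u i ≠ 0}
      fun u i => u i * if i = i0 then (∏ j, u j)⁻¹ else 1 := by
    refine RegF.pi fun i => Reg.regF ((RegF.proj i).reg.mul ?_)
    by_cases h : i = i0
    · simp only [if_pos h]; exact (hp _).inv fun u hu => hu.2
    · simp only [if_neg h]; exact Reg.const 1
  have key := Zc.map (T := {u : Fin r → ℂ | (∀ i, u i ∈ L ∧ IsIntegral ℤ (u i)) ∧ ∏ i, u i = 1})
    (g1_units hL v) hU ⟨Set.mem_univ _, by rw [hv]; exact one_ne_zero⟩ hf fun s hs hsU => by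
      refine Zc.subset _ ⟨fun i => ?_, ?_⟩
      · by_cases h : i = i0
        · simp only [if_pos h]
          refine ⟨L.mul_mem (hs i).1 (L.inv_mem (L.prod_mem fun j _ => (hs j).1)),
            (hs i).2.2.1.mul ?_⟩
          rw [← Finset.prod_inv_distrib]
          exact IsIntegral.prod _ fun j _ => (hs j).2.2.2
        · simp only [if_neg h, mul_one]
          exact ⟨(hs i).1, (hs i).2.2.1⟩
      · rw [Finset.prod_mul_distrib, Finset.prod_ite_eq' Finset.univ i0 fun _ => (∏ j, s j)⁻¹,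
          if_pos (Finset.mem_univ _), mul_inv_cancel₀ hsU.2]
  simpa only [hv, inv_one, ite_self, mul_one] using key

theorem g1_diag {u : Fin r → ℂ} (hu : (∀ i, u i ∈ L ∧ IsIntegral ℤ (u i)) ∧ ∏ i, u i = 1) :
    IntSL L (diagonal u) := by
  refine ⟨fun i j => ?_, fun i j => ?_, by rw [det_diagonal, hu.2]⟩
  · rw [diagonal_apply]
    split_ifs
    exacts [(hu.1 i).1, L.zero_mem]
  · rw [diagonal_apply]
    split_ifs
    exacts [(hu.1 i).2, isIntegral_zero]

theorem g1_conj {P D : Mat r} (hP : Gp L P) (hD : IntSL L D) : IntSL L (P * D * P⁻¹) := by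
  have h0 := hP.det_ne
  obtain ⟨c, N, hc, hN, rfl⟩ := hP
  have hN0 : N.det ≠ 0 := by rw [hN.2.2]; exact one_ne_zero
  have h1 : (c • N)⁻¹ = c⁻¹ • N⁻¹ := Matrix.inv_eq_left_inv (by
    rw [smul_mul_smul_comm, inv_mul_cancel₀ hc, one_smul, inv_mul' hN0])
  rw [h1, smul_mul_assoc, smul_mul_smul_comm, mul_inv_cancel₀ hc, one_smul]
  exact (hN.mul hD).mul hN.inv

theorem g1_det {P : Mat r} (hP : P.det ≠ 0) (d : Fin r → ℂ) :
    (P * diagonal d * P⁻¹).det = ∏ i, d i := by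
  rw [det_mul, det_mul, det_diagonal, Matrix.det_nonsing_inv, Ring.inverse_eq_inv', mul_right_comm,
    mul_inv_cancel₀ hP, one_mul]

/-- Genus one. `Semis.diag`, `semis_of_diag`, and `Zc.map` along
`(P, u, v) ↦ (P * diagonal u * P⁻¹, P * diagonal v * P⁻¹)` (`gp_dense`, `Zc.prod`). -/
theorem genus_one (hr : 0 < r) (hL : Good L r) {A B : Mat r} (hA : A.det = 1) (hB : B.det = 1)
    (hc : A * B = B * A) (hs : Semis ![A, B]) :
    (A, B) ∈ Zc {q : Mat r × Mat r | IntSL L q.1 ∧ IntSL L q.2 ∧ q.1 * q.2 = q.2 * q.1 ∧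
      Semis ![q.1, q.2]} := by
  obtain ⟨P, d, hP, hd⟩ := hs.diag (by
    intro i j
    fin_cases i <;> fin_cases j
    exacts [rfl, hc, hc.symm, rfl])
  have e0 : A = P * diagonal (d 0) * P⁻¹ := hd 0
  have e1 : B = P * diagonal (d 1) * P⁻¹ := hd 1
  have d0 : ∏ i, d 0 i = 1 := by rw [← g1_det hP, ← e0, hA]
  have d1 : ∏ i, d 1 i = 1 := by rw [← g1_det hP, ← e1, hB]
  have hx := Zc.prod (gp_dense hL P) (Zc.prod (unit_vec_dense hr hL d0) (unit_vec_dense hr hL d1))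
  have hU : Bas {q : Mat r × (Fin r → ℂ) × (Fin r → ℂ) | q ∈ Set.univ ∧ q.1.det ≠ 0} :=
    Bas.univ.of_reg RegF.id.fst.det
  have hf : RegF {q : Mat r × (Fin r → ℂ) × (Fin r → ℂ) | q ∈ Set.univ ∧ q.1.det ≠ 0}
      fun q => (q.1 * diagonal q.2.1 * q.1⁻¹, q.1 * diagonal q.2.2 * q.1⁻¹) := by
    have r0 : RegF {q : Mat r × (Fin r → ℂ) × (Fin r → ℂ) | q ∈ Set.univ ∧ q.1.det ≠ 0}
      fun q => q := RegF.id
    exact ((r0.fst.mul r0.snd.fst.diagonal).mul (r0.fst.inv fun q hq => hq.2)).prodMk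
      ((r0.fst.mul r0.snd.snd.diagonal).mul (r0.fst.inv fun q hq => hq.2))
  rw [e0, e1]
  refine Zc.map hx hU ⟨Set.mem_univ _, hP⟩ hf fun s hs hsU => Zc.subset _ ?_
  obtain ⟨Q, u, v⟩ := s
  obtain ⟨h1, h2, h3⟩ := hs
  have hQ : Q.det ≠ 0 := hsU.2
  refine ⟨g1_conj h1 (g1_diag h2), g1_conj h1 (g1_diag h3), ?_, semis_of_diag hQ ![u, v] ?_⟩
  · simp only [mul_assoc, imc hQ]
    rw [← mul_assoc (diagonal u), ← mul_assoc (diagonal v), diagonal_mul_diagonal,
      diagonal_mul_diagonal]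
    simp only [mul_comm]
  · intro i
    fin_cases i <;> rfl

end Vale.Agent.P002
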