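import Vale.Agent.P002.Kern

set_option linter.unusedVariables false

namespace Vale.Agent.P002

open Matrix Filter Topology

open Module
open scoped Matrix.Norms.Operator

variable {r : ℕ} {ι : Type} [Finite ι]

/-- the commutant is the kernel of a map that depends linearly on the family -/
theorem genside_L (r : ℕ) (κ : Type) [Fintype κ] :
    ∃ L : (κ → Mat r) →L[ℂ] (Mat r →L[ℂ] (κ → Mat r)),
      (∀ f, LinearMap.ker (L f : Mat r →ₗ[ℂ] (κ → Mat r)) = cent f) ∧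
        ∀ f Y, L f Y = 0 ↔ Y ∈ cent f := by
  let B : (κ → Mat r) →ₗ[ℂ] Mat r →ₗ[ℂ] (κ → Mat r) :=
    LinearMap.mk₂ ℂ (fun f Y i => Y * f i - f i * Y)
      (fun f g Y => funext fun i => by
        simp only [Pi.add_apply, mul_add, add_mul]; abel)
      (fun c f Y => funext fun i => by
        simp only [Pi.smul_apply, mul_smul_comm, smul_mul_assoc, smul_sub])
      (fun f Y Z => funext fun i => by
        simp only [Pi.add_apply, mul_add, add_mul]; abel)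
      (fun c f Y => funext fun i => by
        simp only [Pi.smul_apply, mul_smul_comm, smul_mul_assoc, smul_sub])
  let L : (κ → Mat r) →L[ℂ] (Mat r →L[ℂ] (κ → Mat r)) :=
    LinearMap.toContinuousLinearMap
      ((LinearMap.toContinuousLinearMap (𝕜 := ℂ) (E := Mat r) (F' := κ → Mat r)).toLinearMap ∘ₗ B)
  have key : ∀ f Y, L f Y = 0 ↔ Y ∈ cent f := by
    intro f Y
    show (fun i => Y * f i - f i * Y) = 0 ↔ ∀ i, Y * f i = f i * Y
    rw [funext_iff]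
    exact forall_congr' fun i => sub_eq_zero
  exact ⟨L, fun f => Submodule.ext fun Y => key f Y, key⟩

theorem genside_A (r : ℕ) : ∃ A : Mat r →L[ℂ] (Mat r →L[ℂ] Mat r),
    ∀ Y, (A Y : Mat r →ₗ[ℂ] Mat r) = adm Y := by
  let B : Mat r →ₗ[ℂ] Mat r →ₗ[ℂ] Mat r := LinearMap.mul ℂ (Mat r) - (LinearMap.mul ℂ (Mat r)).flip
  exact ⟨LinearMap.toContinuousLinearMap
    ((LinearMap.toContinuousLinearMap (𝕜 := ℂ) (E := Mat r) (F' := Mat r)).toLinearMap ∘ₗ B),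
    fun Y => LinearMap.ext fun Z => rfl⟩

theorem genside_comp {E F G : Type} [NormedAddCommGroup E] [NormedSpace ℂ E]
    [NormedAddCommGroup F] [NormedSpace ℂ F] [NormedAddCommGroup G] [NormedSpace ℂ G]
    (A : E →L[ℂ] (F →L[ℂ] G)) {s : ℂ → E} {X : E} (hs : HasDerivAt s X 0) :
    HasDerivAt (fun τ => A (s τ)) (A X) 0 :=
  A.hasFDerivAt.comp_hasDerivAt 0 hs

theorem genside_min {α : Type} (S : Set α) (hS : S.Nonempty) (g : α → ℕ) :
    ∃ a ∈ S, ∀ b ∈ S, g a ≤ g b := by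
  obtain ⟨a, ha, h⟩ := (measure g).wf.has_min S hS
  exact ⟨a, ha, fun b hb => not_lt.1 (h b hb)⟩

theorem genside_max {α : Type} (S : Set α) (hS : S.Nonempty) (g : α → ℕ) (N : ℕ)
    (hN : ∀ a, g a ≤ N) : ∃ a ∈ S, ∀ b ∈ S, g b ≤ g a := by
  obtain ⟨a, ha, h⟩ := genside_min S hS fun a => N - g a
  refine ⟨a, ha, fun b hb => ?_⟩
  have h1 := h b hb
  have h2 := hN a
  have h3 := hN b
  omega

theorem cent_usc {X : Type} [TopologicalSpace X] (f : X → ι → Mat r) {x₀ : X}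
    (hf : ContinuousAt f x₀) : ∀ᶠ x in 𝓝 x₀, finrank ℂ (cent (f x)) ≤ finrank ℂ (cent (f x₀)) := by
  have := Fintype.ofFinite ι
  obtain ⟨L, hL, -⟩ := genside_L r ι
  have h := kern_usc (fun x => L (f x)) (L.continuous.continuousAt.comp hf)
  refine h.mono fun x hx => ?_
  rw [← hL, ← hL]
  exact hx

theorem schur_iff_finrank (hr : 0 < r) (f : ι → Mat r) : Schur f ↔ finrank ℂ (cent f) ≤ 1 := by
  have : Nonempty (Fin r) := ⟨⟨0, hr⟩⟩
  have h1 : finrank ℂ (ℂ ∙ (1 : Mat r)) = 1 := finrank_span_singleton one_ne_zero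
  constructor
  · intro h
    rw [← h1]
    refine Submodule.finrank_mono fun Y hY => ?_
    obtain ⟨c, hc⟩ := h Y hY
    exact Submodule.mem_span_singleton.2 ⟨c, hc.symm⟩
  · intro h Y hY
    have h2 : (ℂ ∙ (1 : Mat r)) ≤ cent f :=
      (Submodule.span_singleton_le_iff_mem _ _).2 fun k => by rw [one_mul, mul_one]
    have h3 := Submodule.eq_of_le_of_finrank_le h2 (by rwa [h1])
    rw [← h3] at hY
    obtain ⟨c, hc⟩ := Submodule.mem_span_singleton.1 hY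
    exact ⟨c, hc.symm⟩

/-- if the rank of `adm (s τ)` is maximal at `τ = 0` then the velocity lies in `TY` -/
theorem mem_TY_of_curve {s : ℂ → Mat r} {X : Mat r} (hs : HasDerivAt s X 0)
    (h : ∀ᶠ τ in 𝓝 (0 : ℂ), finrank ℂ (LinearMap.range (adm (s τ))) ≤
      finrank ℂ (LinearMap.range (adm (s 0)))) : X ∈ TY (s 0) := by
  obtain ⟨A, hA⟩ := genside_A r
  intro Z hZ
  have h1 := genside_comp (E := Mat r) (F := Mat r) (G := Mat r) A hs
  have h2 : ∀ Y Z : Mat r, A Y Z = Y * Z - Z * Y := fun Y Z => LinearMap.congr_fun (hA Y) Z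
  have h3 := kern_first_order (fun τ => A (s τ)) h1 (h.mono fun τ e => by rw [← hA, ← hA] at e; exact e)
    (Y := Z) ((h2 _ _).trans (sub_eq_zero.2 hZ))
  rw [← hA, ← h2]
  exact h3

/-- Hint: `cent (f x)` is the kernel of `L x : Y ↦ (fun i => Y * f x i - f x i * Y)`. Choose
`x₁ ∈ R ∩ O` with minimal `finrank (cent (f x₁))`; by `cent_usc` the dimension is constant on
`R ∩ O₁`, `O₁` an open neighbourhood. Among the pairs `(x, Y)` with `x ∈ R ∩ O₁`, `Y ∈ cent (f x)`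
choose `(x₂, Y₂)` with maximal rank `ρ` of `adm Y`. By `kern_section` and `rank_lsc` the rank `ρ` is
attained in `cent (f x)` for all `x ∈ R` near `x₂`. For curves use `kern_section_diff`,
`mem_TY_of_curve`, and differentiate `s τ * f (γ τ) i = f (γ τ) i * s τ`. -/
theorem gen_side {X : Type} [TopologicalSpace X] (R O : Set X) (f : X → ι → Mat r)
    (hO : IsOpen O) (hne : (R ∩ O).Nonempty) (hf : ∀ x ∈ O, ContinuousAt f x) :
    ∃ O' ⊆ O, IsOpen O' ∧ (R ∩ O').Nonempty ∧ ∀ x ∈ R ∩ O', ∃ Y ∈ cent (f x),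
      (∀ Y' ∈ cent (f x), finrank ℂ (LinearMap.range (adm Y')) ≤
        finrank ℂ (LinearMap.range (adm Y))) ∧ cent (f x) ≤ TY Y ∧
      ∀ (γ : ℂ → X) (f' : ι → Mat r), γ 0 = x → ContinuousAt γ 0 → (∀ᶠ τ in 𝓝 (0 : ℂ), γ τ ∈ R) →
        (∀ i, HasDerivAt (fun τ => f (γ τ) i) (f' i) 0) →
        ∃ X' ∈ TY Y, ∀ i, (X' * f x i - f x i * X') + (Y * f' i - f' i * Y) = 0 := by
  have := Fintype.ofFinite ι
  obtain ⟨L, hL, hL0⟩ := genside_L r ι
  obtain ⟨A, hA⟩ := genside_A r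
  obtain ⟨x₁, hx₁, hmin⟩ := genside_min _ hne fun x => finrank ℂ (cent (f x))
  obtain ⟨O₁, hO₁, oO₁, mO₁⟩ := mem_nhds_iff.1
    ((cent_usc f (hf x₁ hx₁.2)).and (hO.mem_nhds hx₁.2))
  have hd : ∀ x ∈ R, x ∈ O₁ → finrank ℂ (cent (f x)) = finrank ℂ (cent (f x₁)) :=
    fun x hx hx' => le_antisymm (hO₁ hx').1 (hmin x ⟨hx, (hO₁ hx').2⟩)
  obtain ⟨⟨x₂, Y₂⟩, ⟨hx₂, hx₂', hY₂⟩, hmax⟩ := genside_max
    {q : X × Mat r | q.1 ∈ R ∧ q.1 ∈ O₁ ∧ q.2 ∈ cent (f q.1)} ⟨(x₁, 0), hx₁.1, mO₁, zero_mem _⟩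
    (fun q => finrank ℂ (LinearMap.range (adm q.2))) (finrank ℂ (Mat r))
    fun q => Submodule.finrank_le _
  dsimp only at hx₂ hx₂' hY₂
  have hmax' : ∀ x ∈ R, x ∈ O₁ → ∀ Y ∈ cent (f x), finrank ℂ (LinearMap.range (adm Y)) ≤
      finrank ℂ (LinearMap.range (adm Y₂)) := fun x hx hx' Y hY => hmax (x, Y) ⟨hx, hx', hY⟩
  obtain ⟨s, s0, sc, hs0⟩ := kern_section (fun x => L (f x))
    (L.continuous.continuousAt.comp (hf x₂ (hO₁ hx₂').2)) ((hL0 _ _).2 hY₂)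
  have hr0 := rank_lsc (fun x => A (s x)) (A.continuous.continuousAt.comp sc)
  have hs : ∀ᶠ x in 𝓝 x₂, finrank ℂ (cent (f x₂)) ≤ finrank ℂ (cent (f x)) → s x ∈ cent (f x) :=
    hs0.mono fun x e e' => (hL0 _ _).1 (e (by rw [← hL, ← hL] at e'; exact e'))
  have hr : ∀ᶠ x in 𝓝 x₂, finrank ℂ (LinearMap.range (adm Y₂)) ≤
      finrank ℂ (LinearMap.range (adm (s x))) :=
    hr0.mono fun x e => by rw [← s0, ← hA, ← hA]; exact e
  obtain ⟨O', hO', oO', mO'⟩ := mem_nhds_iff.1 ((hs.and hr).and (oO₁.mem_nhds hx₂'))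
  refine ⟨O', fun x hx => (hO₁ (hO' hx).2).2, oO', ⟨x₂, hx₂, mO'⟩, fun x hx => ?_⟩
  obtain ⟨⟨h1, h2⟩, h3⟩ := hO' hx.2
  have hY : s x ∈ cent (f x) := h1 (by rw [hd x hx.1 h3, hd x₂ hx₂ hx₂'])
  refine ⟨s x, hY, fun Y' hY' => (hmax' x hx.1 h3 Y' hY').trans h2, fun Z hZ => ?_,
    fun γ f' γ0 γc γR hf' => ?_⟩
  · have h4 : HasDerivAt (fun τ : ℂ => s x + τ • Z) Z 0 := by
      have := ((hasDerivAt_id (0 : ℂ)).smul_const Z).const_add (s x)
      rwa [one_smul] at this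
    have h5 := mem_TY_of_curve h4 (Eventually.of_forall fun τ => by
      rw [zero_smul, add_zero]
      exact (hmax' x hx.1 h3 _ (add_mem hY (Submodule.smul_mem _ τ hZ))).trans h2)
    rwa [zero_smul, add_zero] at h5
  · have hF : HasDerivAt (fun τ => f (γ τ)) f' 0 := hasDerivAt_pi.2 hf'
    obtain ⟨s', s0', sd', hs0'⟩ := kern_section_diff (fun τ => L (f (γ τ)))
      (L.differentiableAt.comp 0 hF.differentiableAt) (Y := s x) ((hL0 _ _).2 (by rwa [γ0]))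
    have hs' : ∀ᶠ τ in 𝓝 (0 : ℂ), finrank ℂ (cent (f x)) ≤ finrank ℂ (cent (f (γ τ))) →
        s' τ ∈ cent (f (γ τ)) :=
      hs0'.mono fun τ e e' => (hL0 _ _).1 (e (by rw [← γ0, ← hL, ← hL] at e'; exact e'))
    have hev : ∀ᶠ τ in 𝓝 (0 : ℂ), γ τ ∈ R ∧ γ τ ∈ O₁ ∧ s' τ ∈ cent (f (γ τ)) := by
      filter_upwards [hs', γR, γc.eventually (oO₁.mem_nhds (by rwa [γ0]))] with τ e1 e2 e3
      exact ⟨e2, e3, e1 (by rw [hd x hx.1 h3, hd _ e2 e3])⟩
    have h5 := mem_TY_of_curve sd'.hasDerivAt (hev.mono fun τ e => by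
      rw [s0']
      exact (hmax' _ e.1 e.2.1 _ e.2.2).trans h2)
    rw [s0'] at h5
    refine ⟨deriv s' 0, h5, fun i => ?_⟩
    have h6 := (sd'.hasDerivAt.fun_mul (hf' i)).fun_sub ((hf' i).fun_mul sd'.hasDerivAt)
    have h7 : HasDerivAt (fun τ => s' τ * f (γ τ) i - f (γ τ) i * s' τ) 0 0 :=
      (hasDerivAt_const (0 : ℂ) (0 : Mat r)).congr_of_eventuallyEq
        (hev.mono fun τ e => sub_eq_zero.2 (e.2.2 i))
    have h8 : deriv s' 0 * f (γ 0) i + s' 0 * f' i - (f' i * s' 0 + f (γ 0) i * deriv s' 0) = 0 :=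
      h6.unique h7
    rw [s0', γ0] at h8
    refine Eq.trans ?_ h8
    abel

end Vale.Agent.P002
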