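import Vale.Agent.P002.Reg

set_option linter.unusedVariables false

namespace Vale.Agent.P002

open Matrix Filter Topology

variable {r : ℕ}

open Polynomial in
/-- the basis of one Jordan block -/
theorem jordan_block (p : ℂ[X]) (hp : Irreducible p) (e : ℕ) :
    ∃ (μ : ℂ) (b : Module.Basis (Fin e) ℂ (ℂ[X] ⧸ ℂ[X] ∙ p ^ e)), ∀ j : Fin e,
      (X : ℂ[X]) • b j = μ • b j + ∑ k : Fin e, if (j : ℕ) = (k : ℕ) + 1 then b k else 0 := by
  obtain ⟨μ, hμ⟩ := IsAlgClosed.exists_root p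
    (by rw [IsAlgClosed.degree_eq_one_of_irreducible ℂ hp]; exact one_ne_zero)
  have ha : Associated ((X - C μ) ^ e) (p ^ e) :=
    ((irreducible_X_sub_C μ).associated_of_dvd hp (dvd_iff_isRoot.2 hμ)).pow_pow
  let π : ℂ[X] →ₗ[ℂ[X]] (ℂ[X] ⧸ ℂ[X] ∙ p ^ e) := Submodule.mkQ _
  have hπ : ∀ q, π q = 0 ↔ (X - C μ) ^ e ∣ q := by
    intro q
    rw [ha.dvd_iff_dvd_left]
    exact (Submodule.Quotient.mk_eq_zero _).trans Ideal.mem_span_singleton
  have hs : ∀ (c : ℂ) (q : ℂ[X]), π (c • q) = c • π q := fun c q => π.map_smul_of_tower c q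
  let v : Fin e → (ℂ[X] ⧸ ℂ[X] ∙ p ^ e) := fun j => π ((X - C μ) ^ (e - 1 - j))
  have hli : LinearIndependent ℂ v := by
    rw [Fintype.linearIndependent_iff]
    intro g hg j
    have h1 : π (∑ j, g j • (X - C μ) ^ (e - 1 - j)) = 0 := by
      rw [map_sum, ← hg]
      exact Finset.sum_congr rfl fun j _ => hs _ _
    have h2 := map_dvd (aeval (X + C μ : ℂ[X]) : ℂ[X] →ₐ[ℂ] ℂ[X]) ((hπ _).1 h1)
    have h3 : (aeval (X + C μ : ℂ[X]) : ℂ[X] →ₐ[ℂ] ℂ[X]) (X - C μ) = X := by simp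
    rw [map_pow, h3, map_sum] at h2
    simp only [map_smul, map_pow, h3] at h2
    have h4 := X_pow_dvd_iff.1 h2 (e - 1 - j) (by have := j.2; omega)
    rw [finset_sum_coeff, Finset.sum_eq_single j _ fun h => absurd (Finset.mem_univ _) h] at h4
    · simpa using h4
    · intro k _ hk
      rw [coeff_smul, coeff_X_pow, if_neg, smul_zero]
      intro h
      apply hk
      have := j.2
      have := k.2
      ext
      omega
  have hsp : ⊤ ≤ Submodule.span ℂ (Set.range v) := by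
    intro x _
    obtain ⟨q, rfl⟩ : ∃ q, π q = x := Submodule.mkQ_surjective _ x
    rw [← sum_taylor_eq q μ, Polynomial.sum, map_sum]
    refine Submodule.sum_mem _ fun k _ => ?_
    rw [← smul_eq_C_mul, hs]
    refine Submodule.smul_mem _ _ ?_
    by_cases hk : k < e
    · refine Submodule.subset_span ⟨⟨e - 1 - k, by omega⟩, ?_⟩
      show π ((X - C μ) ^ (e - 1 - (e - 1 - k))) = _
      rw [show e - 1 - (e - 1 - k) = k by omega]
    · rw [(hπ _).2 (pow_dvd_pow _ (not_lt.1 hk))]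
      exact zero_mem _
  refine ⟨μ, Module.Basis.mk hli hsp, fun j => ?_⟩
  simp only [Module.Basis.mk_apply]
  have h1 : (X : ℂ[X]) • v j = μ • v j + π ((X - C μ) ^ (e - 1 - j + 1)) := by
    show (X : ℂ[X]) • π _ = μ • π _ + _
    rw [← hs, ← map_smul, ← map_add, smul_eq_C_mul, smul_eq_mul]
    congr 1
    ring
  rw [h1]
  congr 1
  have hj := j.2
  by_cases h0 : (j : ℕ) = 0
  · rw [(hπ _).2 (pow_dvd_pow _ (by omega)), Finset.sum_eq_zero]
    intro k _
    exact if_neg (by omega)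
  · rw [Finset.sum_eq_single (⟨j - 1, by omega⟩ : Fin e) _ fun h => absurd (Finset.mem_univ _) h,
      if_pos (by show (j : ℕ) = j - 1 + 1; omega)]
    · show _ = π ((X - C μ) ^ (e - 1 - (j - 1)))
      rw [show e - 1 - (j - 1) = e - 1 - j + 1 by omega]
    · intro k _ hk
      refine if_neg fun h => hk ?_
      ext
      show (k : ℕ) = j - 1
      omega

open Polynomial in
/-- a Jordan basis indexed by the blocks -/
theorem jordan_sigma (Y : Mat r) : ∃ (m : ℕ) (e : Fin m → ℕ) (μ : Fin m → ℂ)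
    (b : Module.Basis ((i : Fin m) × Fin (e i)) ℂ (Fin r → ℂ)), ∀ (i : Fin m) (j : Fin (e i)),
      Y *ᵥ b ⟨i, j⟩ = μ i • b ⟨i, j⟩ +
        ∑ k : Fin (e i), if (j : ℕ) = (k : ℕ) + 1 then b ⟨i, k⟩ else 0 := by
  classical
  let f := Matrix.toLin' Y
  obtain ⟨ι, _, p, hp, e, ⟨Φ⟩⟩ := Module.equiv_directSum_of_isTorsion (R := ℂ[X])
    (M := Module.AEval' f) (Module.AEval.isTorsion_of_finiteDimensional ℂ (Fin r → ℂ) f)
  choose μ c hc using fun i => jordan_block (p i) (hp i) (e i)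
  let Ψ : Module.AEval' f ≃ₗ[ℂ[X]] (∀ i, ℂ[X] ⧸ ℂ[X] ∙ p i ^ e i) :=
    Φ.trans (DirectSum.linearEquivFunOnFintype ℂ[X] ι _)
  let Θ : (∀ i, ℂ[X] ⧸ ℂ[X] ∙ p i ^ e i) ≃ₗ[ℂ] (Fin r → ℂ) :=
    (Ψ.symm.restrictScalars ℂ).trans (Module.AEval'.of f).symm
  have hΘ : ∀ x, Y *ᵥ Θ x = Θ ((X : ℂ[X]) • x) := by
    intro x
    show _ = (Module.AEval'.of f).symm (Ψ.symm ((X : ℂ[X]) • x))
    rw [map_smul, Module.AEval'.of_symm_X_smul]
    rfl
  let b := (Pi.basis c).map Θ
  have hb : ∀ (i : ι) (j : Fin (e i)), b ⟨i, j⟩ = Θ (Pi.single i (c i j)) := by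
    intro i j
    rw [Module.Basis.map_apply, Pi.basis_apply]
  have key : ∀ (i : ι) (j : Fin (e i)), Y *ᵥ b ⟨i, j⟩ = μ i • b ⟨i, j⟩ +
      ∑ k : Fin (e i), if (j : ℕ) = (k : ℕ) + 1 then b ⟨i, k⟩ else 0 := by
    intro i j
    let s : (ℂ[X] ⧸ ℂ[X] ∙ p i ^ e i) →ₗ[ℂ] (Fin r → ℂ) :=
      Θ.toLinearMap.comp (LinearMap.single ℂ (fun i => ℂ[X] ⧸ ℂ[X] ∙ p i ^ e i) i)
    have hs : ∀ k : Fin (e i), b ⟨i, k⟩ = s (c i k) := fun k => hb i k
    rw [hb, hΘ, ← Pi.single_smul, hc]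
    show s _ = μ i • s (c i j) + _
    rw [map_add, map_smul, map_sum]
    congr 1
    refine Finset.sum_congr rfl fun k _ => ?_
    split_ifs
    · exact (hs k).symm
    · exact map_zero _
  let ε : Fin (Fintype.card ι) ≃ ι := (Fintype.equivFin ι).symm
  refine ⟨_, fun i => e (ε i), fun i => μ (ε i),
    b.reindex (Equiv.sigmaCongrLeft (β := fun i => Fin (e i)) ε).symm, fun i j => ?_⟩
  simp only [Module.Basis.reindex_apply, Equiv.symm_symm]
  exact key (ε i) j

/-- Jordan normal form. Hint: `Module.equiv_directSum_of_isTorsion` for the `ℂ[X]`-module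
`Module.AEval' (Matrix.toLin' Y)`, irreducible polynomials over `ℂ` have degree one, the quotient
`ℂ[X]/(X - μ)^e` has the basis `(X - μ)^(e-1-j)`; order the sigma type with `finSigmaFinEquiv`.
Any other proof (induction on the dimension) is welcome. -/
theorem jordan (Y : Mat r) : ∃ (P : Mat r) (μ η : Fin r → ℂ), P.det ≠ 0 ∧
    (∀ i, η i = 0 ∨ η i = 1) ∧ (∀ i j : Fin r, (j : ℕ) = (i : ℕ) + 1 → η i ≠ 0 → μ i = μ j) ∧
    Y = P * jb μ η * P⁻¹ := by
  classical
  obtain ⟨m, e, μ, b, hb⟩ := jordan_sigma Y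
  have hr : ∑ i, e i = r := by
    have := Module.finrank_eq_card_basis b
    rw [Module.finrank_fin_fun, Fintype.card_sigma] at this
    simpa using this.symm
  subst hr
  let σ : ((i : Fin m) × Fin (e i)) ≃ Fin (∑ i, e i) := finSigmaFinEquiv
  have hσ : ∀ (i : Fin m) (j k : Fin (e i)), (j : ℕ) = (k : ℕ) + 1 →
      (σ ⟨i, j⟩ : ℕ) = (σ ⟨i, k⟩ : ℕ) + 1 := by
    intro i j k h
    rw [finSigmaFinEquiv_apply, finSigmaFinEquiv_apply]
    show _ + (j : ℕ) = _ + (k : ℕ) + 1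
    rw [h, add_assoc]
  let η : Fin (∑ i, e i) → ℂ := fun a =>
    if ((σ.symm a).2 : ℕ) + 1 < e (σ.symm a).1 then 1 else 0
  have hη : ∀ x y : (i : Fin m) × Fin (e i), (σ y : ℕ) = (σ x : ℕ) + 1 → η (σ x) ≠ 0 →
      ∃ h : (x.2 : ℕ) + 1 < e x.1, y = ⟨x.1, ⟨x.2 + 1, h⟩⟩ := by
    intro x y h h0
    have h1 : (x.2 : ℕ) + 1 < e x.1 := by
      by_contra h1
      refine h0 (if_neg ?_)
      rwa [σ.symm_apply_apply]
    refine ⟨h1, σ.injective (Fin.ext ?_)⟩
    rw [h, hσ x.1 ⟨x.2 + 1, h1⟩ x.2 rfl]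
  let b' := b.reindex σ
  let P : Mat (∑ i, e i) := (Pi.basisFun ℂ (Fin (∑ i, e i))).toMatrix b'
  have hP : P.det ≠ 0 := by
    have := (Pi.basisFun ℂ (Fin (∑ i, e i))).isUnit_det b'
    rw [Module.Basis.det_apply] at this
    exact this.ne_zero
  have hP' : ∀ a x, P a (σ x) = b x a := by
    intro a x
    show (Pi.basisFun ℂ (Fin (∑ i, e i))).repr (b' (σ x)) a = _
    rw [Module.Basis.reindex_apply, σ.symm_apply_apply, Pi.basisFun_repr]
  refine ⟨P, fun a => μ (σ.symm a).1, η, hP, fun a => ?_, fun a a' h h0 => ?_, ?_⟩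
  · show ite _ _ _ = _ ∨ ite _ _ _ = _
    split_ifs
    exacts [Or.inr rfl, Or.inl rfl]
  · obtain ⟨x, rfl⟩ := σ.surjective a
    obtain ⟨y, rfl⟩ := σ.surjective a'
    obtain ⟨h1, rfl⟩ := hη x y h h0
    simp only [σ.symm_apply_apply]
  · suffices h : Y * P = P * jb (fun a => μ (σ.symm a).1) η by
      rw [← h, mul_assoc, mul_inv'' hP, mul_one]
    ext a a'
    obtain ⟨⟨i, j⟩, rfl⟩ := σ.surjective a'
    have h1 : (Y * P) a (σ ⟨i, j⟩) = (Y *ᵥ b ⟨i, j⟩) a := by
      rw [Matrix.mul_apply]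
      exact Finset.sum_congr rfl fun k _ => by rw [hP']
    rw [h1, hb, Matrix.mul_apply, ← σ.sum_comp]
    have h2 : ∀ x : (i : Fin m) × Fin (e i),
        P a (σ x) * jb (fun a => μ (σ.symm a).1) η (σ x) (σ ⟨i, j⟩) =
          (if x = ⟨i, j⟩ then μ i * b ⟨i, j⟩ a else 0) + ∑ k : Fin (e i),
            if x = ⟨i, k⟩ then (if (j : ℕ) = (k : ℕ) + 1 then b ⟨i, k⟩ a else 0) else 0 := by
      intro x
      rw [hP']
      show b x a * ite _ _ _ = _
      by_cases hx : x = ⟨i, j⟩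
      · rw [if_pos (congrArg σ hx), if_pos hx, σ.symm_apply_apply, hx, mul_comm,
          Finset.sum_eq_zero (s := (Finset.univ : Finset (Fin (e i)))), add_zero]
        intro k _
        split_ifs with h3 h4
        · have h5 : j = k := by simpa using h3
          rw [h5] at h4
          omega
        · rfl
        · rfl
      · rw [if_neg fun h => hx (σ.injective h), if_neg hx, zero_add]
        by_cases h3 : ∃ k : Fin (e i), x = ⟨i, k⟩ ∧ (j : ℕ) = (k : ℕ) + 1
        · obtain ⟨k, rfl, hk⟩ := h3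
          rw [if_pos (hσ i j k hk), Finset.sum_eq_single k _ fun h => absurd (Finset.mem_univ _) h,
            if_pos rfl, if_pos hk]
          · have h4 : η (σ ⟨i, k⟩) = 1 := by
              refine if_pos ?_
              rw [σ.symm_apply_apply]
              exact hk ▸ j.2
            rw [h4, mul_one]
          · intro k' _ hk'
            refine if_neg fun h => hk' ?_
            have h5 : k = k' := by simpa using h
            exact h5.symm
        · rw [Finset.sum_eq_zero (s := (Finset.univ : Finset (Fin (e i))))]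
          · split_ifs with h4
            · by_cases h5 : η (σ x) = 0
              · rw [h5, mul_zero]
              · exfalso
                obtain ⟨h6, h7⟩ := hη x ⟨i, j⟩ h4 h5
                obtain ⟨i', k⟩ := x
                obtain ⟨rfl, h8⟩ := Sigma.mk.inj h7
                exact h3 ⟨k, rfl, congrArg Fin.val (eq_of_heq h8)⟩
            · exact mul_zero _
          · intro k _
            split_ifs with h4 h5
            · exact absurd ⟨k, h4, h5⟩ h3
            · rfl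
            · rfl
    rw [Finset.sum_congr rfl fun x _ => h2 x, Finset.sum_add_distrib, Finset.sum_comm,
      Finset.sum_ite_eq', if_pos (Finset.mem_univ _), Pi.add_apply, Pi.smul_apply, smul_eq_mul,
      Finset.sum_apply]
    congr 1
    refine Finset.sum_congr rfl fun k _ => ?_
    rw [Finset.sum_ite_eq', if_pos (Finset.mem_univ _)]
    split_ifs <;> rfl

end Vale.Agent.P002
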