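import Vale.Agent.P002.Defs

namespace Vale.Agent.P002

open Matrix Filter Topology

open Module

variable {F G : Type} [NormedAddCommGroup F] [NormedSpace ℂ F] [FiniteDimensional ℂ F]
  [NormedAddCommGroup G] [NormedSpace ℂ G] [FiniteDimensional ℂ G]

/-! Common proof: choose `G₀ : G →L[ℂ] F` with `L₀ G₀ L₀ = L₀` (`L₀ = L x₀`) and put
`T x = 1 + G₀ (L x - L₀)`, a unit of the Banach algebra `F →L[ℂ] F` for `x` near `x₀`. `T x` maps
`ker (L x)` injectively into `ker L₀`; if the dimensions agree it maps it onto `ker L₀`, so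
`s x = Ring.inverse (T x) Y` lies in `ker (L x)`. -/

omit [FiniteDimensional ℂ F] in
theorem kern_ginv (L₀ : F →L[ℂ] G) : ∃ G₀ : G →L[ℂ] F, ∀ v, L₀ (G₀ (L₀ v)) = L₀ v := by
  obtain ⟨g, hg⟩ := (L₀ : F →ₗ[ℂ] G).rangeRestrict.exists_rightInverse_of_surjective
    (LinearMap.range_rangeRestrict _)
  obtain ⟨g', hg'⟩ := LinearMap.exists_extend g
  refine ⟨LinearMap.toContinuousLinearMap g', fun v => ?_⟩
  have h1 := LinearMap.congr_fun hg' ⟨L₀ v, v, rfl⟩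
  have h2 := congrArg Subtype.val (LinearMap.congr_fun hg ⟨L₀ v, v, rfl⟩)
  change g' (L₀ v) = _ at h1
  change L₀ (g' (L₀ v)) = _
  rw [h1]
  exact h2

theorem kern_key (L₀ L₁ : F →L[ℂ] G) (G₀ : G →L[ℂ] F) (h : ∀ v, L₀ (G₀ (L₀ v)) = L₀ v)
    (hu : IsUnit (1 + G₀.comp (L₁ - L₀))) :
    finrank ℂ (LinearMap.ker (L₁ : F →ₗ[ℂ] G)) ≤ finrank ℂ (LinearMap.ker (L₀ : F →ₗ[ℂ] G)) ∧
    (finrank ℂ (LinearMap.ker (L₀ : F →ₗ[ℂ] G)) ≤ finrank ℂ (LinearMap.ker (L₁ : F →ₗ[ℂ] G)) →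
      ∀ Y, L₀ Y = 0 → L₁ (Ring.inverse (1 + G₀.comp (L₁ - L₀)) Y) = 0) := by
  have h3 := Ring.inverse_mul_cancel _ hu
  generalize hT : 1 + G₀.comp (L₁ - L₀) = T at *
  have h4 : ∀ v, Ring.inverse T (T v) = v := fun v => DFunLike.congr_fun h3 v
  have hinj : Function.Injective (T : F →ₗ[ℂ] F) := Function.LeftInverse.injective h4
  have h1 : (LinearMap.ker (L₁ : F →ₗ[ℂ] G)).map (T : F →ₗ[ℂ] F)
      ≤ LinearMap.ker (L₀ : F →ₗ[ℂ] G) := by
    rintro _ ⟨v, hv, rfl⟩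
    have hv' : L₁ v = 0 := hv
    change L₀ (T v) = 0
    rw [← hT]
    change L₀ (v + G₀ (L₁ v - L₀ v)) = 0
    rw [hv', zero_sub, map_neg, map_add, map_neg, h, add_neg_cancel]
  have h2 := (Submodule.equivMapOfInjective _ hinj (LinearMap.ker (L₁ : F →ₗ[ℂ] G))).finrank_eq
  refine ⟨h2.le.trans (Submodule.finrank_mono h1), fun hle Y hY => ?_⟩
  have h5 := Submodule.eq_of_le_of_finrank_le h1 (hle.trans h2.le)
  have h6 : Y ∈ LinearMap.ker (L₀ : F →ₗ[ℂ] G) := hY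
  rw [← h5] at h6
  obtain ⟨v, hv, rfl⟩ := h6
  exact (congrArg L₁ (h4 v)).trans hv

theorem kern_unit {X : Type} [TopologicalSpace X] {T : X → F →L[ℂ] F} {x₀ : X}
    (hT : ContinuousAt T x₀) (h : T x₀ = 1) : ∀ᶠ x in 𝓝 x₀, IsUnit (T x) := by
  have := FiniteDimensional.complete ℂ F
  exact hT.eventually (Units.isOpen.mem_nhds (by rw [h]; exact isUnit_one))

theorem kern_usc {X : Type} [TopologicalSpace X] (L : X → F →L[ℂ] G) {x₀ : X}
    (hL : ContinuousAt L x₀) :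
    ∀ᶠ x in 𝓝 x₀, finrank ℂ (LinearMap.ker (L x : F →ₗ[ℂ] G)) ≤
      finrank ℂ (LinearMap.ker (L x₀ : F →ₗ[ℂ] G)) := by
  obtain ⟨G₀, h⟩ := kern_ginv (L x₀)
  filter_upwards [kern_unit (T := fun x => 1 + G₀.comp (L x - L x₀)) (x₀ := x₀)
    (continuousAt_const.add (continuousAt_const.clm_comp (hL.sub continuousAt_const))) (by simp)]
    with x hx
  exact (kern_key _ _ _ h hx).1

theorem rank_lsc {X : Type} [TopologicalSpace X] (L : X → F →L[ℂ] G) {x₀ : X}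
    (hL : ContinuousAt L x₀) :
    ∀ᶠ x in 𝓝 x₀, finrank ℂ (LinearMap.range (L x₀ : F →ₗ[ℂ] G)) ≤
      finrank ℂ (LinearMap.range (L x : F →ₗ[ℂ] G)) := by
  filter_upwards [kern_usc L hL] with x hx
  have h1 := (L x : F →ₗ[ℂ] G).finrank_range_add_finrank_ker
  have h2 := (L x₀ : F →ₗ[ℂ] G).finrank_range_add_finrank_ker
  omega

theorem kern_section {X : Type} [TopologicalSpace X] (L : X → F →L[ℂ] G) {x₀ : X}
    (hL : ContinuousAt L x₀) {Y : F} (hY : L x₀ Y = 0) :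
    ∃ s : X → F, s x₀ = Y ∧ ContinuousAt s x₀ ∧
      ∀ᶠ x in 𝓝 x₀, finrank ℂ (LinearMap.ker (L x₀ : F →ₗ[ℂ] G)) ≤
        finrank ℂ (LinearMap.ker (L x : F →ₗ[ℂ] G)) → L x (s x) = 0 := by
  have := FiniteDimensional.complete ℂ F
  obtain ⟨G₀, h⟩ := kern_ginv (L x₀)
  have hT : ContinuousAt (fun x => 1 + G₀.comp (L x - L x₀)) x₀ :=
    continuousAt_const.add (continuousAt_const.clm_comp (hL.sub continuousAt_const))
  refine ⟨fun x => Ring.inverse (1 + G₀.comp (L x - L x₀)) Y, by simp, ?_, ?_⟩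
  · refine ContinuousAt.clm_apply ?_ continuousAt_const
    exact ContinuousAt.comp_of_eq (NormedRing.inverse_continuousAt (1 : (F →L[ℂ] F)ˣ)) hT (by simp)
  · filter_upwards [kern_unit hT (by simp)] with x hx hle
    exact (kern_key _ _ _ h hx).2 hle Y hY

theorem kern_section_diff (L : ℂ → F →L[ℂ] G) (hL : DifferentiableAt ℂ L 0) {Y : F}
    (hY : L 0 Y = 0) :
    ∃ s : ℂ → F, s 0 = Y ∧ DifferentiableAt ℂ s 0 ∧
      ∀ᶠ x in 𝓝 (0 : ℂ), finrank ℂ (LinearMap.ker (L 0 : F →ₗ[ℂ] G)) ≤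
        finrank ℂ (LinearMap.ker (L x : F →ₗ[ℂ] G)) → L x (s x) = 0 := by
  have := FiniteDimensional.complete ℂ F
  obtain ⟨G₀, h⟩ := kern_ginv (L 0)
  have hT : DifferentiableAt ℂ (fun x => 1 + G₀.comp (L x - L 0)) 0 :=
    (differentiableAt_const _).add
      ((differentiableAt_const _).clm_comp (hL.sub (differentiableAt_const _)))
  refine ⟨fun x => Ring.inverse (1 + G₀.comp (L x - L 0)) Y, by simp, ?_, ?_⟩
  · exact (hT.inverse (by simp)).clm_apply (differentiableAt_const _)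
  · filter_upwards [kern_unit hT.continuousAt (by simp)] with x hx hle
    exact (kern_key _ _ _ h hx).2 hle Y hY

/-- differentiate `L x (s x) = 0` -/
theorem kern_first_order (L : ℂ → F →L[ℂ] G) {L' : F →L[ℂ] G} (hL : HasDerivAt L L' 0)
    (h : ∀ᶠ x in 𝓝 (0 : ℂ), finrank ℂ (LinearMap.range (L x : F →ₗ[ℂ] G)) ≤
      finrank ℂ (LinearMap.range (L 0 : F →ₗ[ℂ] G))) {Y : F} (hY : L 0 Y = 0) :
    L' Y ∈ LinearMap.range (L 0 : F →ₗ[ℂ] G) := by
  obtain ⟨s, hs0, hs, hz⟩ := kern_section_diff L hL.differentiableAt hY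
  have h1 := hL.clm_apply hs.hasDerivAt
  have h2 : (fun x => L x (s x)) =ᶠ[𝓝 0] fun _ => 0 := by
    filter_upwards [h, hz] with x hx hx'
    have h3 := (L x : F →ₗ[ℂ] G).finrank_range_add_finrank_ker
    have h4 := (L 0 : F →ₗ[ℂ] G).finrank_range_add_finrank_ker
    exact hx' (by omega)
  have h3 := h1.unique ((hasDerivAt_const (0 : ℂ) (0 : G)).congr_of_eventuallyEq h2)
  rw [hs0] at h3
  refine ⟨-deriv s 0, ?_⟩
  rw [map_neg]
  exact (eq_neg_of_add_eq_zero_left h3).symm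

end Vale.Agent.P002
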