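import Vale.Agent.P002.Jordan

set_option linter.unusedVariables false

namespace Vale.Agent.P002

open Matrix Filter Topology

open Module

variable {r : ℕ}

theorem exists_trace_rep (l : Mat r →ₗ[ℂ] ℂ) : ∃ n : Mat r, ∀ μ, l μ = (n * μ).trace := by
  refine ⟨Matrix.of fun i j => l (Matrix.single j i 1), fun μ => ?_⟩
  conv_lhs => rw [Matrix.matrix_eq_sum_single μ]
  simp only [map_sum, Matrix.trace, Matrix.diag, Matrix.mul_apply, Matrix.of_apply]
  rw [Finset.sum_comm]
  refine Finset.sum_congr rfl fun j _ => Finset.sum_congr rfl fun i _ => ?_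
  rw [mul_comm, ← smul_eq_mul, ← map_smul, Matrix.smul_single, smul_eq_mul, mul_one]

theorem eq_zero_of_trace {Y : Mat r} (h : ∀ μ : Mat r, (Y * μ).trace = 0) : Y = 0 := by
  exact Matrix.ext_iff_trace_mul_right.2 fun μ => by rw [h μ, zero_mul, Matrix.trace_zero]

theorem mem_range_of_ann {F : Type} [AddCommGroup F] [Module ℂ F] (D : F →ₗ[ℂ] Mat r) (N : Mat r)
    (h : ∀ Y : Mat r, (∀ u, (Y * D u).trace = 0) → (Y * N).trace = 0) :
    N ∈ LinearMap.range D := by
  by_contra hN
  obtain ⟨l, hl, hle⟩ := Submodule.exists_le_ker_of_notMem hN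
  obtain ⟨n, hn⟩ := exists_trace_rep l
  refine hl ?_
  rw [hn]
  refine h n fun u => ?_
  rw [← hn]
  exact hle (LinearMap.mem_range_self D u)

/-- The annihilator of `range D₁` for the trace form has dimension `r² - rank D₁`, and
`F₂ / comap D₂ (range D₁)` embeds in `(trace zero matrices) / range D₁`. -/
theorem codim_bound (hr : 0 < r) {F₁ F₂ : Type} [AddCommGroup F₁] [Module ℂ F₁] [AddCommGroup F₂]
    [Module ℂ F₂] [FiniteDimensional ℂ F₂] (D₁ : F₁ →ₗ[ℂ] Mat r) (D₂ : F₂ →ₗ[ℂ] Mat r)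
    (h₁ : ∀ u, (D₁ u).trace = 0) (h₂ : ∀ u, (D₂ u).trace = 0) (Zs : Submodule ℂ (Mat r))
    (hZ : ∀ Y : Mat r, (∀ u, (Y * D₁ u).trace = 0) → Y ∈ Zs) :
    finrank ℂ F₂ + 1 ≤ finrank ℂ ((LinearMap.range D₁).comap D₂) + finrank ℂ Zs := by
  let G : F₂ × ℂ →ₗ[ℂ] Mat r := D₂.coprod (LinearMap.toSpanSingleton ℂ (Mat r) 1)
  have hG : ∀ x, G x = D₂ x.1 + x.2 • (1 : Mat r) := fun x => rfl
  let ψ : F₂ × ℂ →ₗ[ℂ] Module.Dual ℂ Zs :=
    LinearMap.mk₂ ℂ (fun x (Y : Zs) => ((Y : Mat r) * G x).trace)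
      (fun x y Y => by rw [map_add, mul_add, Matrix.trace_add])
      (fun c x Y => by rw [map_smul, mul_smul_comm, Matrix.trace_smul])
      (fun x Y Y' => by rw [Submodule.coe_add, add_mul, Matrix.trace_add])
      (fun c x Y => by rw [Submodule.coe_smul, smul_mul_assoc, Matrix.trace_smul])
  have hk : ∀ x ∈ LinearMap.ker ψ, x.2 = 0 ∧ x.1 ∈ (LinearMap.range D₁).comap D₂ := by
    intro x hx
    have h1 : G x ∈ LinearMap.range D₁ := mem_range_of_ann D₁ _ fun Y hY =>
      LinearMap.congr_fun (LinearMap.mem_ker.1 hx) ⟨Y, hZ Y hY⟩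
    have h2 : x.2 = 0 := by
      obtain ⟨u, hu⟩ := h1
      have := h₁ u
      rw [hu, hG, Matrix.trace_add, h₂, zero_add, Matrix.trace_smul, Matrix.trace_one,
        Fintype.card_fin, smul_eq_mul] at this
      exact (mul_eq_zero.1 this).resolve_right (Nat.cast_ne_zero.2 hr.ne')
    refine ⟨h2, ?_⟩
    rw [hG, h2, zero_smul, add_zero] at h1
    exact h1
  have h3 : finrank ℂ (LinearMap.ker ψ) ≤ finrank ℂ ((LinearMap.range D₁).comap D₂) := by
    refine LinearMap.finrank_le_finrank_of_injective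
      (f := LinearMap.codRestrict _ ((LinearMap.fst ℂ F₂ ℂ).comp (LinearMap.ker ψ).subtype)
        fun x => (hk x.1 x.2).2) fun x y hxy => ?_
    refine Subtype.ext (Prod.ext (congrArg Subtype.val hxy) ?_)
    rw [(hk x.1 x.2).1, (hk y.1 y.2).1]
  have h4 := LinearMap.finrank_range_add_finrank_ker ψ
  have h5 : finrank ℂ (LinearMap.range ψ) ≤ finrank ℂ Zs :=
    (Submodule.finrank_le _).trans_eq Subspace.dual_finrank_eq
  rw [Module.finrank_prod, Module.finrank_self] at h4
  omega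

/-- There is `v` with `v`, `Y v` independent; `φ ↦ adm Y (vecMulVec v φ)` is injective. -/
theorem rank_adm {Y : Mat r} (hY : ∀ c : ℂ, Y ≠ c • (1 : Mat r)) :
    r ≤ finrank ℂ (LinearMap.range (adm Y)) := by
  obtain ⟨v, hv⟩ : ∃ v : Fin r → ℂ, LinearIndependent ℂ ![v, Y *ᵥ v] := by
    by_contra hc
    push Not at hc
    obtain ⟨c, hc'⟩ := LinearMap.exists_eq_smul_id_of_forall_notLinearIndependent
      (f := Matrix.toLin' Y) (by simpa using hc)
    refine hY c (Matrix.toLin'.injective ?_)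
    rw [hc', map_smul, Matrix.toLin'_one]
    rfl
  let L : (Fin r → ℂ) →ₗ[ℂ] Mat r :=
    { toFun := fun φ => vecMulVec v φ
      map_add' := fun φ φ' => Matrix.vecMulVec_add v φ φ'
      map_smul' := fun c φ => by
        ext i j
        simp [vecMulVec_apply, mul_left_comm] }
  have hinj : Function.Injective ((adm Y).rangeRestrict.comp L) := by
    rw [← LinearMap.ker_eq_bot, LinearMap.ker_eq_bot']
    intro φ hφ
    have h1 : Y * vecMulVec v φ - vecMulVec v φ * Y = 0 := congrArg Subtype.val hφ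
    rw [Matrix.mul_vecMulVec, Matrix.vecMulVec_mul] at h1
    funext j
    have h2 : (-(φ ᵥ* Y) j) • v + φ j • (Y *ᵥ v) = 0 := by
      funext i
      have := congrFun (congrFun h1 i) j
      simp only [Matrix.sub_apply, vecMulVec_apply, Matrix.zero_apply] at this
      simp only [Pi.add_apply, Pi.smul_apply, smul_eq_mul, Pi.zero_apply]
      linear_combination this
    exact (LinearIndependent.pair_iff.1 hv _ _ h2).2
  simpa using LinearMap.finrank_le_finrank_of_injective hinj

theorem rank_adm_smul_one (c : ℂ) : finrank ℂ (LinearMap.range (adm (c • (1 : Mat r)))) = 0 := by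
  have : adm (c • (1 : Mat r)) = 0 := by
    ext Z : 1
    simp [adm]
  rw [this, LinearMap.range_zero, finrank_bot]

end Vale.Agent.P002
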