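import Vale.Agent.P002.DmAlg
import Vale.Agent.P002.Blocks

set_option linter.unusedVariables false
set_option linter.unusedSectionVars false

namespace Vale.Agent.P002

open Matrix Filter Topology

variable {r : ℕ} {J : Type} [Finite J] [DecidableEq J] (σ : Sys r J)

/-- the first two blocks do not interact through the first generator -/
def Sep (e₀ e₁ A : Mat r) : Prop :=
  ∀ Y : Mat r, Y * A = A * Y → (e₀ * Y * e₁ = Y ∨ e₁ * Y * e₀ = Y) → Y = 0

omit [Finite J] [DecidableEq J] in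
theorem merge_closure {S : Set (J → Mat r)} {x : J → Mat r} (F : ℂ → J → Mat r)
    (hF : Continuous F) (hF0 : F 0 = x) {B : Set ℂ} (hB : B.Finite) (h : ∀ s, s ∉ B → F s ∈ S) :
    x ∈ closure S := by
  have h1 : ∃ᶠ s in 𝓝 (0 : ℂ), F s ∈ S := by
    intro hc
    refine infinite_of_mem_nhds (0 : ℂ) (s := B) ?_ hB
    filter_upwards [hc] with s hs
    by_contra hb
    exact hs (h s hb)
  have h2 : Tendsto F (𝓝 0) (𝓝 x) := by
    rw [← hF0]
    exact hF.continuousAt.tendsto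
  exact mem_closure_of_frequently_of_tendsto h1 h2

theorem merge_fin (L : Mat r →ₗ[ℂ] Mat r) :
    {s : ℂ | ∃ Y : Mat r, Y ≠ 0 ∧ L Y = (1 + s) • Y}.Finite := by
  have h1 : {μ : ℂ | Module.End.HasEigenvalue L μ}.Finite := Module.End.finite_hasEigenvalue L
  refine (h1.image fun μ => μ - 1).subset ?_
  rintro s ⟨Y, hY, hL⟩
  refine ⟨1 + s, ?_, by ring⟩
  exact Module.End.hasEigenvalue_of_hasEigenvector
    ⟨Module.End.mem_eigenspace_iff.2 hL, hY⟩

theorem merge_det_of_mul {A B : Mat r} (h : A * B = 1) : A.det ≠ 0 := by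
  intro h0
  have := congrArg Matrix.det h
  rw [Matrix.det_mul, h0, zero_mul, Matrix.det_one] at this
  exact zero_ne_one this

theorem merge_det_idem {e : Mat r} (he : e * e = e) {s : ℂ} (hs : 1 + s ≠ 0) :
    (1 + s • e).det ≠ 0 := by
  refine merge_det_of_mul (B := 1 + (-s / (1 + s)) • e) ?_
  have h1 : (-s / (1 + s) + s + s * (-s / (1 + s))) = 0 := by
    field_simp
    ring
  calc (1 + s • e) * (1 + (-s / (1 + s)) • e)
      = 1 + (-s / (1 + s) + s + s * (-s / (1 + s))) • e := by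
        simp only [mul_add, add_mul, one_mul, mul_one, smul_mul_assoc, mul_smul_comm, he,
          add_smul, smul_smul, smul_add]
        rw [mul_comm (-s / (1 + s)) s]
        abel
    _ = 1 := by rw [h1, zero_smul, add_zero]

theorem merge_l {e₀ e₁ u : Mat r} (hi : e₀ * e₀ = e₀) (hu : e₀ * u * e₁ = u) : e₀ * u = u := by
  conv_lhs => rw [← hu]
  rw [← mul_assoc, ← mul_assoc, hi, hu]

theorem merge_r {e₀ e₁ u : Mat r} (hi : e₁ * e₁ = e₁) (hu : e₀ * u * e₁ = u) : u * e₁ = u := by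
  conv_lhs => rw [← hu]
  rw [mul_assoc, hi, hu]

theorem merge_l0 {e₀ e₁ u f : Mat r} (hf : f * e₀ = 0) (hu : e₀ * u * e₁ = u) : f * u = 0 := by
  rw [← hu, ← mul_assoc, ← mul_assoc, hf, zero_mul, zero_mul]

theorem merge_r0 {e₀ e₁ u f : Mat r} (hf : e₁ * f = 0) (hu : e₀ * u * e₁ = u) : u * f = 0 := by
  rw [← hu, mul_assoc, hf, mul_zero]

theorem merge_cancel {t X Y : Mat r} (ht : t.det ≠ 0) (h : X * t = Y * t) : X = Y := by
  have := congrArg (· * t⁻¹) h
  simpa only [mul_assoc, mul_inv'' ht, mul_one] using this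

/-- Twist: `x s = update x a (x a * (1 + s • e 0))` lies in `σ.R` for `s ≠ -1`, has the same blocks,
and satisfies `Sep` unless `1 + s` or its inverse is an eigenvalue of `Y ↦ A * Y * A⁻¹`
(`Module.End.finite_hasEigenvalue` or the roots of a characteristic polynomial). -/
theorem Sys.twist {x : J → Mat r} (hx : x ∈ σ.R) {m : ℕ} (h : Blocks (σ.val x) (m + 2)) :
    x ∈ closure {y | y ∈ σ.R ∧ ∃ e : Fin (m + 2) → Mat r, (∀ i, e i ≠ 0) ∧ (∀ i, e i * e i = e i) ∧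
      (∀ i j, i ≠ j → e i * e j = 0) ∧ ∑ i, e i = 1 ∧ (∀ i, e i ∈ cent (σ.val y)) ∧
      (∀ i, ∀ Y ∈ cent (σ.val y), e i * Y * e i = Y → ∃ c : ℂ, Y = c • e i) ∧
      Sep (e 0) (e 1) (y σ.a)} := by
  obtain ⟨e, h0, h1, h2, h3, h4, h5⟩ := h
  have hA : (x σ.a).det ≠ 0 := hx.1 σ.a
  have hcomm : ∀ i, e i * e 0 = e 0 * e i := by
    intro i
    by_cases hi : i = 0
    · rw [hi]
    · rw [h2 i 0 hi, h2 0 i (Ne.symm hi)]
  have h01 : (0 : Fin (m + 2)) ≠ 1 := Fin.zero_ne_one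
  let L₁ : Mat r →ₗ[ℂ] Mat r := LinearMap.mulLeftRight ℂ (x σ.a, (x σ.a)⁻¹)
  let L₂ : Mat r →ₗ[ℂ] Mat r := LinearMap.mulLeftRight ℂ ((x σ.a)⁻¹, x σ.a)
  have hB := ((merge_fin L₁).union (merge_fin L₂)).union (Set.finite_singleton (-1 : ℂ))
  refine merge_closure (fun s => Function.update x σ.a (x σ.a * (1 + s • e 0))) ?_ ?_ hB ?_
  · refine continuous_const.update σ.a ?_
    fun_prop
  · simp
  intro s hs
  simp only [Set.mem_union, Set.mem_singleton_iff, not_or, Set.mem_ofPred_eq, not_exists,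
    not_and] at hs
  obtain ⟨⟨hs1, hs2⟩, hs3⟩ := hs
  have hs0 : 1 + s ≠ 0 := fun h => hs3 (by linear_combination h)
  have ht : (1 + s • e 0).det ≠ 0 := merge_det_idem (h1 0) hs0
  have htc : ∀ Y : Mat r, Y * e 0 = e 0 * Y → Y * (1 + s • e 0) = (1 + s • e 0) * Y := by
    intro Y hY
    rw [mul_add, add_mul, mul_one, one_mul, mul_smul_comm, smul_mul_assoc, hY]
  have hva : σ.val (Function.update x σ.a (x σ.a * (1 + s • e 0))) σ.a =
      σ.val x σ.a * (1 + s • e 0) := by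
    rw [σ.val_a, σ.val_a, Function.update_self]
  have hvk : ∀ k, k ≠ σ.a → σ.val (Function.update x σ.a (x σ.a * (1 + s • e 0))) k =
      σ.val x k := fun k hk => σ.val_congr (Function.update_of_ne hk _ _)
  have hea : e 0 * x σ.a = x σ.a * e 0 := by
    have := h4 0 σ.a
    rwa [σ.val_a] at this
  refine ⟨⟨update_UU hx.1 σ.a ht, ?_⟩, e, h0, h1, h2, h3, ?_, ?_, ?_⟩
  · rw [σ.rel_mb hx.1 ?_ ht, hx.2]
    have := h4 0 σ.b
    rw [σ.val_b] at this
    exact (htc _ this.symm).symm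
  · intro i k
    by_cases hk : k = σ.a
    · rw [hk, hva, ← mul_assoc, h4 i σ.a, mul_assoc, htc _ (hcomm i), mul_assoc]
    · rw [hvk k hk]
      exact h4 i k
  · intro i Y hY hYi
    refine h5 i Y ?_ hYi
    intro k
    by_cases hk : k = σ.a
    · have hY0 : Y * e 0 = e 0 * Y := by
        by_cases hi : i = 0
        · rw [hi] at hYi
          rw [merge_l (h1 0) hYi, merge_r (h1 0) hYi]
        · rw [merge_l0 (h2 0 i (Ne.symm hi)) hYi, merge_r0 (h2 i 0 hi) hYi]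
      have := hY σ.a
      rw [hva, mul_assoc, ← htc Y hY0, ← mul_assoc, ← mul_assoc] at this
      rw [hk]
      exact merge_cancel ht this
    · have := hY k
      rwa [hvk k hk] at this
  · intro Y hY hYe
    simp only [Function.update_self] at hY
    by_contra hY0
    rw [mul_assoc, htc _ hea.symm, ← mul_assoc] at hY
    rcases hYe with hYe | hYe
    · refine hs2 Y hY0 ?_
      rw [mul_add, add_mul (1 : Mat r), mul_one, one_mul, mul_smul_comm, smul_mul_assoc,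
        merge_l (h1 0) hYe, merge_r0 (h2 1 0 h01.symm) hYe, smul_zero, add_zero] at hY
      simp only [L₂, LinearMap.mulLeftRight_apply]
      rw [mul_assoc, hY, imc hA, add_smul, one_smul]
    · refine hs1 Y hY0 ?_
      rw [mul_add, add_mul (1 : Mat r), mul_one, one_mul, mul_smul_comm, smul_mul_assoc,
        merge_l0 (h2 0 1 h01) hYe, merge_r (h1 0) hYe, smul_zero, add_zero] at hY
      simp only [L₁, LinearMap.mulLeftRight_apply]
      rw [← hY, mul_assoc, mul_inv'' hA, mul_one, add_smul, one_smul]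

/-- the off diagonal block -/
def mergeN (e₀ e₁ : Mat r) : Submodule ℂ (Mat r) where
  carrier := {u | e₀ * u * e₁ = u}
  add_mem' := by
    intro u v hu hv
    simp only [Set.mem_ofPred_eq] at hu hv ⊢
    rw [mul_add, add_mul, hu, hv]
  zero_mem' := by simp
  smul_mem' := by
    intro c u hu
    simp only [Set.mem_ofPred_eq] at hu ⊢
    rw [mul_smul_comm, smul_mul_assoc, hu]

theorem merge_mem {e₀ e₁ u : Mat r} : u ∈ mergeN e₀ e₁ ↔ e₀ * u * e₁ = u := Iff.rfl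

/-- the commutant of the two idempotents -/
def mergeC (e₀ e₁ : Mat r) (g : Mat r) : Prop := e₀ * g = g * e₀ ∧ e₁ * g = g * e₁

theorem mergeC.mul {e₀ e₁ g g' : Mat r} (h : mergeC e₀ e₁ g) (h' : mergeC e₀ e₁ g') :
    mergeC e₀ e₁ (g * g') :=
  ⟨by rw [← mul_assoc, h.1, mul_assoc, h'.1, mul_assoc],
    by rw [← mul_assoc, h.2, mul_assoc, h'.2, mul_assoc]⟩

theorem mergeC.inv {e₀ e₁ g : Mat r} (h : mergeC e₀ e₁ g) : mergeC e₀ e₁ g⁻¹ :=
  ⟨commute_inv h.1, commute_inv h.2⟩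

theorem mergeC.one (e₀ e₁ : Mat r) : mergeC e₀ e₁ 1 := ⟨by simp, by simp⟩

theorem mergeC.cm {e₀ e₁ g g' : Mat r} (h : mergeC e₀ e₁ g) (h' : mergeC e₀ e₁ g') :
    mergeC e₀ e₁ (cm g g') := ((h.mul h').mul h.inv).mul h'.inv

theorem merge_ml {e₀ e₁ g u : Mat r} (h : mergeC e₀ e₁ g) (hu : u ∈ mergeN e₀ e₁) :
    g * u ∈ mergeN e₀ e₁ := by
  rw [merge_mem] at hu ⊢
  rw [← mul_assoc, h.1, mul_assoc g, mul_assoc g, hu]

theorem merge_mr {e₀ e₁ g u : Mat r} (h : mergeC e₀ e₁ g) (hu : u ∈ mergeN e₀ e₁) :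
    u * g ∈ mergeN e₀ e₁ := by
  rw [merge_mem] at hu ⊢
  rw [← mul_assoc, mul_assoc _ g, ← h.2, ← mul_assoc, hu]

theorem merge_nn {e₀ e₁ u v : Mat r} (h10 : e₁ * e₀ = 0) (hu : u ∈ mergeN e₀ e₁)
    (hv : v ∈ mergeN e₀ e₁) : u * v = 0 :=
  merge_r0 (merge_l0 h10 hv) hu

theorem merge_prod {e₀ e₁ g g' u v : Mat r} (h10 : e₁ * e₀ = 0) (hu : u ∈ mergeN e₀ e₁)
    (hv : v ∈ mergeN e₀ e₁) : (g + u) * (g' + v) = g * g' + (u * g' + g * v) := by
  rw [add_mul, mul_add, mul_add, merge_nn h10 hu hv]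
  abel

theorem merge_one_add {e₀ e₁ u : Mat r} (h10 : e₁ * e₀ = 0) (hu : u ∈ mergeN e₀ e₁) :
    (1 + u) * (1 + -u) = 1 := by
  rw [merge_prod h10 hu (neg_mem hu)]
  simp

theorem merge_inv {e₀ e₁ u A : Mat r} (h10 : e₁ * e₀ = 0) (hu : u ∈ mergeN e₀ e₁) :
    ((1 + u) * A)⁻¹ = A⁻¹ + -(A⁻¹ * u) := by
  rw [Matrix.mul_inv_rev, Matrix.inv_eq_right_inv (merge_one_add h10 hu), mul_add, mul_one,
    mul_neg]

/-- linear term of a deformed commutator -/
noncomputable def mergeD (A B u v : Mat r) : Mat r :=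
  ((u * A * B + A * (v * B)) * A⁻¹ + A * B * -(A⁻¹ * u)) * B⁻¹ + A * B * A⁻¹ * -(B⁻¹ * v)

theorem mergeD_mem {e₀ e₁ A B u v : Mat r} (hA : mergeC e₀ e₁ A) (hB : mergeC e₀ e₁ B)
    (hu : u ∈ mergeN e₀ e₁) (hv : v ∈ mergeN e₀ e₁) : mergeD A B u v ∈ mergeN e₀ e₁ :=
  add_mem (merge_mr hB.inv (add_mem (merge_mr hA.inv (add_mem (merge_mr hB (merge_mr hA hu))
    (merge_ml hA (merge_mr hB hv)))) (merge_ml (hA.mul hB) (neg_mem (merge_ml hA.inv hu)))))
    (merge_ml ((hA.mul hB).mul hA.inv) (neg_mem (merge_ml hB.inv hv)))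

theorem merge_cm {e₀ e₁ A B u v : Mat r} (h10 : e₁ * e₀ = 0) (hA : mergeC e₀ e₁ A)
    (hB : mergeC e₀ e₁ B) (hu : u ∈ mergeN e₀ e₁) (hv : v ∈ mergeN e₀ e₁) :
    cm ((1 + u) * A) ((1 + v) * B) = cm A B + mergeD A B u v := by
  have h1 := add_mem (merge_mr hB (merge_mr hA hu)) (merge_ml hA (merge_mr hB hv))
  have h2 := neg_mem (merge_ml hA.inv hu)
  have h3 := add_mem (merge_mr hA.inv h1) (merge_ml (hA.mul hB) h2)
  unfold cm mergeD
  rw [merge_inv h10 hu, merge_inv h10 hv, add_mul 1 u, add_mul 1 v, one_mul, one_mul,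
    merge_prod h10 (merge_mr hA hu) (merge_mr hB hv), merge_prod h10 h1 h2,
    merge_prod h10 h3 (neg_mem (merge_ml hB.inv hv))]

theorem mergeD_add (A B u v u' v' : Mat r) :
    mergeD A B (u + u') (v + v') = mergeD A B u v + mergeD A B u' v' := by
  simp only [mergeD, mul_add, add_mul, neg_add]
  abel

theorem mergeD_smul (A B u v : Mat r) (c : ℂ) :
    mergeD A B (c • u) (c • v) = c • mergeD A B u v := by
  simp only [mergeD, mul_smul_comm, smul_mul_assoc, smul_add, mul_neg, smul_neg, add_mul,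
    neg_mul]

theorem merge_ne_bot {e₀ e₁ : Mat r} (h₀ : e₀ ≠ 0) (h₁ : e₁ ≠ 0) (hi₀ : e₀ * e₀ = e₀)
    (hi₁ : e₁ * e₁ = e₁) : mergeN e₀ e₁ ≠ ⊥ := by
  obtain ⟨i, j, hij⟩ : ∃ i j, e₀ i j ≠ 0 := by
    by_contra hc
    push Not at hc
    exact h₀ (Matrix.ext hc)
  obtain ⟨k, l, hkl⟩ : ∃ k l, e₁ k l ≠ 0 := by
    by_contra hc
    push Not at hc
    exact h₁ (Matrix.ext hc)
  rw [Submodule.ne_bot_iff]
  refine ⟨e₀ * Matrix.single j k 1 * e₁, ?_, ?_⟩
  · rw [merge_mem, ← mul_assoc, ← mul_assoc, hi₀, mul_assoc _ e₁, hi₁]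
  · intro h
    have h' : (e₀ * Matrix.single j k (1 : ℂ) * e₁) i l = e₀ i j * e₁ k l := by
      rw [Matrix.mul_apply, Finset.sum_eq_single k]
      · rw [Matrix.mul_single_apply_same, mul_one]
      · intro b _ hb
        rw [Matrix.mul_single_apply_of_ne _ _ _ _ _ hb, zero_mul]
      · simp
    rw [h] at h'
    exact mul_ne_zero hij hkl h'.symm

/-- Let `Nn = {u | e₀ * u * e₁ = u}`, of dimension `n ≥ 1`; `u * g * u' = 0` for `u, u' ∈ Nn` and
`g` commuting with `e₀`, `e₁`, and `(1 + u)⁻¹ = 1 - u`. The product of the two commutators of the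
matrices `(1 + u i) * A i` is `(1 + Λ u) * X`, `X` the old product, with `Λ : Nn⁴ → Nn` linear, so
`ker Λ` has dimension at least `3 n`, while the coboundaries form a space of dimension at most
`n`. -/
theorem exists_cocycle {e₀ e₁ : Mat r} (h₀ : e₀ ≠ 0) (h₁ : e₁ ≠ 0) (hi₀ : e₀ * e₀ = e₀)
    (hi₁ : e₁ * e₁ = e₁) (h01 : e₀ * e₁ = 0) (h10 : e₁ * e₀ = 0) (A : Fin 4 → Mat r)
    (hA : ∀ i, (A i).det ≠ 0) (hc₀ : ∀ i, e₀ * A i = A i * e₀) (hc₁ : ∀ i, e₁ * A i = A i * e₁) :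
    ∃ u : Fin 4 → Mat r, (∀ i, e₀ * u i * e₁ = u i) ∧
      (∀ τ : ℂ, cm ((1 + τ • u 0) * A 0) ((1 + τ • u 1) * A 1) *
        cm ((1 + τ • u 2) * A 2) ((1 + τ • u 3) * A 3) = cm (A 0) (A 1) * cm (A 2) (A 3)) ∧
      ∀ v : Mat r, e₀ * v * e₁ = v → ∃ i, u i ≠ A i * v * (A i)⁻¹ - v := by
  have hC : ∀ i, mergeC e₀ e₁ (A i) := fun i => ⟨hc₀ i, hc₁ i⟩
  let N := mergeN e₀ e₁
  let Λ : (Fin 4 → N) →ₗ[ℂ] N :=
    { toFun := fun u => ⟨mergeD (A 0) (A 1) (u 0) (u 1) * cm (A 2) (A 3) +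
          cm (A 0) (A 1) * mergeD (A 2) (A 3) (u 2) (u 3),
        add_mem (merge_mr ((hC 2).cm (hC 3)) (mergeD_mem (hC 0) (hC 1) (u 0).2 (u 1).2))
          (merge_ml ((hC 0).cm (hC 1)) (mergeD_mem (hC 2) (hC 3) (u 2).2 (u 3).2))⟩
      map_add' := by
        intro u v
        apply Subtype.ext
        simp only [Pi.add_apply, Submodule.coe_add, mergeD_add, mul_add, add_mul]
        abel
      map_smul' := by
        intro c u
        apply Subtype.ext
        simp only [Pi.smul_apply, Submodule.coe_smul, mergeD_smul, mul_smul_comm,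
          smul_mul_assoc, smul_add, RingHom.id_apply] }
  let δ : N →ₗ[ℂ] (Fin 4 → N) :=
    { toFun := fun v i => ⟨A i * v * (A i)⁻¹ - v,
        sub_mem (merge_mr (hC i).inv (merge_ml (hC i) v.2)) v.2⟩
      map_add' := by
        intro u v
        funext i
        apply Subtype.ext
        simp only [Pi.add_apply, Submodule.coe_add, mul_add, add_mul]
        abel
      map_smul' := by
        intro c u
        funext i
        apply Subtype.ext
        simp only [Pi.smul_apply, Submodule.coe_smul, mul_smul_comm,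
          smul_mul_assoc, smul_sub, RingHom.id_apply] }
  have hn : 0 < Module.finrank ℂ N :=
    Nat.pos_of_ne_zero fun h => merge_ne_bot h₀ h₁ hi₀ hi₁ (Submodule.finrank_eq_zero.1 h)
  have hker : ¬ LinearMap.ker Λ ≤ LinearMap.range δ := by
    intro hle
    have e1 := LinearMap.finrank_range_add_finrank_ker Λ
    have e2 : Module.finrank ℂ (Fin 4 → N) = 4 * Module.finrank ℂ N := by
      rw [Module.finrank_pi_fintype]
      simp
    have e3 : Module.finrank ℂ (LinearMap.range Λ) ≤ Module.finrank ℂ N :=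
      Submodule.finrank_le _
    have e4 := Submodule.finrank_mono hle
    have e5 : Module.finrank ℂ (LinearMap.range δ) ≤ Module.finrank ℂ N :=
      LinearMap.finrank_range_le δ
    omega
  obtain ⟨u, hu, hu'⟩ := SetLike.not_le_iff_exists.1 hker
  refine ⟨fun i => u i, fun i => (u i).2, ?_, ?_⟩
  · intro τ
    have hm : ∀ i, τ • (u i : Mat r) ∈ mergeN e₀ e₁ := fun i => Submodule.smul_mem _ τ (u i).2
    have h0 : mergeD (A 0) (A 1) (u 0) (u 1) * cm (A 2) (A 3) +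
        cm (A 0) (A 1) * mergeD (A 2) (A 3) (u 2) (u 3) = 0 := congrArg Subtype.val hu
    rw [merge_cm h10 (hC 0) (hC 1) (hm 0) (hm 1), merge_cm h10 (hC 2) (hC 3) (hm 2) (hm 3),
      merge_prod h10 (mergeD_mem (hC 0) (hC 1) (hm 0) (hm 1))
        (mergeD_mem (hC 2) (hC 3) (hm 2) (hm 3)), mergeD_smul, mergeD_smul, smul_mul_assoc,
      mul_smul_comm, ← smul_add, h0, smul_zero, add_zero]
  · intro v hv
    by_contra hc
    push Not at hc
    refine hu' ⟨⟨v, hv⟩, ?_⟩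
    funext i
    exact Subtype.ext (hc i).symm

theorem merge_block {ι : Type} {V U : ι → Mat r} {e₀ e₁ Y : Mat r} {τ : ℂ} (hτ : τ ≠ 0)
    (hi₀ : e₀ * e₀ = e₀) (hi₁ : e₁ * e₁ = e₁) (h01 : e₀ * e₁ = 0) (h10 : e₁ * e₀ = 0)
    (hV : ∀ k, mergeC e₀ e₁ (V k)) (hU : ∀ k, U k ∈ mergeN e₀ e₁)
    (hY : ∀ k, Y * ((1 + τ • U k) * V k) = (1 + τ • U k) * V k * Y)
    (hYe : (e₀ + e₁) * Y * (e₀ + e₁) = Y)
    (m₀ : ∀ Y ∈ cent V, e₀ * Y * e₀ = Y → ∃ c : ℂ, Y = c • e₀)
    (m₁ : ∀ Y ∈ cent V, e₁ * Y * e₁ = Y → ∃ c : ℂ, Y = c • e₁)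
    (a : ι) (hs : Sep e₀ e₁ (V a))
    (hn : ∀ v, e₀ * v * e₁ = v → ∃ k, (V k).det ≠ 0 ∧ U k ≠ V k * v * (V k)⁻¹ - v) :
    ∃ c : ℂ, Y = c • (e₀ + e₁) := by
  have hW : ∀ k, U k * V k ∈ mergeN e₀ e₁ := fun k => merge_mr (hV k) (hU k)
  have hWl : ∀ k, e₀ * (U k * V k) = U k * V k := fun k => merge_l hi₀ (hW k)
  have hWr : ∀ k, U k * V k * e₁ = U k * V k := fun k => merge_r hi₁ (hW k)
  have hWl0 : ∀ k, e₁ * (U k * V k) = 0 := fun k => merge_l0 h10 (hW k)
  have hWr0 : ∀ k, U k * V k * e₀ = 0 := fun k => merge_r0 h10 (hW k)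
  have key : ∀ k (f g : Mat r), f * V k = V k * f → g * V k = V k * g →
      f * Y * g * V k + τ • (f * Y * (U k * V k * g)) =
        V k * (f * Y * g) + τ • (f * (U k * V k) * Y * g) := by
    intro k f g hf hg
    have h := congrArg (fun Z => f * Z * g) (hY k)
    simp only [add_mul, mul_add, one_mul, smul_mul_assoc, mul_smul_comm] at h
    have e1 : f * Y * g * V k = f * (Y * V k) * g := by
      rw [mul_assoc _ g, hg]
      simp only [mul_assoc]
    have e2 : V k * (f * Y * g) = f * (V k * Y) * g := by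
      rw [← mul_assoc, ← mul_assoc, ← hf]
      simp only [mul_assoc]
    rw [e1, e2]
    simpa only [mul_assoc] using h
  have idem : ∀ f g : Mat r, f * f = f → g * g = g → f * (f * Y * g) * g = f * Y * g := by
    intro f g hf hg
    rw [← mul_assoc, ← mul_assoc, hf, mul_assoc _ g, hg]
  have h10Y : e₁ * Y * e₀ = 0 := by
    refine hs _ ?_ (Or.inr (idem _ _ hi₁ hi₀))
    have := key a e₁ e₀ (hV a).2 (hV a).1
    rwa [hWr0, hWl0, mul_zero, zero_mul, zero_mul, add_left_inj] at this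
  obtain ⟨c₀, hc₀⟩ : ∃ c : ℂ, e₀ * Y * e₀ = c • e₀ := by
    refine m₀ _ (fun k => ?_) (idem _ _ hi₀ hi₀)
    have := key k e₀ e₀ (hV k).1 (hV k).1
    have e1 : U k * V k * Y * e₀ = 0 := by
      rw [← hWr, mul_assoc _ e₁, mul_assoc _ (e₁ * Y), h10Y, mul_zero]
    rwa [hWr0, hWl, e1, mul_zero, add_left_inj] at this
  obtain ⟨c₁, hc₁⟩ : ∃ c : ℂ, e₁ * Y * e₁ = c • e₁ := by
    refine m₁ _ (fun k => ?_) (idem _ _ hi₁ hi₁)
    have := key k e₁ e₁ (hV k).2 (hV k).2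
    have e1 : e₁ * Y * (U k * V k) = 0 := by
      rw [← hWl, ← mul_assoc, h10Y, zero_mul]
    rwa [hWr, hWl0, e1, zero_mul, zero_mul, add_left_inj] at this
  have hk : ∀ k, e₀ * Y * e₁ * V k + (τ * c₀) • (U k * V k) =
      V k * (e₀ * Y * e₁) + (τ * c₁) • (U k * V k) := by
    intro k
    have := key k e₀ e₁ (hV k).1 (hV k).2
    have e1 : e₀ * Y * (U k * V k) = c₀ • (U k * V k) := by
      rw [← hWl, ← mul_assoc, hc₀, smul_mul_assoc, hWl]
    have e2 : U k * V k * Y * e₁ = c₁ • (U k * V k) := by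
      rw [← hWr, mul_assoc _ e₁, mul_assoc _ (e₁ * Y), hc₁, mul_smul_comm, hWr]
    rwa [hWr, hWl, e1, e2, smul_smul, smul_smul] at this
  have hc : c₀ = c₁ := by
    by_contra hne
    have hd : τ * c₀ - τ * c₁ ≠ 0 := by
      rw [← mul_sub]
      exact mul_ne_zero hτ (sub_ne_zero.2 hne)
    obtain ⟨k, hk0, hk1⟩ := hn ((τ * c₀ - τ * c₁)⁻¹ • (e₀ * Y * e₁)) (by
      rw [mul_smul_comm, smul_mul_assoc, idem _ _ hi₀ hi₁])
    refine hk1 (merge_cancel hk0 ?_)
    have e1 : (τ * c₀ - τ * c₁) • (U k * V k) = V k * (e₀ * Y * e₁) - e₀ * Y * e₁ * V k := by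
      rw [sub_smul, sub_eq_sub_iff_add_eq_add, add_comm, hk k]
    rw [sub_mul, mul_assoc _ (V k)⁻¹, inv_mul' hk0, mul_one, mul_smul_comm, smul_mul_assoc,
      ← smul_sub, ← e1, smul_smul, inv_mul_cancel₀ hd, one_smul]
  have h01Y : e₀ * Y * e₁ = 0 := by
    refine hs _ ?_ (Or.inl (idem _ _ hi₀ hi₁))
    have := hk a
    rwa [hc, add_left_inj] at this
  refine ⟨c₁, ?_⟩
  rw [← hYe, add_mul, add_mul, mul_add, mul_add, h10Y, h01Y, hc₀, hc₁, hc, smul_add, add_zero,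
    zero_add]

/-- Deform the coordinates `a, b, α, β` by `exists_cocycle`; the new idempotents are
`Fin.cons (e 0 + e 1) fun i => e i.succ.succ`. For `Y` in the merged block commuting with the
deformed values: `e 1 * Y * e 0 = 0` by `Sep`, the diagonal parts are `c₀ • e 0`, `c₁ • e 1`, and
`(c₀ - c₁) • τ • u i = A i * Y₀₁ * (A i)⁻¹ - Y₀₁`, so `c₀ = c₁` and `Y₀₁ = 0` by `Sep`. -/
theorem Sys.extend {x : J → Mat r} (hx : x ∈ σ.R) {m : ℕ} {e : Fin (m + 2) → Mat r}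
    (h0 : ∀ i, e i ≠ 0) (h1 : ∀ i, e i * e i = e i) (h2 : ∀ i j, i ≠ j → e i * e j = 0)
    (h3 : ∑ i, e i = 1) (h4 : ∀ i, e i ∈ cent (σ.val x))
    (h5 : ∀ i, ∀ Y ∈ cent (σ.val x), e i * Y * e i = Y → ∃ c : ℂ, Y = c • e i)
    (h6 : Sep (e 0) (e 1) (x σ.a)) :
    x ∈ closure {y | y ∈ σ.R ∧ Blocks (σ.val y) (m + 1)} := by
  have h01 : (0 : Fin (m + 2)) ≠ 1 := Fin.zero_ne_one
  have hs0 : ∀ i : Fin m, i.succ.succ ≠ (0 : Fin (m + 2)) := fun i => Fin.succ_ne_zero _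
  have hs1 : ∀ i : Fin m, i.succ.succ ≠ (1 : Fin (m + 2)) := fun i h =>
    Fin.succ_ne_zero i (Fin.succ_injective _ h)
  have hV : ∀ k, mergeC (e 0) (e 1) (σ.val x k) := fun k => ⟨h4 0 k, h4 1 k⟩
  let ix : Fin 4 → J := ![σ.a, σ.b, σ.α, σ.β]
  have hix : ∀ i, σ.val x (ix i) = x (ix i) := by
    intro i
    fin_cases i
    exacts [σ.val_a x, σ.val_b x, σ.val_α x, σ.val_β x]
  obtain ⟨u, hu, hrel, hn⟩ := exists_cocycle (h0 0) (h0 1) (h1 0) (h1 1) (h2 0 1 h01)
    (h2 1 0 h01.symm) (fun i => x (ix i)) (fun i => hx.1 _)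
    (fun i => by rw [← hix]; exact h4 0 _) (fun i => by rw [← hix]; exact h4 1 _)
  let U : J → Mat r := fun k => if k = σ.a then u 0 else if k = σ.b then u 1 else
    if k = σ.α then u 2 else if k = σ.β then u 3 else 0
  have hUa : U σ.a = u 0 := if_pos rfl
  have hUb : U σ.b = u 1 := by simp [U, σ.ab.symm]
  have hUα : U σ.α = u 2 := by simp [U, σ.aα.symm, σ.bα.symm]
  have hUβ : U σ.β = u 3 := by simp [U, σ.aβ.symm, σ.bβ.symm, σ.αβ.symm]
  have hUi : ∀ i, U (ix i) = u i := by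
    intro i
    fin_cases i
    exacts [hUa, hUb, hUα, hUβ]
  have hUr : ∀ k, σ.Rest k → U k = 0 := fun k hk => by simp [U, hk.1, hk.2.1, hk.2.2.1, hk.2.2.2]
  have hU : ∀ k, U k ∈ mergeN (e 0) (e 1) := by
    intro k
    simp only [U]
    split_ifs
    exacts [hu 0, hu 1, hu 2, hu 3, zero_mem _]
  have hval : ∀ (τ : ℂ) (k : J), σ.val (fun k => (1 + τ • U k) * x k) k =
      (1 + τ • U k) * σ.val x k := by
    intro τ k
    by_cases hk : k ∈ σ.H
    · have hr : σ.Rest k := ⟨fun h => σ.aH (h ▸ hk), fun h => σ.bH (h ▸ hk),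
        fun h => σ.αH (h ▸ hk), fun h => σ.βH (h ▸ hk)⟩
      rw [hUr k hr, smul_zero, add_zero, one_mul]
      exact σ.val_congr (by simp only [hUr k hr, smul_zero, add_zero, one_mul])
    · rw [σ.val_of_not_mem hk, σ.val_of_not_mem hk]
  refine merge_closure (fun τ k => (1 + τ • U k) * x k) ?_ ?_ (Set.finite_singleton (0 : ℂ)) ?_
  · fun_prop
  · funext k
    simp
  intro τ hτ
  have hτU : ∀ k, τ • U k ∈ mergeN (e 0) (e 1) := fun k => Submodule.smul_mem _ τ (hU k)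
  refine ⟨⟨fun k => det_mul_ne (merge_det_of_mul (merge_one_add (h2 1 0 h01.symm) (hτU k)))
    (hx.1 k), ?_⟩, Fin.cons (e 0 + e 1) fun i => e i.succ.succ, ?_, ?_, ?_, ?_, ?_, ?_⟩
  · have hW : σ.W' (fun k => (1 + τ • U k) * x k) = σ.W' x :=
      σ.W'_word.indep fun k hk => by simp only [hUr k hk, smul_zero, add_zero, one_mul]
    have h : cm ((1 + τ • u 0) * x σ.a) ((1 + τ • u 1) * x σ.b) *
        cm ((1 + τ • u 2) * x σ.α) ((1 + τ • u 3) * x σ.β) =
        cm (x σ.a) (x σ.b) * cm (x σ.α) (x σ.β) := hrel τ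
    refine Eq.trans ?_ hx.2
    simp only [Sys.rel, Sys.W, hW, hUa, hUb, hUα, hUβ, ← mul_assoc]
    exact congrArg (· * σ.W' x) h
  · intro i
    refine Fin.cases ?_ (fun i => h0 _) i
    intro h
    have h' : e 0 * (e 0 + e 1) = 0 := by
      rw [show e 0 + e 1 = 0 from h, mul_zero]
    rw [mul_add, h1 0, h2 0 1 h01, add_zero] at h'
    exact h0 0 h'
  · intro i
    refine Fin.cases ?_ (fun i => h1 _) i
    simp only [Fin.cons_zero]
    rw [add_mul, mul_add, mul_add, h1 0, h1 1, h2 0 1 h01, h2 1 0 h01.symm, add_zero, zero_add]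
  · intro i j
    refine Fin.cases ?_ (fun i => ?_) i <;> refine Fin.cases ?_ (fun j => ?_) j <;> intro hij
    · exact absurd rfl hij
    · simp only [Fin.cons_zero, Fin.cons_succ]
      rw [add_mul, h2 _ _ (hs0 j).symm, h2 _ _ (hs1 j).symm, add_zero]
    · simp only [Fin.cons_zero, Fin.cons_succ]
      rw [mul_add, h2 _ _ (hs0 i), h2 _ _ (hs1 i), add_zero]
    · simp only [Fin.cons_succ]
      exact h2 _ _ fun h => hij (Fin.succ_injective _ h)
  · rw [← h3, Fin.sum_univ_succ, Fin.sum_univ_succ (n := m + 1), Fin.sum_univ_succ (n := m)]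
    simp only [Fin.cons_zero, Fin.cons_succ, Fin.succ_zero_eq_one, add_assoc]
  · have hc : ∀ f : Mat r, f ∈ cent (σ.val x) → (∀ k, f * U k = U k * f) →
        f ∈ cent (σ.val fun k => (1 + τ • U k) * x k) := by
      intro f hf hfU k
      rw [hval, mul_assoc, ← hf k, ← mul_assoc, ← mul_assoc]
      simp only [mul_add, add_mul, mul_one, one_mul, mul_smul_comm, smul_mul_assoc, hfU k]
    intro i
    refine Fin.cases ?_ (fun i => ?_) i
    · refine hc _ (add_mem (h4 0) (h4 1)) fun k => ?_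
      simp only [Fin.cons_zero]
      rw [add_mul, mul_add, merge_l (h1 0) (hU k), merge_r (h1 1) (hU k),
        merge_l0 (h2 1 0 h01.symm) (hU k), merge_r0 (h2 1 0 h01.symm) (hU k), add_zero, zero_add]
    · refine hc _ (h4 _) fun k => ?_
      simp only [Fin.cons_succ]
      rw [merge_l0 (h2 _ _ (hs0 i)) (hU k), merge_r0 (h2 _ _ (hs1 i).symm) (hU k)]
  · intro i
    refine Fin.cases ?_ (fun i => ?_) i
    · intro Y hY hYe
      refine merge_block (V := σ.val x) (U := U) hτ (h1 0) (h1 1) (h2 0 1 h01)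
        (h2 1 0 h01.symm) hV hU (fun k => ?_) hYe (h5 0) (h5 1) σ.a ?_ fun v hv => ?_
      · have := hY k
        rwa [hval] at this
      · rwa [σ.val_a]
      · obtain ⟨i, hi⟩ := hn v hv
        refine ⟨ix i, ?_, ?_⟩
        · rw [hix]
          exact hx.1 _
        · rwa [hix, hUi]
    · intro Y hY hYe
      simp only [Fin.cons_succ] at hYe ⊢
      refine h5 _ Y (fun k => ?_) hYe
      have h := hY k
      have hW := merge_mr (hV k) (hτU k)
      have e1 : Y * (τ • U k * σ.val x k) = 0 := by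
        rw [← merge_r (h1 _) hYe, mul_assoc, merge_l0 (h2 _ _ (hs0 i)) hW, mul_zero]
      have e2 : τ • U k * σ.val x k * Y = 0 := by
        rw [← merge_l (h1 _) hYe, ← mul_assoc, merge_r0 (h2 _ _ (hs1 i).symm) hW, zero_mul]
      rwa [hval, add_mul, one_mul, mul_add, add_mul, e1, e2, add_left_inj] at h

theorem Sys.semis_closure {x : J → Mat r} (hx : x ∈ σ.R) (h : Semis (σ.val x)) :
    x ∈ closure {y | y ∈ σ.R ∧ Schur (σ.val y)} := by
  obtain ⟨m, hm⟩ := h.blocks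
  clear h
  induction m generalizing x with
  | zero => exact subset_closure ⟨hx, hm.schur (by omega)⟩
  | succ m ih =>
    rcases m with _ | m
    · exact subset_closure ⟨hx, hm.schur (by omega)⟩
    · refine closure_minimal ?_ isClosed_closure (σ.twist hx hm)
      rintro y ⟨hy, e, h0, h1, h2, h3, h4, h5, h6⟩
      refine closure_minimal ?_ isClosed_closure (σ.extend hy h0 h1 h2 h3 h4 h5 h6)
      rintro z ⟨hz, hz'⟩
      exact ih hz hz'

end Vale.Agent.P002
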