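import Vale.Agent.P002.SysB
import Vale.Agent.P002.Reach

set_option linter.unusedVariables false

namespace Vale.Agent.P002

open Matrix Filter Topology

open scoped Matrix.Norms.Operator

variable {r : ℕ} {J : Type} [Fintype J] [DecidableEq J] (σ : Sys r J)

/-- near `(x, 1)`, `c • σ.rel y = 1` forces `c = 1` (take determinants, `det_rel`) -/
theorem Sys.eventually_R (hr : 0 < r) {x : J → Mat r} (hx : x ∈ UU r J) :
    ∀ᶠ q : (J → Mat r) × ℂ in 𝓝 (x, 1), q.2 • σ.rel q.1 = 1 → q.1 ∈ σ.R := by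
  have h1 : ∀ᶠ c : ℂ in 𝓝 1, c ^ r = 1 → c = 1 := by
    have hfin : ({c : ℂ | c ^ r = 1} \ {1}).Finite := by
      refine Set.Finite.subset (Multiset.toFinset (Polynomial.nthRoots r (1 : ℂ))).finite_toSet ?_
      intro c hc
      simpa [Polynomial.mem_nthRoots hr] using hc.1
    filter_upwards [hfin.isClosed.isOpen_compl.mem_nhds (by simp)] with c hc h
    by_contra hne
    exact hc ⟨h, hne⟩
  have h2 : ∀ᶠ q : (J → Mat r) × ℂ in 𝓝 (x, 1), q.1 ∈ UU r J :=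
    continuous_fst.continuousAt.eventually (p := fun y => y ∈ UU r J) (bas_UU.mem_nhds hx)
  filter_upwards [h2, continuous_snd.continuousAt.eventually h1] with q hq hc h
  have h3 := congrArg Matrix.det h
  rw [Matrix.det_smul, σ.det_rel hq, mul_one, Matrix.det_one, Fintype.card_fin] at h3
  rw [hc h3, one_smul] at h
  exact ⟨hq, h⟩

/-- the derivative of the scaled relation -/
theorem relift_deriv {x : J → Mat r} (hx : x ∈ σ.R) {D : (J → Mat r) →L[ℂ] Mat r}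
    (hD : HasStrictFDerivAt σ.rel D x) :
    ∃ D' : ((J → Mat r) × ℂ) →L[ℂ] Mat r, (∀ v t, D' (v, t) = D v + t • (1 : Mat r)) ∧
      HasStrictFDerivAt (fun q : (J → Mat r) × ℂ => q.2 • σ.rel q.1) D' (x, 1) := by
  have h1 : HasStrictFDerivAt (fun q : (J → Mat r) × ℂ => σ.rel q.1)
      (D.comp (ContinuousLinearMap.fst ℂ _ _)) (x, 1) :=
    HasStrictFDerivAt.comp ((x, 1) : (J → Mat r) × ℂ) hD hasStrictFDerivAt_fst
  refine ⟨_, fun v t => ?_, (hasStrictFDerivAt_snd (𝕜 := ℂ)).smul h1⟩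
  show (1 : ℂ) • D v + t • σ.rel x = _
  rw [hx.2, one_smul]

theorem relift_trace (hr : 0 < r) (M : Mat r) :
    (M - (M.trace / r) • (1 : Mat r)).trace = 0 := by
  have : (r : ℂ) ≠ 0 := Nat.cast_ne_zero.2 hr.ne'
  rw [Matrix.trace_sub, Matrix.trace_smul, Matrix.trace_one, Fintype.card_fin, smul_eq_mul,
    div_mul_cancel₀ _ this, sub_self]

/-- `ift_curve` for `(y, c) ↦ c • σ.rel y` at `(x, 1)` -/
theorem Sys.curve (hr : 0 < r) {x : J → Mat r} (hx : x ∈ σ.R) {D : (J → Mat r) →L[ℂ] Mat r}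
    (hD : HasStrictFDerivAt σ.rel D x) (hs : ∀ N : Mat r, N.trace = 0 → ∃ v, D v = N)
    {v : J → Mat r} (hv : D v = 0) :
    ∃ γ : ℂ → J → Mat r, γ 0 = x ∧ HasDerivAt γ v 0 ∧ ∀ᶠ τ in 𝓝 (0 : ℂ), γ τ ∈ σ.R := by
  obtain ⟨D', hD', hF⟩ := relift_deriv σ hx hD
  have hsurj : Function.Surjective D' := by
    intro M
    obtain ⟨u, hu⟩ := hs _ (relift_trace hr M)
    exact ⟨(u, M.trace / r), by rw [hD', hu, sub_add_cancel]⟩
  obtain ⟨γ, h0, hd, hev⟩ := ift_curve hF hsurj (v := (v, 0)) 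
    ((hD' v 0).trans (by rw [hv, zero_smul, add_zero]))
  refine ⟨fun τ => (γ τ).1, by simp [h0], ?_, ?_⟩
  · exact (ContinuousLinearMap.fst ℂ (J → Mat r) ℂ).hasFDerivAt.comp_hasDerivAt (0 : ℂ) hd
  · have hc : Tendsto γ (𝓝 0) (𝓝 (x, 1)) := by
      rw [← h0]
      exact hd.continuousAt.tendsto
    filter_upwards [hev, hc.eventually (σ.eventually_R hr hx.1)] with τ h1 h2
    refine h2 ?_
    rw [h1, hx.2, one_smul]

/-- `HasStrictFDerivAt.map_nhds_eq_of_surj` for `(y, c) ↦ (c • σ.rel y, y a, y b)` -/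
theorem Sys.proj_open (hr : 0 < r) {x : J → Mat r} (hx : x ∈ σ.R)
    {D : (J → Mat r) →L[ℂ] Mat r} (hD : HasStrictFDerivAt σ.rel D x)
    (hs : ∀ N : Mat r, N.trace = 0 → ∃ v, v σ.a = 0 ∧ v σ.b = 0 ∧ D v = N)
    (O : Set (J → Mat r)) (hO : O ∈ 𝓝 x) :
    ∀ᶠ q : Mat r × Mat r in 𝓝 (x σ.a, x σ.b), ∃ y ∈ O, y ∈ σ.R ∧ y σ.a = q.1 ∧ y σ.b = q.2 := by
  classical
  obtain ⟨D', hD', hF⟩ := relift_deriv σ hx hD
  let L : ((J → Mat r) × ℂ) →L[ℂ] Mat r × Mat r :=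
    ((ContinuousLinearMap.proj σ.a).prod (ContinuousLinearMap.proj σ.b)).comp
      (ContinuousLinearMap.fst ℂ (J → Mat r) ℂ)
  have hL : ∀ q : (J → Mat r) × ℂ, L q = (q.1 σ.a, q.1 σ.b) := fun _ => rfl
  have hG := hF.prodMk (L.hasStrictFDerivAt (x := (x, 1)))
  have hsurj : (D'.prod L).range = ⊤ := by
    rw [LinearMap.range_eq_top]
    rintro ⟨M, A, B⟩
    let w : J → Mat r := Pi.single σ.a A + Pi.single σ.b B
    have hwa : w σ.a = A := by simp [w, Pi.single_eq_of_ne σ.ab]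
    have hwb : w σ.b = B := by simp [w, Pi.single_eq_of_ne σ.ab.symm]
    obtain ⟨u, ha, hb, hu⟩ := hs _ (relift_trace hr (M - D w))
    refine ⟨(u + w, (M - D w).trace / r), ?_⟩
    show (D' (u + w, (M - D w).trace / r), L (u + w, (M - D w).trace / r)) = _
    rw [hD', hL, map_add, hu]
    simp only [Pi.add_apply, ha, hb, hwa, hwb, zero_add]
    congr 1
    abel
  have hmap := hG.map_nhds_eq_of_surj hsurj
  have hS : ∀ᶠ q : (J → Mat r) × ℂ in 𝓝 (x, 1), q.1 ∈ O ∧ (q.2 • σ.rel q.1 = 1 → q.1 ∈ σ.R) :=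
    ((continuous_fst.tendsto ((x, 1) : (J → Mat r) × ℂ)).eventually (p := fun y => y ∈ O) hO).and
      (σ.eventually_R hr hx.1)
  have him : _ ∈ 𝓝 ((1 : ℂ) • σ.rel x, L (x, 1)) :=
    hmap.ge (image_mem_map (m := fun q : (J → Mat r) × ℂ => (q.2 • σ.rel q.1, L q)) hS)
  have hc : Tendsto (fun p : Mat r × Mat r => ((1 : Mat r), p)) (𝓝 (x σ.a, x σ.b))
      (𝓝 ((1 : ℂ) • σ.rel x, L (x, 1))) := by
    rw [hx.2, one_smul, hL]
    exact (continuous_const.prodMk continuous_id).continuousAt.tendsto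
  filter_upwards [hc.eventually him] with p hp
  obtain ⟨q, ⟨hq1, hq2⟩, hq3⟩ := hp
  obtain ⟨h1, h2⟩ := Prod.ext_iff.1 hq3
  exact ⟨q.1, hq1, hq2 h1, congrArg Prod.fst h2, congrArg Prod.snd h2⟩

end Vale.Agent.P002
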