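import Vale.Agent.P002.LinA

set_option linter.unusedVariables false

namespace Vale.Agent.P002

open Matrix Filter Topology

open Module

variable {r : ℕ}

open Polynomial DirectSum in
theorem zab_end {V : Type} [AddCommGroup V] [Module ℂ V] [FiniteDimensional ℂ V]
    (f : Module.End ℂ V) : ∃ (ι : Type) (_ : Fintype ι) (e : ι → Module.End ℂ V) (u : V),
      ∑ i, e i = 1 ∧ (∀ i, e i * e i = e i) ∧ (∀ i j, i ≠ j → e i * e j = 0) ∧
      (∀ i, f * e i = e i * f) ∧ ∀ i v, ∃ p : ℂ[X], e i v = aeval f p (e i u) := by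
  classical
  obtain ⟨ι, hι, p, -, n, ⟨φ⟩⟩ := Module.equiv_directSum_of_isTorsion
    (Module.AEval.isTorsion_of_finiteDimensional ℂ V f)
  obtain ⟨ψ, hψ⟩ : ∃ ψ : V ≃ₗ[ℂ] ⨁ i, ℂ[X] ⧸ ℂ[X] ∙ p i ^ n i,
      ∀ q v, ψ (aeval f q v) = q • ψ v :=
    ⟨(Module.AEval'.of f).trans (φ.restrictScalars ℂ), fun q v => by
      simp only [LinearEquiv.trans_apply, LinearEquiv.restrictScalars_apply]
      rw [← map_smul]
      rfl⟩
  obtain ⟨e, he⟩ : ∃ e : ι → Module.End ℂ V, ∀ i v, ψ (e i v) = lof ℂ[X] ι _ i (ψ v i) :=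
    ⟨fun i => ψ.symm.toLinearMap ∘ₗ ((lof ℂ[X] ι _ i ∘ₗ component ℂ[X] ι _ i).restrictScalars ℂ) ∘ₗ
      ψ.toLinearMap, fun i v => ψ.apply_symm_apply _⟩
  refine ⟨ι, hι, e, ψ.symm (∑ i, lof ℂ[X] ι _ i (Submodule.Quotient.mk 1)), ?_, fun i => ?_,
    fun i j hij => ?_, fun i => ?_, fun i v => ?_⟩
  · ext v
    refine ψ.injective ?_
    rw [LinearMap.sum_apply, map_sum, Finset.sum_congr rfl fun i _ => he i v]
    exact sum_univ_of _
  · ext v
    refine ψ.injective ?_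
    rw [Module.End.mul_apply, he, he, lof_apply]
  · ext v
    refine ψ.injective ?_
    rw [Module.End.mul_apply, he, he, lof_eq_of _ _ _ j, of_eq_of_ne _ _ _ hij, map_zero,
      LinearMap.zero_apply, map_zero]
  · ext v
    refine ψ.injective ?_
    have h := hψ X
    simp only [aeval_X] at h
    rw [Module.End.mul_apply, Module.End.mul_apply, h, he, he, h, DirectSum.smul_apply, map_smul]
  · obtain ⟨q, hq⟩ := Submodule.Quotient.mk_surjective _ (ψ v i)
    refine ⟨q, ψ.injective ?_⟩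
    have h : (∑ j, lof ℂ[X] ι (fun i => ℂ[X] ⧸ ℂ[X] ∙ p i ^ n i) j
        (Submodule.Quotient.mk 1)) i = Submodule.Quotient.mk 1 := by
      rw [DFinsupp.finsetSum_apply, Finset.sum_eq_single i (fun j _ hj => of_eq_of_ne _ _ _ hj.symm)
        (by simp), lof_apply]
    rw [hψ, he, he, ψ.apply_symm_apply, h, ← map_smul, ← Submodule.Quotient.mk_smul, smul_eq_mul,
      mul_one, hq]

theorem zab_mat (Y : Mat r) : ∃ (ι : Type) (_ : Fintype ι) (e : ι → Mat r) (u : Fin r → ℂ),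
    ∑ i, e i = 1 ∧ (∀ i, e i * e i = e i) ∧ (∀ i j, i ≠ j → e i * e j = 0) ∧
    (∀ i, Y * e i = e i * Y) ∧
    ∀ i (N : Mat r), Y * N = N * Y → (N * e i) *ᵥ u = 0 → N * e i = 0 := by
  obtain ⟨ι, hι, e, u, h1, h2, h3, h4, h5⟩ := zab_end (toLinAlgEquiv' Y)
  refine ⟨ι, hι, fun i => toLinAlgEquiv'.symm (e i), u, by rw [← map_sum, h1, map_one],
    fun i => by rw [← map_mul, h2], fun i j h => by rw [← map_mul, h3 i j h, map_zero],
    fun i => toLinAlgEquiv'.injective (by simp only [map_mul, AlgEquiv.apply_symm_apply, h4]),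
    fun i N hN h0 => toLinAlgEquiv'.injective (LinearMap.ext fun v => ?_)⟩
  obtain ⟨q, hq⟩ := h5 i v
  have k1 : Commute (toLinAlgEquiv' N) (toLinAlgEquiv' Y) := by
    rw [Commute, SemiconjBy, ← map_mul, ← hN, map_mul]
  have k2 : toLinAlgEquiv' N * Polynomial.aeval (toLinAlgEquiv' Y) q =
      Polynomial.aeval (toLinAlgEquiv' Y) q * toLinAlgEquiv' N := by
    rw [Polynomial.aeval_eq_sum_range]
    exact (Commute.sum_right _ _ _ fun j _ => (k1.pow_right j).smul_right _).eq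
  rw [← toLinAlgEquiv'_apply, map_mul, AlgEquiv.apply_symm_apply, Module.End.mul_apply] at h0
  rw [map_mul, AlgEquiv.apply_symm_apply, Module.End.mul_apply, hq, ← Module.End.mul_apply, k2,
    Module.End.mul_apply, h0, map_zero, map_zero, LinearMap.zero_apply]

theorem zab_tr {Y X Z Z' : Mat r} (hX : X ∈ TY Y) (hZ : Y * Z = Z * Y) (hZ' : Y * Z' = Z' * Y) :
    (X * (Z * Z' - Z' * Z)).trace = 0 := by
  obtain ⟨W, hW⟩ := hX Z hZ
  have h1 : Y * W - W * Y = X * Z - Z * X := hW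
  have h2 : (X * (Z * Z' - Z' * Z)).trace = ((X * Z - Z * X) * Z').trace := by
    rw [mul_sub, sub_mul, trace_sub, trace_sub, ← mul_assoc, ← mul_assoc, trace_mul_cycle X Z' Z]
  rw [h2, ← h1, sub_mul, trace_sub, ← trace_mul_cycle W Z' Y, mul_assoc, mul_assoc, hZ', sub_self]

/-- Hint: by `jordan` and conjugation assume `Y = jb μ η`. Let `blk i` be the number of `j < i`
with `η j = 0` and `e β = diagonal (indicator (blk = β))`; these idempotents commute with `Y`.
Let `Zbd` be the space of matrices commuting with `Y` and all `e β`. `Z ↦ Z *ᵥ u`, `u` the sum of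
the last basis vectors of the blocks, is injective on `Zbd` (`(Y - μ i) e_(i+1) = e_i` inside a
block), so `finrank Zbd ≤ r`. For `X ∈ TY Y` and `Z`, `Z'` commuting with `Y`,
`trace (X * (Z * Z' - Z' * Z)) = 0`; every `Z` commuting with `Y` is `∑ e β Z e β` plus commutators
`[e β, e β Z e γ]`. So the kernel of `TY Y → Dual Zbd`, `X ↦ trace (X * ·)`, annihilates the
commutant of `Y`, hence lies in `range (adm Y)` (`mem_range_of_ann`). -/
theorem finrank_TY (Y : Mat r) :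
    finrank ℂ (TY Y) ≤ finrank ℂ (LinearMap.range (adm Y)) + r := by
  obtain ⟨ι, hι, e, u, h1, h2, h3, h4, h5⟩ := zab_mat Y
  obtain ⟨T, hT⟩ : ∃ T : LinearMap.ker (adm Y) →ₗ[ℂ] (Fin r → ℂ),
      ∀ Z, T Z = ∑ i, (e i * Z.1 * e i) *ᵥ u :=
    ⟨{ toFun := fun Z => ∑ i, (e i * Z.1 * e i) *ᵥ u
       map_add' := fun Z Z' => by
        simp only [Submodule.coe_add, mul_add, add_mul, add_mulVec, Finset.sum_add_distrib]
       map_smul' := fun c Z => by
        simp only [Submodule.coe_smul, mul_smul_comm, smul_mul_assoc, smul_mulVec, RingHom.id_apply,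
          Finset.smul_sum] }, fun _ => rfl⟩
  obtain ⟨Bf, hB⟩ : ∃ Bf : LinearMap.BilinForm ℂ (Mat r), ∀ X Z, Bf X Z = (X * Z).trace :=
    ⟨(LinearMap.mul ℂ (Mat r)).compr₂ (traceLinearMap (Fin r) ℂ ℂ), fun _ _ => rfl⟩
  have hnd : Bf.Nondegenerate :=
    ⟨fun X hX => eq_zero_of_trace fun μ => by rw [← hB, hX],
      fun X hX => eq_zero_of_trace fun μ => by rw [trace_mul_comm, ← hB, hX]⟩
  have k1 : TY Y ≤ Bf.orthogonal ((LinearMap.ker T).map (LinearMap.ker (adm Y)).subtype) := by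
    rintro X hX _ ⟨⟨Z, hZ⟩, hZT, rfl⟩
    have hc : Y * Z = Z * Y := sub_eq_zero.1 hZ
    have a1 : ∀ i, e i * Z * e i = 0 := fun i => by
      refine h5 i _ (by rw [← mul_assoc, h4, mul_assoc, hc, mul_assoc]) ?_
      have a2 := congrArg (fun v => e i *ᵥ v) ((hT _).symm.trans hZT)
      simp only [mulVec_sum, mulVec_mulVec, mulVec_zero, ← mul_assoc] at a2
      rwa [Finset.sum_eq_single i (fun j _ hj => by rw [h3 i j hj.symm, zero_mul, zero_mul,
        zero_mulVec]) (by simp), h2] at a2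
    have a2 : Z = ∑ i, (Z * e i * e i - e i * (Z * e i)) := by
      rw [Finset.sum_congr rfl fun i _ => by rw [mul_assoc, h2, ← mul_assoc, a1, sub_zero],
        ← Finset.mul_sum, h1, mul_one]
    show Bf Z X = 0
    rw [hB, trace_mul_comm, a2, Finset.mul_sum, trace_sum]
    exact Finset.sum_eq_zero fun i _ => zab_tr hX
      (by rw [← mul_assoc, hc, mul_assoc, h4, mul_assoc]) (h4 i)
  have k2 := Submodule.finrank_mono k1
  rw [LinearMap.BilinForm.finrank_orthogonal hnd, Submodule.finrank_map_subtype_eq] at k2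
  have k3 := T.finrank_range_add_finrank_ker
  have k4 := (LinearMap.range T).finrank_le
  have k5 := (adm Y).finrank_range_add_finrank_ker
  rw [Module.finrank_fin_fun] at k4
  omega

/-- `Φ (a, b) = (adm Y a, adm Y b)` has rank `2 ρ`, and `Φ V` lies in the image of `TY Y` under
`X ↦ (A X - X A, B X - X B)`, whose kernel contains `Zs`; `finrank_TY`, `rank_adm`. -/
theorem count_bound {A B Y : Mat r} (hY : ∀ c : ℂ, Y ≠ c • (1 : Mat r))
    (Zs : Submodule ℂ (Mat r)) (h1 : Zs ≤ TY Y) (h2 : ∀ X ∈ Zs, X * A = A * X ∧ X * B = B * X)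
    (V : Submodule ℂ (Mat r × Mat r))
    (hV : ∀ q ∈ V, ∃ X ∈ TY Y, (X * A - A * X) + (Y * q.1 - q.1 * Y) = 0 ∧
      (X * B - B * X) + (Y * q.2 - q.2 * Y) = 0) :
    finrank ℂ V + finrank ℂ Zs ≤ finrank ℂ (Mat r × Mat r) := by
  obtain ⟨Φ, hΦ⟩ : ∃ Φ, Φ = (adm Y).prodMap (adm Y) := ⟨_, rfl⟩
  obtain ⟨Ψ, hΨ⟩ : ∃ Ψ, Ψ = ((adm A).prod (adm B)) ∘ₗ (TY Y).subtype := ⟨_, rfl⟩
  have k1 : LinearMap.range (Φ.domRestrict V) ≤ LinearMap.range Ψ := by
    rintro _ ⟨⟨q, hq⟩, rfl⟩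
    obtain ⟨X, hX, e1, e2⟩ := hV q hq
    refine ⟨⟨X, hX⟩, ?_⟩
    rw [hΦ, hΨ]
    exact Prod.ext ((neg_sub _ _).symm.trans (neg_eq_of_add_eq_zero_right e1))
      ((neg_sub _ _).symm.trans (neg_eq_of_add_eq_zero_right e2))
  have k2 : finrank ℂ (LinearMap.ker (Φ.domRestrict V)) ≤ finrank ℂ (LinearMap.ker Φ) := by
    rw [← Submodule.finrank_map_subtype_eq]
    refine Submodule.finrank_mono ?_
    rintro _ ⟨q, hq, rfl⟩
    exact hq
  have k3 : finrank ℂ Zs ≤ finrank ℂ (LinearMap.ker Ψ) := by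
    rw [← Submodule.finrank_map_subtype_eq (TY Y)]
    refine Submodule.finrank_mono fun X hX => ⟨⟨X, h1 hX⟩, ?_, rfl⟩
    rw [hΨ]
    exact Prod.ext (sub_eq_zero.2 (h2 X hX).1.symm) (sub_eq_zero.2 (h2 X hX).2.symm)
  have k4 : finrank ℂ (LinearMap.range (adm Y)) + finrank ℂ (LinearMap.range (adm Y)) ≤
      finrank ℂ (LinearMap.range Φ) := by
    rw [← Module.finrank_prod, ← LinearMap.finrank_range_of_inj
      (f := (LinearMap.range (adm Y)).subtype.prodMap (LinearMap.range (adm Y)).subtype)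
      (Subtype.val_injective.prodMap Subtype.val_injective)]
    refine Submodule.finrank_mono ?_
    rintro _ ⟨⟨⟨_, a, rfl⟩, ⟨_, b, rfl⟩⟩, rfl⟩
    exact ⟨(a, b), by rw [hΦ]; rfl⟩
  have k5 := Submodule.finrank_mono k1
  have k6 := (Φ.domRestrict V).finrank_range_add_finrank_ker
  have k7 := Φ.finrank_range_add_finrank_ker
  have k8 := Ψ.finrank_range_add_finrank_ker
  have k9 := finrank_TY Y
  have k10 := rank_adm hY
  omega

end Vale.Agent.P002
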