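import Vale.Agent.P002.RelD
import Vale.Agent.P002.RelIFT
import Vale.Agent.P002.GenSide
import Vale.Agent.P002.Zab

set_option linter.unusedVariables false
set_option linter.unusedSectionVars false

namespace Vale.Agent.P002

open Matrix Filter Topology

open Module
open scoped Matrix.Norms.Operator

variable {r : ℕ} {J : Type} [Fintype J] [DecidableEq J] (σ : Sys r J)

/-- the map that sets the coordinates `a`, `b` to zero -/
noncomputable def schurc_zero : (J → Mat r) →ₗ[ℂ] (J → Mat r) :=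
  LinearMap.pi fun k => if k = σ.a ∨ k = σ.b then 0 else LinearMap.proj k

theorem schurc_zero_a (u : J → Mat r) : schurc_zero σ u σ.a = 0 := by simp [schurc_zero]

theorem schurc_zero_b (u : J → Mat r) : schurc_zero σ u σ.b = 0 := by simp [schurc_zero]

theorem schurc_zero_single {k : J} (ha : k ≠ σ.a) (hb : k ≠ σ.b) (μ : Mat r) :
    schurc_zero σ (Pi.single k μ) = Pi.single k μ := by
  funext j
  by_cases h : j = σ.a ∨ j = σ.b
  · have hj : j ≠ k := by
      rintro rfl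
      exact h.elim ha hb
    simp [schurc_zero, h, Pi.single_eq_of_ne hj]
  · simp [schurc_zero, h]

/-- the inclusion of two coordinates -/
noncomputable def schurc_two (i j : J) : Mat r × Mat r →ₗ[ℂ] (J → Mat r) :=
  (LinearMap.single ℂ (fun _ : J => Mat r) i).coprod (LinearMap.single ℂ (fun _ : J => Mat r) j)

omit [Fintype J] in
theorem schurc_two_apply (i j : J) (q : Mat r × Mat r) :
    schurc_two i j q = Pi.single i q.1 + Pi.single j q.2 := rfl

omit [Fintype J] in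
theorem schurc_two_fst {i j : J} (h : i ≠ j) (q : Mat r × Mat r) : schurc_two i j q i = q.1 := by
  rw [schurc_two_apply, Pi.add_apply, Pi.single_eq_same, Pi.single_eq_of_ne h, add_zero]

omit [Fintype J] in
theorem schurc_two_snd {i j : J} (h : i ≠ j) (q : Mat r × Mat r) : schurc_two i j q j = q.2 := by
  rw [schurc_two_apply, Pi.add_apply, Pi.single_eq_same, Pi.single_eq_of_ne h.symm, zero_add]

omit [Fintype J] in
theorem schurc_two_ne {i j k : J} (h : k ≠ i) (h' : k ≠ j) (q : Mat r × Mat r) :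
    schurc_two i j q k = 0 := by
  rw [schurc_two_apply, Pi.add_apply, Pi.single_eq_of_ne h, Pi.single_eq_of_ne h', add_zero]

theorem schurc_nonscalar (hr : 0 < r) {ι : Type} {f : ι → Mat r} (hf : ¬ Schur f) {Y : Mat r}
    (hY : ∀ Y' ∈ cent f, finrank ℂ (LinearMap.range (adm Y')) ≤
      finrank ℂ (LinearMap.range (adm Y))) (c : ℂ) : Y ≠ c • (1 : Mat r) := by
  rintro rfl
  refine hf fun Y' hY' => ?_
  by_contra h
  have h1 := rank_adm (Y := Y') fun c hc => h ⟨c, hc⟩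
  have h2 := hY Y' hY'
  rw [rank_adm_smul_one] at h2
  omega

theorem schurc_trace {N Y : Mat r} (hN : N.trace = 0) (hY : ∃ c : ℂ, Y = c • (1 : Mat r)) :
    (Y * N).trace = 0 := by
  obtain ⟨c, rfl⟩ := hY
  rw [smul_mul_assoc, one_mul, Matrix.trace_smul, hN, smul_zero]

theorem schurc_regF_val (k : J) : RegF (UU r J) fun y => σ.val y k :=
  (σ.val_word k).regF σ.cs_det

theorem schurc_coord {γ : ℂ → J → Mat r} {v : J → Mat r} (h : HasDerivAt γ v 0) (k : J) :
    HasDerivAt (fun τ => γ τ k) (v k) 0 := hasDerivAt_pi.1 h k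

theorem schurc_val_deriv {γ : ℂ → J → Mat r} {v : J → Mat r} (h : HasDerivAt γ v 0)
    (h0 : γ 0 ∈ UU r J) (k : J) :
    ∃ d : Mat r, HasDerivAt (fun τ => σ.val (γ τ) k) d 0 ∧ (k ∉ σ.H → d = v k) := by
  by_cases hk : k ∈ σ.H
  · have h1 : DifferentiableAt ℂ (fun y => σ.val y k) (γ 0) :=
      (schurc_regF_val σ k).differentiableAt (bas_UU.mem_nhds h0)
    exact ⟨_, (h1.comp (0 : ℂ) h.differentiableAt).hasDerivAt, fun h => absurd hk h⟩
  · refine ⟨v k, ?_, fun _ => rfl⟩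
    have e : (fun τ => σ.val (γ τ) k) = fun τ => γ τ k :=
      funext fun τ => σ.val_of_not_mem hk _
    rw [e]
    exact schurc_coord h k

theorem schurc_main (hr : 0 < r) {x : J → Mat r} (hx : x ∈ σ.R) (hS : Schur (σ.val x))
    {Y₁ Y₂ : Mat r}
    (h11 : ∀ Y' ∈ cent ![x σ.a, x σ.b], finrank ℂ (LinearMap.range (adm Y')) ≤
      finrank ℂ (LinearMap.range (adm Y₁)))
    (h12 : cent ![x σ.a, x σ.b] ≤ TY Y₁)
    (h13 : ∀ (γ : ℂ → J → Mat r) (f' : Fin 2 → Mat r), γ 0 = x → ContinuousAt γ 0 →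
      (∀ᶠ τ in 𝓝 (0 : ℂ), γ τ ∈ σ.R) →
      (∀ i, HasDerivAt (fun τ => ![γ τ σ.a, γ τ σ.b] i) (f' i) 0) →
      ∃ X' ∈ TY Y₁, ∀ i, (X' * ![x σ.a, x σ.b] i - ![x σ.a, x σ.b] i * X') +
        (Y₁ * f' i - f' i * Y₁) = 0)
    (h21 : ∀ Y' ∈ cent fun k : {k // k ≠ σ.a ∧ k ≠ σ.b} => σ.val x k,
      finrank ℂ (LinearMap.range (adm Y')) ≤ finrank ℂ (LinearMap.range (adm Y₂)))
    (h22 : (cent fun k : {k // k ≠ σ.a ∧ k ≠ σ.b} => σ.val x k) ≤ TY Y₂)
    (h23 : ∀ (γ : ℂ → J → Mat r) (f' : {k // k ≠ σ.a ∧ k ≠ σ.b} → Mat r), γ 0 = x →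
      ContinuousAt γ 0 → (∀ᶠ τ in 𝓝 (0 : ℂ), γ τ ∈ σ.R) →
      (∀ i : {k // k ≠ σ.a ∧ k ≠ σ.b}, HasDerivAt (fun τ => σ.val (γ τ) i) (f' i) 0) →
      ∃ X' ∈ TY Y₂, ∀ i : {k // k ≠ σ.a ∧ k ≠ σ.b}, (X' * σ.val x i - σ.val x i * X') +
        (Y₂ * f' i - f' i * Y₂) = 0) :
    Schur fun k : {k // k ≠ σ.a ∧ k ≠ σ.b} => σ.val x k := by
  by_contra hn
  obtain ⟨D, hD, ht, hab, hrest⟩ := σ.rel_deriv hx
  have hs : ∀ N : Mat r, N.trace = 0 → ∃ v, D v = N := fun N hN =>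
    mem_range_of_ann (D : (J → Mat r) →ₗ[ℂ] Mat r) N fun Y hY => schurc_trace hN (hS Y fun k => by
      have h1 := hab Y (fun μ => hY _) fun μ => hY _
      by_cases ha : k = σ.a
      · rw [ha, σ.val_a]; exact h1.1
      by_cases hb : k = σ.b
      · rw [hb, σ.val_b]; exact h1.2
      exact hrest Y (fun k _ _ μ => hY _) k ha hb)
  let D₁ : Mat r × Mat r →ₗ[ℂ] Mat r := (D : (J → Mat r) →ₗ[ℂ] Mat r) ∘ₗ schurc_two σ.a σ.b
  let D₂ : Mat r × Mat r →ₗ[ℂ] Mat r := (D : (J → Mat r) →ₗ[ℂ] Mat r) ∘ₗ schurc_two σ.α σ.β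
  let D₃ : (J → Mat r) →ₗ[ℂ] Mat r := (D : (J → Mat r) →ₗ[ℂ] Mat r) ∘ₗ schurc_zero σ
  have e1 : ∀ q, D₁ q = D (schurc_two σ.a σ.b q) := fun _ => rfl
  have e2 : ∀ q, D₂ q = D (schurc_two σ.α σ.β q) := fun _ => rfl
  have e3 : ∀ q, D₃ q = D (schurc_zero σ q) := fun _ => rfl
  have c1 := codim_bound hr D₁ D₂ (fun u => ht _) (fun u => ht _) (cent ![x σ.a, x σ.b])
    fun Y hY => by
      have h1 := hab Y (fun μ => by
        have := hY (μ, 0)
        rwa [e1, schurc_two_apply, Pi.single_zero, add_zero] at this) fun μ => by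
        have := hY (0, μ)
        rwa [e1, schurc_two_apply, Pi.single_zero, zero_add] at this
      intro i
      fin_cases i
      · exact h1.1
      · exact h1.2
  have c2 := codim_bound hr D₃ D₁ (fun u => ht _) (fun u => ht _)
    (cent fun k : {k // k ≠ σ.a ∧ k ≠ σ.b} => σ.val x k) fun Y hY k =>
      hrest Y (fun k ha hb μ => by
        have := hY (Pi.single k μ)
        rwa [e3, schurc_zero_single σ ha hb] at this) k k.2.1 k.2.2
  let iα : {k // k ≠ σ.a ∧ k ≠ σ.b} := ⟨σ.α, σ.aα.symm, σ.bα.symm⟩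
  let iβ : {k // k ≠ σ.a ∧ k ≠ σ.b} := ⟨σ.β, σ.aβ.symm, σ.bβ.symm⟩
  have b2 := count_bound (A := σ.val x iα) (B := σ.val x iβ) (schurc_nonscalar hr hn h21) _ h22
    (fun X hX => ⟨hX iα, hX iβ⟩) ((LinearMap.range D₁).comap D₂) fun q hq => by
      obtain ⟨p, hp⟩ := hq
      obtain ⟨γ, h0, hγ, hR⟩ := σ.curve hr hx hD hs
        (v := schurc_two σ.α σ.β q - schurc_two σ.a σ.b p)
        (by rw [map_sub, ← e1, ← e2, hp, sub_self])
      choose d hd hd' using schurc_val_deriv σ hγ (by rw [h0]; exact hx.1)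
      obtain ⟨X, hX, h⟩ := h23 γ (fun k => d k) h0 hγ.continuousAt hR fun i => hd i
      refine ⟨X, hX, ?_, ?_⟩
      · have h1 : d iα = q.1 := by
          rw [hd' σ.α σ.αH, Pi.sub_apply, schurc_two_fst σ.αβ,
            schurc_two_ne σ.aα.symm σ.bα.symm, sub_zero]
        rw [← h1]; exact h iα
      · have h1 : d iβ = q.2 := by
          rw [hd' σ.β σ.βH, Pi.sub_apply, schurc_two_snd σ.αβ,
            schurc_two_ne σ.aβ.symm σ.bβ.symm, sub_zero]
        rw [← h1]; exact h iβ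
  have hn1 : ¬ Schur ![x σ.a, x σ.b] := by
    rw [schur_iff_finrank hr] at hn ⊢
    omega
  have b1 := count_bound (A := x σ.a) (B := x σ.b) (schurc_nonscalar hr hn1 h11) _ h12
    (fun X hX => ⟨hX 0, hX 1⟩) ((LinearMap.range D₃).comap D₁) fun q hq => by
      obtain ⟨p, hp⟩ := hq
      obtain ⟨γ, h0, hγ, hR⟩ := σ.curve hr hx hD hs
        (v := schurc_two σ.a σ.b q - schurc_zero σ p)
        (by rw [map_sub, ← e1, ← e3, hp, sub_self])
      obtain ⟨X, hX, h⟩ := h13 γ ![q.1, q.2] h0 hγ.continuousAt hR fun i => by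
        fin_cases i
        · have := schurc_coord hγ σ.a
          rw [Pi.sub_apply, schurc_two_fst σ.ab, schurc_zero_a, sub_zero] at this
          exact this
        · have := schurc_coord hγ σ.b
          rw [Pi.sub_apply, schurc_two_snd σ.ab, schurc_zero_b, sub_zero] at this
          exact this
      exact ⟨X, hX, h 0, h 1⟩
  omega

/-- Near a point with scalar commutant there is a point where already the generators outside the
first handle have scalar commutant. Hint: shrink `O` so that `O ⊆ UU` is open and `Schur (σ.val y)`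
on `O` (`cent_usc`, `schur_iff_finrank`). Apply `gen_side` to the family `f₁ y = ![y a, y b]` and
then to `f₂ y = fun k : {k // k ≠ a ∧ k ≠ b} => σ.val y k`, and pick `x` in the resulting set, with
`Y₁`, `Y₂`, and `D` from `rel_deriv`. `D` maps onto the trace zero matrices (`mem_range_of_ann`),
so `Sys.curve` applies to every `v ∈ ker D`. Suppose `f₂ x` is not `Schur`; then `Y₂` is not scalar
(`rank_adm`, `rank_adm_smul_one`). With `D₁ (μ, ν) = D (single a μ + single b ν)`,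
`D₂ (μ, ν) = D (single α μ + single β ν)`, `V₂ = comap D₂ (range D₁)`: `count_bound` and
`codim_bound` give `finrank (cent (f₂ x)) + 1 ≤ finrank (cent (f₁ x))`. So `Y₁` is not scalar, and
with `V₁ = comap D₁ (range Drest)`, `Drest` the composition of `D` with the map that sets the
coordinates `a`, `b` to zero, one gets the opposite strict inequality. -/
theorem Sys.exists_rest_schur (hr : 0 < r) {x₀ : J → Mat r} (hx : x₀ ∈ σ.R)
    (hS : Schur (σ.val x₀)) (O : Set (J → Mat r)) (hO : O ∈ 𝓝 x₀) :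
    ∃ x ∈ σ.R, O ∈ 𝓝 x ∧ Schur fun k : {k // k ≠ σ.a ∧ k ≠ σ.b} => σ.val x k := by
  have hc : ∀ y ∈ UU r J, ∀ k, ContinuousAt (fun y => σ.val y k) y := fun y hy k =>
    (schurc_regF_val σ k).continuousAt (bas_UU.mem_nhds hy)
  have h1 : ∀ᶠ y in 𝓝 x₀, y ∈ O ∧ y ∈ UU r J ∧ Schur (σ.val y) := by
    filter_upwards [hO, bas_UU.mem_nhds hx.1,
      cent_usc σ.val (continuousAt_pi.2 (hc x₀ hx.1))] with y h1 h2 h3
    exact ⟨h1, h2, (schur_iff_finrank hr _).2 (h3.trans ((schur_iff_finrank hr _).1 hS))⟩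
  obtain ⟨O₀, h0, ho, hx0⟩ := eventually_nhds_iff.1 h1
  obtain ⟨O₁, hs1, ho1, hne1, H1⟩ := gen_side σ.R O₀ (fun y => ![y σ.a, y σ.b]) ho
    ⟨x₀, hx, hx0⟩ fun y _ => continuousAt_pi.2 fun i => by
      fin_cases i
      · exact (continuous_apply σ.a).continuousAt
      · exact (continuous_apply σ.b).continuousAt
  obtain ⟨O₂, hs2, ho2, ⟨x, hxR, hx2⟩, H2⟩ := gen_side σ.R O₁
    (fun y (k : {k // k ≠ σ.a ∧ k ≠ σ.b}) => σ.val y k) ho1 hne1
    fun y hy => continuousAt_pi.2 fun k => hc y (h0 y (hs1 hy)).2.1 k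
  obtain ⟨Y₁, -, h11, h12, h13⟩ := H1 x ⟨hxR, hs2 hx2⟩
  obtain ⟨Y₂, -, h21, h22, h23⟩ := H2 x ⟨hxR, hx2⟩
  have hxO := hs1 (hs2 hx2)
  exact ⟨x, hxR, mem_of_superset (ho.mem_nhds hxO) fun y hy => (h0 y hy).1,
    schurc_main σ hr hxR (h0 x hxO).2.2 h11 h12 h13 h21 h22 h23⟩

/-- `exists_rest_schur`, `rel_deriv`, `mem_range_of_ann`, `proj_open`, `Gen.frequently` -/
theorem Sys.schur_closure (hr : 0 < r) {κ : Mat r × Mat r → Prop} (hκ : Gen κ) {x : J → Mat r}
    (hx : x ∈ σ.R) (hS : Schur (σ.val x)) :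
    x ∈ closure {y | y ∈ σ.R ∧ κ (y σ.a, y σ.b)} := by
  refine mem_closure_iff_nhds.2 fun O hO => ?_
  obtain ⟨z, hz, hOz, hSz⟩ := σ.exists_rest_schur hr hx hS O hO
  obtain ⟨D, hD, -, -, hrest⟩ := σ.rel_deriv hz
  have h := σ.proj_open hr hz hD (fun N hN => by
    obtain ⟨u, hu⟩ := mem_range_of_ann ((D : (J → Mat r) →ₗ[ℂ] Mat r) ∘ₗ schurc_zero σ) N
      fun Y hY => schurc_trace hN (hSz Y fun k => hrest Y (fun k ha hb μ => by
        have : (Y * D (schurc_zero σ (Pi.single k μ))).trace = 0 := hY (Pi.single k μ)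
        rwa [schurc_zero_single σ ha hb] at this) k k.2.1 k.2.2)
    exact ⟨_, schurc_zero_a σ u, schurc_zero_b σ u, hu⟩) O hOz
  obtain ⟨q, hq, y, hyO, hyR, ha, hb⟩ := ((hκ.frequently (z σ.a, z σ.b)).and_eventually h).exists
  refine ⟨y, hyO, hyR, ?_⟩
  rw [ha, hb]
  exact hq

end Vale.Agent.P002
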