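import Vale.Agent.P002.Reg

set_option linter.unusedVariables false

namespace Vale.Agent.P002

open Matrix Filter Topology

variable {r : ℕ} [NeZero r] {B : Mat r}

omit [NeZero r] in
theorem pm_pol2 {Z : Mat r} (h : ∀ D : Mat r, D.IsDiag → (Z * (D * B * D)).trace = 0) (i j : Fin r) :
    Z j i * B i j + Z i j * B j i = 0 := by
  have e : ∀ i j, (Z * (single i i 1 * B * single j j 1)).trace = Z j i * B i j := fun i j => by
    rw [single_mul_mul_single, trace_mul_single]
    simp
  have d : ∀ i : Fin r, (single i i (1 : ℂ)).IsDiag := fun i =>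
    diagonal_single i (1 : ℂ) ▸ isDiag_diagonal _
  have h1 := h _ ((d i).add (d j))
  have h2 := h _ (d i)
  have h3 := h _ (d j)
  simp only [mul_add, add_mul, trace_add, e] at h1 h2 h3
  linear_combination h1 - h2 - h3

omit [NeZero r] in
theorem pm_pol3 {Z : Mat r} (h : ∀ D : Mat r, D.IsDiag → (Z * (D * B * D * B * D)).trace = 0)
    (i j l : Fin r) :
    Z l i * B i j * B j l + Z i j * B j l * B l i + Z j l * B l i * B i j +
      (Z j i * B i l * B l j + Z l j * B j i * B i l + Z i l * B l j * B j i) = 0 := by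
  have e : ∀ i j l, (Z * (single i i 1 * B * single j j 1 * B * single l l 1)).trace =
      Z l i * B i j * B j l := fun i j l => by
    rw [single_mul_mul_single, single_mul_mul_single, trace_mul_single]
    simp [mul_assoc]
  have d : ∀ i : Fin r, (single i i (1 : ℂ)).IsDiag := fun i =>
    diagonal_single i (1 : ℂ) ▸ isDiag_diagonal _
  have h1 := h _ (((d i).add (d j)).add (d l))
  have h2 := h _ ((d i).add (d j))
  have h3 := h _ ((d i).add (d l))
  have h4 := h _ ((d j).add (d l))
  have h5 := h _ (d i)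
  have h6 := h _ (d j)
  have h7 := h _ (d l)
  simp only [mul_add, add_mul, trace_add, e] at h1 h2 h3 h4 h5 h6 h7
  linear_combination h1 - h2 - h3 - h4 + h5 + h6 + h7

/-- Let `Z = Y * B`, `Z i j = B i j * s i j`. The case `m = 1` gives `s i i = 0`, `m = 2` gives
`s i j + s j i = 0`, and the coefficient of `b 0 * b j * b l` for `m = 3` is
`(s 0 j + s j l + s l 0) * (B 0 j * B j l * B l 0 - B 0 l * B l j * B j 0)`. Extract coefficients
by evaluating at sums of `Pi.single` vectors. Take `x j = - s 0 j`. -/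
theorem pm_key (hB : B.det ≠ 0) (hg : PMgood B) (Y : Mat r)
    (h : ∀ m : ℕ, 1 ≤ m → ∀ b : Fin r → ℂ, (Y * (B * diagonal b) ^ m).trace = 0) :
    ∃ x : Fin r → ℂ, Y = diagonal x - B * diagonal x * B⁻¹ := by
  obtain ⟨s, hs⟩ : ∃ s : Fin r → Fin r → ℂ, ∀ i j, (Y * B) i j = B i j * s i j :=
    ⟨fun i j => (Y * B) i j / B i j, fun i j => (mul_div_cancel₀ _ (hg.1 i j)).symm⟩
  have h2 : ∀ i j, s j i = -s i j := fun i j => by
    have := pm_pol2 (B := B) (Z := Y * B) (fun D hD => by
      have := h 2 (by norm_num) D.diag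
      rw [hD.diagonal_diag] at this
      simpa only [pow_two, mul_assoc] using this) i j
    rw [hs, hs] at this
    refine mul_left_cancel₀ (mul_ne_zero (hg.1 i j) (hg.1 j i)) ?_
    linear_combination this
  have h1 : ∀ i, s i i = 0 := fun i => by linear_combination (1 / 2 : ℂ) * h2 i i
  have h3 : ∀ j l, s j l = s 0 l - s 0 j := fun j l => by
    by_cases hj : j = 0
    · rw [hj, h1, sub_zero]
    by_cases hl : l = 0
    · rw [hl, h1, h2, zero_sub]
    by_cases hjl : j = l
    · rw [hjl, h1, sub_self]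
    have := pm_pol3 (B := B) (Z := Y * B) (fun D hD => by
      have := h 3 (by norm_num) D.diag
      rw [hD.diagonal_diag] at this
      simpa only [pow_three, mul_assoc] using this) 0 j l
    simp only [hs] at this
    rw [h2 0 l, h2 0 j, h2 j l] at this
    refine mul_left_cancel₀ (sub_ne_zero.2 (hg.2 j l hj hl hjl)) ?_
    linear_combination this
  refine ⟨fun j => -s 0 j, ?_⟩
  have e : Y * B = diagonal (fun j => -s 0 j) * B - B * diagonal fun j => -s 0 j := by
    ext i j
    rw [hs, Matrix.sub_apply, diagonal_mul, mul_diagonal, h3]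
    ring
  rw [← mul_one Y, ← mul_inv'' hB, ← mul_assoc, e, sub_mul, mul_assoc, mul_inv'' hB, mul_one]

/-- Multiply by `B`: `u i * w j = (x i - x j) * B i j` with `w = v ᵥ* B`. So `u i * w i = 0`, and
`u i * w j ≠ 0` gives `u j * w i ≠ 0`, contradicting `u j * w j = 0`. -/
theorem pm_rank_one (hB : B.det ≠ 0) (hg : ∀ i j, B i j ≠ 0) (u v x : Fin r → ℂ)
    (h : vecMulVec u v = diagonal x - B * diagonal x * B⁻¹) : vecMulVec u v = 0 := by
  have h1 : vecMulVec u (v ᵥ* B) = diagonal x * B - B * diagonal x := by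
    rw [← vecMulVec_mul, h, sub_mul, mul_assoc _ B⁻¹, inv_mul' hB, mul_one]
  have h2 : ∀ i j, u i * (v ᵥ* B) j = (x i - x j) * B i j := fun i j => by
    have := congrFun (congrFun h1 i) j
    rw [vecMulVec_apply, Matrix.sub_apply, diagonal_mul, mul_diagonal] at this
    linear_combination this
  have h3 : vecMulVec u (v ᵥ* B) = 0 := by
    ext i j
    rw [vecMulVec_apply, Matrix.zero_apply]
    have h4 : (x i - x j) ^ 2 * (B i j * B j i) = 0 := by
      linear_combination (x i - x j) * B i j * h2 j i + u j * (v ᵥ* B) i * h2 i j -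
        u j * (v ᵥ* B) j * h2 i i
    rw [h2, (pow_eq_zero_iff two_ne_zero).1
      ((mul_eq_zero.1 h4).resolve_right (mul_ne_zero (hg i j) (hg j i))), zero_mul]
  rw [← mul_one (vecMulVec u v), ← mul_inv'' hB, ← mul_assoc, vecMulVec_mul, h3, zero_mul]

/-- take `a = Pi.single i 1` -/
theorem pm_two (hB : B.det ≠ 0) (hg : PMgood B) (G₁ : Mat r) {P G₂ : Mat r} (hP : P.det ≠ 0)
    (hG : G₂.det ≠ 0)
    (h : ∀ m : ℕ, 1 ≤ m → ∀ a b : Fin r → ℂ,
      (G₁ * (P * diagonal a * P⁻¹) * G₂ * (B * diagonal b) ^ m).trace = 0) : G₁ = 0 := by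
  have h1 : ∀ i, G₁ * (P * single i i 1 * P⁻¹) * G₂ = 0 := fun i => by
    obtain ⟨x, hx⟩ := pm_key hB hg _ fun m hm b => h m hm (Pi.single i 1) b
    rw [diagonal_single] at hx
    rw [single_eq_single_vecMulVec_single, mul_vecMulVec, vecMulVec_mul, mul_vecMulVec,
      vecMulVec_mul] at hx ⊢
    exact pm_rank_one hB hg.1 _ _ x hx
  have h2 : G₁ * G₂ = 0 := by
    have := Finset.sum_eq_zero (s := Finset.univ) fun i _ => h1 i
    rwa [← Finset.sum_mul, ← Finset.mul_sum, ← Finset.sum_mul, ← Finset.mul_sum, sum_single_one,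
      mul_one, mul_inv'' hP, mul_one] at this
  rw [← mul_one G₁, ← mul_inv'' hG, ← mul_assoc, h2, zero_mul]

/-- example: `B i j = if i < j then 2 else 1` -/
theorem gen_pm : Gen fun B : Mat r => PMgood B := by
  have p : ∀ i j : Fin r, IsPoly fun B : Mat r => B i j := fun i j =>
    IsPoly.lin (Matrix.entryLinearMap ℂ ℂ i j)
  refine Gen.and (Gen.all fun i => Gen.all fun j =>
    ⟨_, p i j, ⟨of fun _ _ => 1, one_ne_zero⟩, fun _ h => h⟩)
    (Gen.all fun j => Gen.all fun l => ?_)
  by_cases h : j ≠ 0 ∧ l ≠ 0 ∧ j ≠ l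
  · refine ⟨_, (((p 0 j).mul (p j l)).mul (p l 0)).sub (((p 0 l).mul (p l j)).mul (p j 0)),
      ⟨of fun a b => if a = j ∧ b = l then 2 else 1, ?_⟩, fun _ h _ _ _ => sub_ne_zero.1 h⟩
    simp only [of_apply, h.1.symm, h.2.1.symm, h.2.2.symm, false_and, and_false, if_false,
      and_self, if_true]
    norm_num
  · exact Gen.of_forall fun _ h1 h2 h3 => absurd ⟨h1, h2, h3⟩ h

end Vale.Agent.P002
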