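import Vale.Agent.P002.Flows
import Vale.Agent.P002.PM
import Vale.Agent.P002.LinA

set_option linter.unusedVariables false

namespace Vale.Agent.P002

open Matrix Filter Topology

open scoped Matrix.Norms.Operator

variable {r : ℕ} [NeZero r] {J : Type} [Fintype J] [DecidableEq J] {σ : Sys r J}
  {Z : Set (J → Mat r)} {x : J → Mat r}

/-- Three preliminary moves and one twist. With `s = 1 + τ • (x b * diagonal c) ^ m` let
`x₁ = update x b (x b * diagonal c)`, `x₂ = update x₁ a (x a * s)`, `x₃ = update x₂ α (x α * q⁻¹)`.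
`σ.W x₃ = σ.W x` (`W_mβ`, `Wordy.indep`), `Dk`, `S` do not change, so `Ck k x₃` is the matrix in
`hC`. Apply `flow_d` at `x₃` and `SM.conj` three times. -/
theorem flow_moved (hZ : MoveInv σ Z) (hx : x ∈ UU r J) {d : Fin r → ℂ}
    (hxa : x σ.a = diagonal d) (hd : Function.Injective d) (hβ : RS (x σ.β)) {k : Option J}
    (hk : ∀ j, k = some j → σ.Rest j) {c : Fin r → ℂ} (hc : (diagonal c).det ≠ 0)
    (hRS : RS (x σ.b * diagonal c)) {s : Mat r} (hs : InA (x σ.b * diagonal c) s)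
    (hsd : s.det ≠ 0) {q : Mat r} (hq : InA (x σ.β) q) (hqd : q.det ≠ 0)
    (hC : RS ((σ.Dk k x)⁻¹ * (q * (x σ.α)⁻¹) * σ.W x * (x σ.a * s))) :
    ∃ v, Flow Z x v ∧
      v σ.β = q * (x σ.α)⁻¹ * σ.W x * (x σ.a * s) * (σ.Dk k x)⁻¹ * x σ.β ∧
      ∀ j, σ.Rest j → v j = if k = some j then
        σ.S j x * ((σ.Dk k x)⁻¹ * (q * (x σ.α)⁻¹) * σ.W x * (x σ.a * s)) * (σ.S j x)⁻¹ * x j
        else 0 := by
  have h1 := update_UU hx σ.b hc
  obtain ⟨x₁, e1⟩ : ∃ x₁, x₁ = Function.update x σ.b (x σ.b * diagonal c) := ⟨_, rfl⟩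
  have a1 : ∀ j, j ≠ σ.b → x₁ j = x j := fun j hj => by rw [e1, Function.update_of_ne hj]
  have b1 : x₁ σ.b = x σ.b * diagonal c := by rw [e1, Function.update_self]
  rw [← e1] at h1
  have h2 := update_UU h1 σ.a hsd
  obtain ⟨x₂, e2⟩ : ∃ x₂, x₂ = Function.update x₁ σ.a (x₁ σ.a * s) := ⟨_, rfl⟩
  have a2 : ∀ j, j ≠ σ.a → j ≠ σ.b → x₂ j = x j := fun j hj hj' => by
    rw [e2, Function.update_of_ne hj, a1 j hj']
  have b2 : x₂ σ.a = x σ.a * s := by rw [e2, Function.update_self, a1 _ σ.ab]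
  rw [← e2] at h2
  have hq' := det_inv_ne hqd
  have h3 := update_UU h2 σ.α hq'
  have c2 : x₂ σ.β = x σ.β := a2 _ σ.aβ.symm σ.bβ.symm
  have hW : σ.W (Function.update x₂ σ.α (x₂ σ.α * q⁻¹)) = σ.W x := by
    rw [σ.W_mβ h2 (by rw [c2]; exact hq.inv.commute) hq']
    exact σ.W_word.indep fun j hj => a2 j hj.1 hj.2
  obtain ⟨x₃, e3⟩ : ∃ x₃, x₃ = Function.update x₂ σ.α (x₂ σ.α * q⁻¹) := ⟨_, rfl⟩
  have a3 : ∀ j, j ≠ σ.a → j ≠ σ.b → j ≠ σ.α → x₃ j = x j := fun j hj hj' hj'' => by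
    rw [e3, Function.update_of_ne hj'', a2 j hj hj']
  have b3 : x₃ σ.α = x σ.α * q⁻¹ := by rw [e3, Function.update_self, a2 _ σ.aα.symm σ.bα.symm]
  have c3 : x₃ σ.a = x σ.a * s := by rw [e3, Function.update_of_ne σ.aα, b2]
  rw [← e3] at h3 hW
  have hD : σ.Dk k x₃ = σ.Dk k x := (σ.Dk_word k).indep fun j hj => a3 j hj.1 hj.2.1 hj.2.2.1
  have hS : ∀ j, σ.S j x₃ = σ.S j x := fun j =>
    (σ.S_word j).indep fun i hi => a3 i hi.1.1 hi.1.2.1 hi.1.2.2.1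
  have hCk : σ.Ck k x₃ = (σ.Dk k x)⁻¹ * (q * (x σ.α)⁻¹) * σ.W x * (x σ.a * s) := by
    rw [Sys.Ck, hD, hW, b3, c3, Matrix.mul_inv_rev, inv_inv' hqd]
  have hDd : (σ.Dk k x).det ≠ 0 := (σ.Dk_word k).det_ne σ.cs_det fun j _ => hx j
  obtain ⟨v₃, f3, g3, k3⟩ := hZ.flow_d hk h3 (by rw [hCk]; exact hC)
  rw [e3] at f3
  obtain ⟨v₂, f2, g2⟩ := hZ.mβ.conj σ.αβ h2 (by rw [c2]; exact hβ) (by rw [c2]; exact hq.inv) hq' f3
  rw [e2] at f2
  obtain ⟨v₁, f1, g1⟩ := hZ.mb.conj σ.ab h1 (by rw [b1]; exact hRS) (by rw [b1]; exact hs) hsd f2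
  rw [e1] at f1
  obtain ⟨v, f0, g0⟩ := hZ.ma.conj σ.ab.symm hx (by rw [hxa]; exact rs_diagonal hd)
    (by rw [hxa]; exact inA_diagonal hd c) hc f1
  refine ⟨v, f0, ?_, fun j hj => ?_⟩
  · rw [g0 _ σ.bβ.symm, g1 _ σ.aβ.symm, g2 _ σ.αβ.symm, g3, hCk, hD,
      a3 _ σ.aβ.symm σ.bβ.symm σ.αβ.symm]
    simp only [mul_assoc, mic hDd]
  · rw [g0 _ hj.2.1, g1 _ hj.1, g2 _ hj.2.2.1, k3 j hj, hCk, hS, a3 _ hj.1 hj.2.1 hj.2.2.1]

theorem spanb_key {B C A D G₂ W : Mat r} (G₁ : Mat r) (hB : B.det ≠ 0) (hRS : RS B)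
    (hpm : PMgood B) (hC : RS C) (hA : A.det ≠ 0) (hW : W.det ≠ 0) (hG : G₂.det ≠ 0)
    (h0 : RS (D * A * W * G₂))
    (h : ∀ (c : Fin r → ℂ) (s q : Mat r), (diagonal c).det ≠ 0 → RS (B * diagonal c) →
      InA (B * diagonal c) s → s.det ≠ 0 → InA C q → q.det ≠ 0 →
      RS (D * (q * A) * W * (G₂ * s)) → (G₁ * q * (A * W * G₂) * s).trace = 0) : G₁ = 0 := by
  obtain ⟨P, e, hP, he, rfl⟩ := hC
  refine pm_two hB hpm G₁ hP (det_mul_ne (det_mul_ne hA hW) hG) fun m hm a b => ?_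
  have ra : RegF (Set.univ : Set ((Fin r → ℂ) × (Fin r → ℂ) × ℂ))
      fun y => P * diagonal y.1 * P⁻¹ :=
    ((RegF.const P).mul RegF.id.fst.diagonal).mul (RegF.const _)
  have rc : RegF (Set.univ : Set ((Fin r → ℂ) × (Fin r → ℂ) × ℂ)) fun y => diagonal y.2.1 :=
    RegF.id.snd.fst.diagonal
  have rb := (RegF.const B).mul rc
  have rs : RegF (Set.univ : Set ((Fin r → ℂ) × (Fin r → ℂ) × ℂ))
      fun y => 1 + y.2.2 • (B * diagonal y.2.1) ^ m :=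
    (RegF.const 1).add (RegF.smul RegF.id.snd.snd.reg (rb.pow m))
  have rC := (((RegF.const D).mul (ra.mul (RegF.const A))).mul (RegF.const W)).mul
    ((RegF.const G₂).mul rs)
  have rφ := ((((RegF.const G₁).mul ra).mul (RegF.const (A * W * G₂))).mul rs).trace
  have key := fun y => rφ.eq_zero_of_eventually (x := (fun _ => 1, fun _ => 1, 0)) (y := y)
    Filter.univ_mem (by
      filter_upwards [(Bas.univ.of_reg rc.det).mem_nhds ⟨Set.mem_univ _, by simp⟩,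
        (bas_rs Bas.univ rb).mem_nhds ⟨Set.mem_univ _, by simpa using hRS⟩,
        (Bas.univ.of_reg rs.det).mem_nhds ⟨Set.mem_univ _, by simp⟩,
        (Bas.univ.of_reg ra.det).mem_nhds ⟨Set.mem_univ _, by simp [mul_inv'' hP]⟩,
        (bas_rs Bas.univ rC).mem_nhds ⟨Set.mem_univ _, by simpa [mul_inv'' hP] using h0⟩]
        with y h1 h2 h3 h4 h5
      exact h y.2.1 _ _ h1.2 h2.2 (InA.one.add ((InA.self.pow m).smul _)) h3.2
        (inA_diag hP he _) h4.2 h5.2) (Set.mem_univ _)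
  have h1 := key (a, b, 1)
  have h2 := key (a, b, 0)
  simp only [one_smul, zero_smul, add_zero, mul_add, Matrix.trace_add] at h1 h2
  rw [h2, zero_add] at h1
  exact h1

omit [NeZero r] in
theorem spanb_sum (l : (J → Mat r) →ₗ[ℂ] ℂ) (v : J → Mat r) (j₀ : J)
    (h : ∀ j, j ≠ j₀ → l (Pi.single j (v j)) = 0) : l v = l (Pi.single j₀ (v j₀)) := by
  conv_lhs => rw [← Finset.univ_sum_single v, map_sum]
  exact Finset.sum_eq_single j₀ (fun j _ hj => h j hj) fun h => absurd (Finset.mem_univ _) h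

omit [NeZero r] in
theorem spanb_cancel {L n R : Mat r} (hL : L.det ≠ 0) (hR : R.det ≠ 0) (h : L * n * R = 0) :
    n = 0 := by
  have h1 : n = L⁻¹ * (L * n * R) * R⁻¹ := by
    simp only [mul_assoc, imc hL, mul_inv'' hR, mul_one]
  rw [h1, h, mul_zero, zero_mul]

/-- Write `x β = P * diagonal e * P⁻¹`, `q = P * diagonal a' * P⁻¹`, `s = 1 + τ • (B * diagonal c) ^ m`.
The hypotheses of `flow_moved` hold for `(a', c, τ)` near `(1, 1, 0)` (`bas_rs`, `Bas.of_reg`).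
`l v = ∑ k, l (single k (v k))`; with `l (single β μ) = trace (n * μ)` and `k = none` one gets
`trace (G₁ * q * G₂ * s) = 0` near `(1, 1, 0)`, hence for all `(a', c, τ)`
(`Reg.eq_zero_of_eventually`), with `G₂ = (x α)⁻¹ * W x * x a`, `G₁ = (Dk none x)⁻¹ * x β * n`.
Subtract the values at `τ = 1` and `τ = 0` and use `pm_two`: `n = 0`. The same with `k = some j`
and `G₁ = (S j x)⁻¹ * x j * n_j * S j x * (Dk k x)⁻¹`. -/
theorem span_b (hZ : MoveInv σ Z) (hx : x ∈ UU r J) {d : Fin r → ℂ} (hxa : x σ.a = diagonal d)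
    (hd : Function.Injective d) (hRS : RS (x σ.b)) (hpm : PMgood (x σ.b)) (hβ : RS (x σ.β))
    (hC : ∀ k : Option J, (∀ j, k = some j → σ.Rest j) → RS (σ.Ck k x))
    (l : (J → Mat r) →ₗ[ℂ] ℂ) (ha : ∀ μ, l (Pi.single σ.a μ) = 0)
    (hb : ∀ μ, l (Pi.single σ.b μ) = 0) (hα : ∀ μ, l (Pi.single σ.α μ) = 0)
    (hfl : ∀ v, Flow Z x v → l v = 0) : l = 0 := by
  choose n hn using fun j : J =>
    exists_trace_rep (l ∘ₗ LinearMap.single ℂ (fun _ : J => Mat r) j)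
  have hn' : ∀ j μ, l (Pi.single j μ) = (n j * μ).trace := hn
  have hD : ∀ k, ((σ.Dk k x)⁻¹).det ≠ 0 := fun k =>
    det_inv_ne ((σ.Dk_word k).det_ne σ.cs_det fun j _ => hx j)
  have hW : (σ.W x).det ≠ 0 := by rw [σ.det_W hx]; exact one_ne_zero
  have hcase : ∀ j, j = σ.a ∨ j = σ.b ∨ j = σ.α ∨ j = σ.β ∨ σ.Rest j := fun j => by
    unfold Sys.Rest
    tauto
  have h1 : n σ.β = 0 := by
    have hk : ∀ j, (none : Option J) = some j → σ.Rest j := fun j h => absurd h (by simp)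
    refine spanb_cancel (det_mul_ne (hD none) (hx σ.β)) (R := 1) (by simp) ?_
    refine spanb_key _ (hx σ.b) hRS hpm hβ (det_inv_ne (hx σ.α)) hW (hx σ.a) (hC none hk)
      fun c s q h1 h2 h3 h4 h5 h6 h7 => ?_
    obtain ⟨v, hv, e1, e2⟩ := flow_moved hZ hx hxa hd hβ hk h1 h2 h3 h4 h5 h6 h7
    have h8 := hfl v hv
    rw [spanb_sum l v σ.β fun j hj => by
      rcases hcase j with rfl | rfl | rfl | rfl | h
      exacts [ha _, hb _, hα _, absurd rfl hj, by rw [e2 j h]; simp], hn', e1,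
      show n σ.β * (q * (x σ.α)⁻¹ * σ.W x * (x σ.a * s) * (σ.Dk none x)⁻¹ * x σ.β) =
        (n σ.β * q * ((x σ.α)⁻¹ * σ.W x * x σ.a) * s) * ((σ.Dk none x)⁻¹ * x σ.β) by
          simp only [mul_assoc], Matrix.trace_mul_comm] at h8
    simpa only [mul_assoc, mul_one] using h8
  have hβ' : ∀ μ, l (Pi.single σ.β μ) = 0 := fun μ => by rw [hn', h1, zero_mul, Matrix.trace_zero]
  have h2 : ∀ j, σ.Rest j → n j = 0 := by
    intro j₀ hj₀
    have hk : ∀ j, some j₀ = some j → σ.Rest j := fun j h => Option.some.inj h ▸ hj₀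
    have hS : (σ.S j₀ x).det ≠ 0 := (σ.S_word j₀).det_ne σ.cs_det fun j _ => hx j
    refine spanb_cancel (det_mul_ne (det_inv_ne hS) (hx j₀)) (det_mul_ne hS (hD (some j₀))) ?_
    refine spanb_key _ (hx σ.b) hRS hpm hβ (det_inv_ne (hx σ.α)) hW (hx σ.a) (hC (some j₀) hk)
      fun c s q h1 h2 h3 h4 h5 h6 h7 => ?_
    obtain ⟨v, hv, e1, e2⟩ := flow_moved hZ hx hxa hd hβ hk h1 h2 h3 h4 h5 h6 h7
    have h8 := hfl v hv
    rw [spanb_sum l v j₀ fun j hj => by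
      rcases hcase j with rfl | rfl | rfl | rfl | h
      exacts [ha _, hb _, hα _, hβ' _, by
        rw [e2 j h, if_neg fun h' => hj (Option.some.inj h').symm]; simp], hn', e2 j₀ hj₀,
      if_pos rfl,
      show n j₀ * (σ.S j₀ x * ((σ.Dk (some j₀) x)⁻¹ * (q * (x σ.α)⁻¹) * σ.W x * (x σ.a * s)) *
          (σ.S j₀ x)⁻¹ * x j₀) =
        (n j₀ * (σ.S j₀ x * (σ.Dk (some j₀) x)⁻¹) * q * ((x σ.α)⁻¹ * σ.W x * x σ.a) * s) *
          ((σ.S j₀ x)⁻¹ * x j₀) by simp only [mul_assoc], Matrix.trace_mul_comm] at h8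
    simpa only [mul_assoc] using h8
  refine LinearMap.ext fun v => ?_
  rw [spanb_sum l v σ.a fun j _ => by
    rcases hcase j with rfl | rfl | rfl | rfl | h
    exacts [ha _, hb _, hα _, hβ' _, by rw [hn', h2 j h, zero_mul, Matrix.trace_zero]], ha,
    LinearMap.zero_apply]

end Vale.Agent.P002
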