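import Vale.Agent.P002.SpanA
import Vale.Agent.P002.SpanB

set_option linter.unusedVariables false

namespace Vale.Agent.P002

open Matrix Filter Topology

open scoped Matrix.Norms.Operator

variable {r : ℕ} [NeZero r] {J : Type} [Fintype J] [DecidableEq J] {σ : Sys r J}
  {Z : Set (J → Mat r)}

/-- the directions that are not controlled -/
def span_W (σ : Sys r J) : Submodule ℂ (J → Mat r) where
  carrier := {v | (∃ w : Fin r → ℂ, w 0 = 0 ∧ v σ.a = vecMulVec (fun _ => 1) w) ∧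
    ∀ k, k ≠ σ.a → k ≠ σ.b → v k = 0}
  add_mem' := by
    rintro u v ⟨⟨w, h1, h2⟩, h3⟩ ⟨⟨w', h1', h2'⟩, h3'⟩
    refine ⟨⟨w + w', by simp [h1, h1'], ?_⟩, fun k ha hb => by simp [h3 k ha hb, h3' k ha hb]⟩
    ext i j
    simp [h2, h2', vecMulVec_apply]
  zero_mem' := ⟨⟨0, rfl, by simp⟩, fun _ _ _ => rfl⟩
  smul_mem' := by
    rintro c v ⟨⟨w, h1, h2⟩, h3⟩
    refine ⟨⟨c • w, by simp [h1], ?_⟩, fun k ha hb => by simp [h3 k ha hb]⟩
    ext i j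
    simp [h2, vecMulVec_apply]

/-- Generic conditions on `B`: `gen_rs`, `gen_pm`, `gen_mm`, and `gen_rs_mul_inv` for the matrices
`(σ.Dk k y₁)⁻¹ * γ * diagonal d`, `k : Option J` (`Gen.all`); at `x = fam ..` one has
`Ck k x = (Dk k y₁)⁻¹ * γ * diagonal d * B⁻¹` by `W_mul_a`. Apply `reach_local` with
`l₀ p = single b p + single α (p * γ⁻¹)` (so `x + l₀ p = fam .. (B + p)`), `W` the space of `v`
with `v a = vecMulVec 1 w`, `w 0 = 0`, and `v k = 0` for `k ≠ a, b`, and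
`O = {z ∈ UU | RS (z a)}`; `span_a`, `span_b`. -/
theorem span_gen (hZ : MoveInv σ Z) {d : Fin r → ℂ} {γ : Mat r} {y₁ : J → Mat r}
    (hd : Function.Injective d) (hd0 : ∀ i, d i ≠ 0) (hγ : γ.det ≠ 0) (hy : y₁ ∈ UU r J)
    (hfam : ∀ B : Mat r, B.det ≠ 0 → σ.fam y₁ (diagonal d) γ B ∈ Z) :
    Gen fun B : Mat r => B.det ≠ 0 ∧
      (Mm d (diagonal d) (B * diagonal d * B⁻¹ * (diagonal d)⁻¹)).det ≠ 0 ∧
      Loc σ Z (σ.fam y₁ (diagonal d) γ B) := by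
  have hD : (diagonal d).det ≠ 0 := by
    rw [det_diagonal]
    exact Finset.prod_ne_zero_iff.2 fun i _ => hd0 i
  have hDk : ∀ k, (σ.Dk k y₁).det ≠ 0 := fun k =>
    (σ.Dk_word k).det_ne σ.cs_det fun j _ => hy j
  have hG := Gen.all fun k : Option J =>
    gen_rs_mul_inv (det_mul_ne (det_mul_ne (det_inv_ne (hDk k)) hγ) hD)
  refine (((gen_rs.and gen_pm).and (gen_mm hd hd0)).and hG).mono ?_
  rintro B ⟨⟨⟨⟨hB, hRS⟩, hpm⟩, -, hM⟩, hC⟩
  refine ⟨hB, hM, ?_⟩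
  have hxa := σ.fam_a y₁ (diagonal d) γ B
  have hxb := σ.fam_b y₁ (diagonal d) γ B
  have hxα := σ.fam_α y₁ (diagonal d) γ B
  have hxβ := σ.fam_β y₁ (diagonal d) γ B
  have hxU := σ.fam_UU hy hD hγ hB
  have hxR : σ.fam y₁ (diagonal d) γ B ∈ σ.R := ⟨hxU, hZ.rel _ (hfam B hB) hxU⟩
  have hCk : ∀ k, σ.Ck k (σ.fam y₁ (diagonal d) γ B) =
      (σ.Dk k y₁)⁻¹ * γ * diagonal d * B⁻¹ := by
    intro k
    rw [Sys.Ck, mul_assoc, σ.W_mul_a hxR, hxa, hxb, hxα,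
      (σ.Dk_word k).indep (y' := y₁) fun j hj => σ.fam_rest _ _ _ _ hj]
    simp only [Matrix.mul_inv_rev, inv_inv' hγ, mul_assoc, imc hB]
  let l₀ : Mat r →ₗ[ℂ] (J → Mat r) := LinearMap.single ℂ (fun _ : J => Mat r) σ.b +
    (LinearMap.single ℂ (fun _ : J => Mat r) σ.α).comp (LinearMap.mulRight ℂ γ⁻¹)
  have hl₀ : ∀ p, l₀ p = Pi.single σ.b p + Pi.single σ.α (p * γ⁻¹) := fun p => rfl
  have hadd : ∀ p, σ.fam y₁ (diagonal d) γ B + l₀ p = σ.fam y₁ (diagonal d) γ (B + p) := by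
    intro p
    funext k
    rw [hl₀]
    by_cases h1 : k = σ.a
    · subst h1
      simp [σ.fam_a, σ.ab, σ.aα]
    by_cases h2 : k = σ.b
    · subst h2
      simp [σ.fam_b, σ.bα]
    by_cases h3 : k = σ.α
    · subst h3
      simp [σ.fam_α, σ.bα.symm, add_mul]
    simp [Sys.fam, h1, h2, h3]
  have h₀ : ∀ᶠ p in 𝓝 (0 : Mat r), σ.fam y₁ (diagonal d) γ B + l₀ p ∈ Z := by
    have h1 := (Bas.univ.of_reg ((RegF.const B).add RegF.id).det).mem_nhds (x := (0 : Mat r))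
      ⟨trivial, by simpa using hB⟩
    refine Filter.mem_of_superset h1 fun p hp => ?_
    rw [Set.mem_ofPred_eq, hadd]
    exact hfam _ hp.2
  have hO := (bas_rs bas_UU (RegF.proj (F := Mat r) σ.a)).mem_nhds
    (x := σ.fam y₁ (diagonal d) γ B) ⟨hxU, by rw [hxa]; exact rs_diagonal hd⟩
  have key := reach_local Z (σ.fam y₁ (diagonal d) γ B) l₀ h₀ (span_W σ) (fun l hW hl hfl => by
    have hb : ∀ μ, l (Pi.single σ.b μ) = 0 := fun μ =>
      hW _ ⟨⟨0, rfl, by simp [σ.ab]⟩, fun k _ h => by simp [h]⟩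
    have hα : ∀ μ, l (Pi.single σ.α μ) = 0 := fun μ => by
      have h1 := hl (μ * γ)
      rwa [hl₀, map_add, hb, zero_add, mul_assoc, mul_inv'' hγ, mul_one] at h1
    have ha := span_a hZ hxU hxa hd hd0 (by rw [hxb]; exact hRS) (by rw [hxb]; exact hpm)
      (by rw [hxb]; exact hM) l hb
      (fun w hw => hW _ ⟨⟨w, hw, by simp⟩, fun k h _ => by simp [h]⟩) hfl
    exact span_b hZ hxU hxa hd (by rw [hxb]; exact hRS) (by rw [hxb]; exact hpm)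
      (by rw [hxβ]; exact (rs_diagonal hd).conj hγ) (fun k _ => by rw [hCk]; exact (hC k).2)
      l ha hb hα hfl) _ hO
  refine key.mono ?_
  rintro x ⟨z, hz, hzO, ⟨w, hw, h1⟩, h2⟩
  refine ⟨z, hz, hzO.1, hzO.2, ⟨w, hw, ?_⟩, fun k ha hb => sub_eq_zero.1 (h2 k ha hb)⟩
  rw [← h1, Pi.sub_apply, add_sub_cancel]

end Vale.Agent.P002
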