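import Vale.Agent.P002.Gp

set_option linter.unusedVariables false

namespace Vale.Agent.P002

open Matrix Filter Topology

variable {r : ℕ} {J : Type}

theorem det_cm {A B : Mat r} (hA : A.det ≠ 0) (hB : B.det ≠ 0) : (cm A B).det = 1 := by
  unfold cm
  simp only [det_mul, Matrix.det_nonsing_inv, Ring.inverse_eq_inv']
  field_simp

theorem regF_cm {E : Type} [AddCommGroup E] [Module ℂ E] {U : Set E} {A B : E → Mat r}
    (hA : RegF U A) (hB : RegF U B) (hA0 : ∀ x ∈ U, (A x).det ≠ 0)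
    (hB0 : ∀ x ∈ U, (B x).det ≠ 0) : RegF U fun x => cm (A x) (B x) := by
  exact ((hA.mul hB).mul (hA.inv hA0)).mul (hB.inv hB0)

theorem commute_inv {Y A : Mat r} (h : Commute Y A) : Commute Y A⁻¹ := by
  by_cases hA : A.det = 0
  · rw [Matrix.nonsing_inv_apply_not_isUnit _ (by simp [hA])]
    exact Commute.zero_right _
  · have e : Y * A⁻¹ = A⁻¹ * (A * Y) * A⁻¹ := by rw [imc hA]
    rw [Commute, SemiconjBy, e, ← h.eq]
    simp only [mul_assoc, mul_inv'' hA, mul_one]

namespace Wordy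

variable {cs : Set (Mat r)} {T : Set J} {f : (J → Mat r) → Mat r}

theorem mono (h : Wordy cs T f) {cs' : Set (Mat r)} {T' : Set J} (h1 : cs ⊆ cs') (h2 : T ⊆ T') :
    Wordy cs' T' f := by
  induction h with
  | one => exact one
  | const c hc => exact const c (h1 hc)
  | var k hk => exact var k (h2 hk)
  | mul _ _ i1 i2 => exact i1.mul i2
  | inv _ i1 => exact i1.inv

theorem det_ne (h : Wordy cs T f) (hc : ∀ c ∈ cs, c.det ≠ 0) {y : J → Mat r}
    (hy : ∀ k ∈ T, (y k).det ≠ 0) : (f y).det ≠ 0 := by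
  induction h with
  | one => simp
  | const c hc' => exact hc c hc'
  | var k hk => exact hy k hk
  | mul _ _ i1 i2 => exact det_mul_ne i1 i2
  | inv _ i1 => exact det_inv_ne i1

theorem regF (h : Wordy cs T f) (hc : ∀ c ∈ cs, c.det ≠ 0) : RegF (UU r J) f := by
  induction h with
  | one => exact RegF.const _
  | const c hc' => exact RegF.const _
  | var k hk => exact RegF.proj k
  | mul _ _ i1 i2 => exact i1.mul i2
  | inv h1 i1 => exact i1.inv fun y hy => h1.det_ne hc fun k _ => hy k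

theorem gp (h : Wordy cs T f) {L : IntermediateField ℚ ℂ} (hc : ∀ c ∈ cs, Gp L c)
    {y : J → Mat r} (hy : ∀ k ∈ T, Gp L (y k)) : Gp L (f y) := by
  induction h with
  | one => exact Gp.one
  | const c hc' => exact hc c hc'
  | var k hk => exact hy k hk
  | mul _ _ i1 i2 => exact i1.mul i2
  | inv _ i1 => exact i1.inv

theorem indep (h : Wordy cs T f) {y y' : J → Mat r} (hy : ∀ k ∈ T, y k = y' k) : f y = f y' := by
  induction h with
  | one => rfl
  | const c hc' => rfl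
  | var k hk => exact hy k hk
  | mul _ _ i1 i2 => beta_reduce; rw [i1, i2]
  | inv _ i1 => beta_reduce; rw [i1]

theorem conj (h : Wordy ∅ T f) {g : Mat r} (hg : g.det ≠ 0) (y : J → Mat r) :
    f (fun k => g * y k * g⁻¹) = g * f y * g⁻¹ := by
  induction h with
  | one => simp [mul_inv'' hg]
  | const c hc' => exact absurd hc' (Set.notMem_empty _)
  | var k hk => rfl
  | mul _ _ i1 i2 =>
    beta_reduce
    rw [i1, i2]
    simp only [mul_assoc, imc hg]
  | inv _ i1 =>
    beta_reduce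
    rw [i1]
    simp only [Matrix.mul_inv_rev, inv_inv' hg, mul_assoc]

theorem commute (h : Wordy ∅ T f) {Y : Mat r} {y : J → Mat r} (hy : ∀ k ∈ T, Commute Y (y k)) :
    Commute Y (f y) := by
  induction h with
  | one => exact Commute.one_right _
  | const c hc' => exact absurd hc' (Set.notMem_empty _)
  | var k hk => exact hy k hk
  | mul _ _ i1 i2 => exact i1.mul_right i2
  | inv _ i1 => exact commute_inv i1

theorem cm {g : (J → Mat r) → Mat r} (h : Wordy cs T f) (h' : Wordy cs T g) :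
    Wordy cs T fun y => cm (f y) (g y) := ((h.mul h').mul h.inv).mul h'.inv

theorem vals [DecidableEq J] (h : Wordy ∅ T f) (H : Finset J) (cc : J → Mat r) :
    Wordy (Set.range cc) T fun y => f (vals H cc y) := by
  induction h with
  | one => exact one
  | const c hc' => exact absurd hc' (Set.notMem_empty _)
  | var k hk =>
    by_cases hH : k ∈ H
    · simp only [P002.vals, if_pos hH]
      exact ((var k hk).mul (const _ (Set.mem_range_self k))).mul (var k hk).inv
    · simp only [P002.vals, if_neg hH]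
      exact var k hk
  | mul _ _ i1 i2 => exact i1.mul i2
  | inv _ i1 => exact i1.inv

end Wordy

namespace Sys

variable [DecidableEq J] (σ : Sys r J)

theorem val_of_not_mem {k : J} (hk : k ∉ σ.H) (y : J → Mat r) : σ.val y k = y k := if_neg hk

theorem val_of_mem {k : J} (hk : k ∈ σ.H) (y : J → Mat r) :
    σ.val y k = y k * σ.cc k * (y k)⁻¹ := if_pos hk

theorem val_a (y : J → Mat r) : σ.val y σ.a = y σ.a := σ.val_of_not_mem σ.aH y

theorem val_b (y : J → Mat r) : σ.val y σ.b = y σ.b := σ.val_of_not_mem σ.bH y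

theorem val_α (y : J → Mat r) : σ.val y σ.α = y σ.α := σ.val_of_not_mem σ.αH y

theorem val_β (y : J → Mat r) : σ.val y σ.β = y σ.β := σ.val_of_not_mem σ.βH y

theorem val_congr {y y' : J → Mat r} {k : J} (h : y k = y' k) : σ.val y k = σ.val y' k := by
  unfold val vals
  rw [h]

theorem cs_det : ∀ c ∈ Set.range σ.cc, c.det ≠ 0 := by
  rintro _ ⟨k, rfl⟩
  exact σ.cc_det k

theorem val_word (k : J) : Wordy (Set.range σ.cc) {k} fun y => σ.val y k := by
  exact (Wordy.var (cs := ∅) (T := {k}) k rfl).vals σ.H σ.cc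

theorem W'_word : Wordy (Set.range σ.cc) {j | σ.Rest j} σ.W' := σ.w_word.vals σ.H σ.cc

theorem W_word : Wordy (Set.range σ.cc) {j | j ≠ σ.a ∧ j ≠ σ.b} σ.W := by
  exact ((Wordy.var σ.α (by exact ⟨σ.aα.symm, σ.bα.symm⟩)).cm
    (Wordy.var σ.β (by exact ⟨σ.aβ.symm, σ.bβ.symm⟩))).mul
    (σ.W'_word.mono le_rfl fun j hj => ⟨hj.1, hj.2.1⟩)

theorem rel_word : Wordy (Set.range σ.cc) Set.univ σ.rel := by
  exact ((Wordy.var σ.a (Set.mem_univ _)).cm (Wordy.var σ.b (Set.mem_univ _))).mul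
    (σ.W_word.mono le_rfl (Set.subset_univ _))

theorem Dk_word (k : Option J) : Wordy (Set.range σ.cc) {j | σ.Rest j} (σ.Dk k) := by
  rcases k with _ | k
  · exact σ.W'_word
  · exact ((σ.P_word k).mul (σ.S_word k)).mono le_rfl fun j hj => hj.1

theorem Ck_word (k : Option J) : Wordy (Set.range σ.cc) Set.univ (σ.Ck k) := by
  exact (((((σ.Dk_word k).mono le_rfl (Set.subset_univ _)).inv).mul
    (Wordy.var σ.α (Set.mem_univ _)).inv).mul (σ.W_word.mono le_rfl (Set.subset_univ _))).mul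
    (Wordy.var σ.a (Set.mem_univ _))

theorem W'_split {k : J} (hk : σ.Rest k) (y : J → Mat r) :
    σ.W' y = σ.P k y * (y k * σ.Mid k y * (y k)⁻¹) * σ.S k y := σ.split k hk y

theorem W'_update {k : J} (hk : σ.Rest k) (y : J → Mat r) (M : Mat r) :
    σ.W' (Function.update y k M) = σ.P k y * (M * σ.Mid k y * M⁻¹) * σ.S k y := by
  have e : ∀ j ∈ {j | (j ≠ σ.a ∧ j ≠ σ.b ∧ j ≠ σ.α ∧ j ≠ σ.β) ∧ j ≠ k},
      Function.update y k M j = y j := fun j hj => Function.update_of_ne hj.2 _ _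
  rw [σ.W'_split hk, (σ.P_word k).indep e, (σ.Mid_word k).indep e, (σ.S_word k).indep e,
    Function.update_self]

theorem det_W' {y : J → Mat r} (hy : y ∈ UU r J) : (σ.W' y).det = 1 := σ.det_w y hy

theorem det_W {y : J → Mat r} (hy : y ∈ UU r J) : (σ.W y).det = 1 := by
  rw [W, det_mul, det_cm (hy _) (hy _), σ.det_W' hy, one_mul]

theorem det_rel {y : J → Mat r} (hy : y ∈ UU r J) : (σ.rel y).det = 1 := by
  rw [rel, det_mul, det_cm (hy _) (hy _), σ.det_W hy, one_mul]

theorem commute_W' {Y : Mat r} {y : J → Mat r} (h : ∀ k, σ.Rest k → Commute Y (σ.val y k)) :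
    Commute Y (σ.W' y) := σ.w_word.commute h

theorem W_mul_a {y : J → Mat r} (hy : y ∈ σ.R) :
    σ.W y * y σ.a = y σ.b * y σ.a * (y σ.b)⁻¹ := by
  have ha := hy.1 σ.a
  have hb := hy.1 σ.b
  have e : σ.W y = y σ.b * y σ.a * (y σ.b)⁻¹ * (y σ.a)⁻¹ * σ.rel y := by
    simp only [rel, cm, mul_assoc, imc ha, imc hb, mic ha, mic hb]
  rw [e, hy.2]
  simp only [mul_assoc, mul_one, inv_mul' ha]

theorem rel_of_W_mul_a {y : J → Mat r} (ha : (y σ.a).det ≠ 0) (hb : (y σ.b).det ≠ 0)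
    (h : σ.W y * y σ.a * y σ.b = y σ.b * y σ.a) : σ.rel y = 1 := by
  have e : σ.W y = y σ.b * y σ.a * (y σ.b)⁻¹ * (y σ.a)⁻¹ := by
    rw [← h]
    simp only [mul_assoc, mic hb, mul_inv'' ha, mul_one]
  rw [rel, e]
  simp only [cm, mul_assoc, imc ha, imc hb, mic hb, mul_inv'' ha]

theorem W'_cj {g : Mat r} (hg : g.det ≠ 0) (y : J → Mat r) :
    σ.W' (σ.cj g y) = g * σ.W' y * g⁻¹ := by
  rw [W', W', ← σ.w_word.conj hg]
  congr 1
  funext k
  by_cases hk : k ∈ σ.H
  · rw [σ.val_of_mem hk, σ.val_of_mem hk]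
    simp only [cj, if_pos hk, Matrix.mul_inv_rev, mul_assoc]
  · rw [σ.val_of_not_mem hk, σ.val_of_not_mem hk]
    simp only [cj, if_neg hk]

theorem fam_a (y : J → Mat r) (A γ B : Mat r) : σ.fam y A γ B σ.a = A := by
  simp [fam]

theorem fam_b (y : J → Mat r) (A γ B : Mat r) : σ.fam y A γ B σ.b = B := by
  simp [fam, σ.ab.symm]

theorem fam_α (y : J → Mat r) (A γ B : Mat r) : σ.fam y A γ B σ.α = B * γ⁻¹ := by
  simp [fam, σ.aα.symm, σ.bα.symm]

theorem fam_β (y : J → Mat r) (A γ B : Mat r) : σ.fam y A γ B σ.β = γ * A * γ⁻¹ := by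
  simp [fam, σ.aβ.symm, σ.bβ.symm, σ.αβ.symm]

theorem fam_rest (y : J → Mat r) (A γ B : Mat r) {k : J} (hk : σ.Rest k) :
    σ.fam y A γ B k = y k := by
  simp [fam, hk.1, hk.2.1, hk.2.2.1, hk.2.2.2]

theorem fam_UU {y : J → Mat r} (hy : y ∈ UU r J) {A γ B : Mat r} (hA : A.det ≠ 0)
    (hγ : γ.det ≠ 0) (hB : B.det ≠ 0) : σ.fam y A γ B ∈ UU r J := by
  intro k
  unfold fam
  split_ifs
  exacts [hA, hB, det_mul_ne hB (det_inv_ne hγ), det_mul_ne (det_mul_ne hγ hA) (det_inv_ne hγ),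
    hy k]

theorem rel_fam (y : J → Mat r) {A γ B : Mat r} (hA : A.det ≠ 0) (hγ : γ.det ≠ 0)
    (hB : B.det ≠ 0) : σ.rel (σ.fam y A γ B) = cm A γ * σ.W' y := by
  have e : σ.W' (σ.fam y A γ B) = σ.W' y := σ.W'_word.indep fun k hk => σ.fam_rest y A γ B hk
  rw [rel, W, e, fam_a, fam_b, fam_α, fam_β]
  simp only [cm, Matrix.mul_inv_rev, inv_inv' hγ, mul_assoc, imc hγ, imc hB, mic hB, imc hA]

theorem St_sub {L : IntermediateField ℚ ℂ} : σ.St L ⊆ σ.R :=
  fun _ hy => ⟨fun k => (hy.1 k).det_ne, hy.2⟩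

end Sys

end Vale.Agent.P002
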