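import Vale.Agent.P002.Chain
import Vale.Agent.P002.RS
import Vale.Agent.P002.SysB

set_option linter.unusedVariables false

namespace Vale.Agent.P002

open Matrix Filter Topology

variable {r : ℕ}

/-- Column `k` of `U` is `(∏ l < k, (A k k - A l l))⁻¹ • (∏ l < k, (A - A l l)) e_k`; take for `t`
the product of all differences of diagonal entries. (Alternatively: induction, or algebraic
entries and a common denominator.) -/
theorem tri_diag {A : Mat r} (hA : IntB A) (ht : A.BlockTriangular id)
    (hd : Function.Injective fun i => A i i) :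
    ∃ (U : Mat r) (t : ℂ), U.BlockTriangular id ∧ (∀ i, U i i = 1) ∧ t ≠ 0 ∧ IsIntegral ℤ t ∧
      IntB (t • U) ∧ A * U = U * diagonal fun i => A i i := by
  let M : Fin r → Mat r := fun k => A - diagonal fun i => if i = k then A k k - 1 else A k k
  have hMt : ∀ k, (M k).BlockTriangular id := fun k => ht.sub (blockTriangular_diagonal _)
  have hMI : ∀ k, IntB (M k) := fun k i j => by
    refine (hA i j).sub ?_
    rw [diagonal_apply]
    split_ifs
    exacts [(hA k k).sub isIntegral_one, hA k k, isIntegral_zero]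
  have hMd : ∀ k, (M k).det ≠ 0 := fun k => by
    rw [det_of_isUpperTriangular (hMt k), Finset.prod_ne_zero_iff]
    intro i _
    simp only [M, Matrix.sub_apply, diagonal_apply_eq]
    split_ifs with h
    · rw [h]; simp
    · exact sub_ne_zero.2 fun e => h (hd e)
  have hinv : ∀ k, (M k)⁻¹.BlockTriangular id := fun k => by
    have := (M k).invertibleOfIsUnitDet (hMd k).isUnit
    exact blockTriangular_inv_of_blockTriangular (hMt k)
  have hrow : ∀ i k, ∑ j, M k i j * (M k)⁻¹ j k = if i = k then 1 else 0 := fun i k => by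
    rw [← mul_apply, mul_inv'' (hMd k), one_apply]
  have hone : ∀ k, (M k)⁻¹ k k = 1 := fun k => by
    have h := hrow k k
    rw [if_pos rfl, Finset.sum_eq_single k (fun j _ hj => by
      rcases lt_or_gt_of_ne hj with h1 | h1
      · rw [hMt k h1, zero_mul]
      · rw [hinv k h1, mul_zero]) (by simp)] at h
    simpa [M] using h
  refine ⟨of fun i k => (M k)⁻¹ i k, ∏ k, (M k).det, fun i k h => hinv k h, hone,
    Finset.prod_ne_zero_iff.2 fun k _ => hMd k, IsIntegral.prod _ fun k _ => (hMI k).det,
    fun i k => ?_, ?_⟩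
  · have e : (∏ k, (M k).det) * (M k)⁻¹ i k =
        (∏ l ∈ Finset.univ.erase k, (M l).det) * (M k).adjugate i k := by
      rw [← Finset.prod_erase_mul _ _ (Finset.mem_univ k), Matrix.inv_def, Ring.inverse_eq_inv',
        Matrix.smul_apply, smul_eq_mul, mul_assoc, mul_inv_cancel_left₀ (hMd k)]
    rw [Matrix.smul_apply, of_apply, smul_eq_mul, e]
    exact (IsIntegral.prod _ fun k _ => (hMI k).det).mul ((hMI k).adjugate i k)
  · ext i k
    have h := hrow i k
    rw [← mul_apply] at h
    simp only [M] at h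
    rw [sub_mul, Matrix.sub_apply, diagonal_mul, mul_apply] at h
    rw [mul_diagonal, mul_apply]
    simp only [of_apply]
    by_cases hik : i = k
    · subst hik
      have h1 := hone i
      simp only [M] at h1 ⊢
      rw [if_pos rfl, if_pos rfl, h1] at h
      rw [h1]
      linear_combination h
    · rw [if_neg hik, if_neg hik] at h
      simp only [M]
      linear_combination h

theorem start_scale {M : Mat r} (h : IntB M) (h0 : M.det ≠ 0) (hd : IsIntegral ℤ M.det⁻¹) :
    ∃ c : ℂ, c ≠ 0 ∧ IntB (c • M) ∧ (c • M).det = 1 := by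
  obtain ⟨c, hc, h1⟩ := exists_smul_det_one h0
  refine ⟨c, hc, fun i j => IntB.smul ?_ h i j, h1⟩
  rw [det_smul, Fintype.card_fin] at h1
  refine IsIntegral.of_pow (Fin.pos i) ?_
  rwa [eq_inv_of_mul_eq_one_left h1]

theorem start_entry {t : ℂ} (ht : t ≠ 0) (c : Mat r) {i j : Fin r} (h : i ≤ j) :
    (diagonal (fun i : Fin r => (t ^ (i : ℕ))⁻¹) * c * diagonal fun i : Fin r => t ^ (i : ℕ)) i j =
      t ^ ((j : ℕ) - i) * c i j := by
  rw [mul_diagonal, diagonal_mul, pow_sub₀ t ht h]
  ring

/-- `exists_chain` for the diagonal of `ε` gives `a`, `s`; `D = diagonal a`, `tri_diag` for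
`ε * D`, `T = diagonal fun i => (t ^ i)⁻¹` so that `(T * c * T⁻¹) i j = t ^ (j - i) * c i j` for
`i ≤ j`. `U' = T * U * T⁻¹` is integral with determinant one and
`T ε T⁻¹ D = U' * diagonal (a ∘ s) * U'⁻¹`; `B₁ = U' * Π` with a permutation matrix `Π`. Finally
scale `D` and `B₁` to determinant one (`c ^ r = det⁻¹` makes `c` a unit). -/
theorem exists_start {ε : Mat r} (hε : IntB ε) (ht : ε.BlockTriangular id) (hd : ε.det = 1) :
    ∃ T : Mat r, T.det ≠ 0 ∧ (∀ c : Mat r, IntB c → c.BlockTriangular id → IntB (T * c * T⁻¹)) ∧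
      ∃ A B : Mat r, IntB A ∧ IntB B ∧ A.det = 1 ∧ B.det = 1 ∧ RS A ∧
        cm A B * (T * ε * T⁻¹) = 1 := by
  obtain ⟨a, ai, ha, s, hs⟩ := exists_chain (fun i => ε i i) (fun i => hε i i)
    (by rw [← det_of_isUpperTriangular ht, hd])
  have hD : IntB (diagonal a) := fun i j => by
    rw [diagonal_apply]
    split_ifs
    exacts [(ha i).2.1, isIntegral_zero]
  have hdiag : (fun i => (ε * diagonal a) i i) = fun i => a (s i) := funext fun i => by
    rw [mul_diagonal, hs]
  obtain ⟨U, t, Ut, U1, t0, tI, UI, hU⟩ := tri_diag (hε.mul hD)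
    (ht.mul (blockTriangular_diagonal a)) (by rw [hdiag]; exact ai.comp s.injective)
  rw [hdiag] at hU
  set T : Mat r := diagonal fun i : Fin r => (t ^ (i : ℕ))⁻¹ with hT
  set T' : Mat r := diagonal fun i : Fin r => t ^ (i : ℕ) with hT'
  have hTT : T * T' = 1 := by
    rw [hT, hT', diagonal_mul_diagonal, ← diagonal_one]
    congr 1
    exact funext fun i => inv_mul_cancel₀ (pow_ne_zero _ t0)
  have hinv : T⁻¹ = T' := Matrix.inv_eq_right_inv hTT
  have hdet : T.det * T'.det = 1 := by rw [← det_mul, hTT, det_one]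
  have hT0 : T.det ≠ 0 := left_ne_zero_of_mul_eq_one hdet
  have hlow : ∀ c : Mat r, c.BlockTriangular id → ∀ i j, j < i → (T * c * T') i j = 0 :=
    fun c hc i j h => ((blockTriangular_diagonal _).mul hc).mul (blockTriangular_diagonal _) h
  have hU' : IntB (T * U * T') := fun i j => by
    rcases lt_trichotomy i j with h | h | h
    · rw [start_entry t0 U h.le]
      obtain ⟨m, hm⟩ : ∃ m, (j : ℕ) - i = m + 1 := ⟨(j : ℕ) - i - 1, by
        have : (i : ℕ) < j := h
        omega⟩
      rw [hm, pow_succ, mul_assoc]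
      exact (tI.pow m).mul (UI i j)
    · subst h
      rw [start_entry t0 U le_rfl, U1, Nat.sub_self, pow_zero, mul_one]
      exact isIntegral_one
    · rw [hlow U Ut i j h]
      exact isIntegral_zero
  have hP : IntB (s.permMatrix ℂ) := fun i j => by
    simp only [PEquiv.toMatrix_apply]
    split_ifs
    exacts [isIntegral_one, isIntegral_zero]
  have hPD : (diagonal fun i => a (s i)) * s.permMatrix ℂ = s.permMatrix ℂ * diagonal a := by
    ext i j
    rw [mul_diagonal, diagonal_mul]
    simp only [PEquiv.toMatrix_apply, Equiv.toPEquiv_apply, Option.mem_def, Option.some.injEq]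
    split_ifs with h
    · rw [h, mul_comm]
    · simp
  have hBd : (T * U * T' * s.permMatrix ℂ).det = ((Equiv.Perm.sign s : ℤ) : ℂ) := by
    rw [det_mul, det_mul, det_mul, det_permutation, det_of_isUpperTriangular Ut]
    simp only [U1, Finset.prod_const_one, mul_one, hdet, one_mul]
  have hsg : ((Equiv.Perm.sign s : ℤ) : ℂ) * ((Equiv.Perm.sign s : ℤ) : ℂ) = 1 := by
    rw [← Int.cast_mul, ← Units.val_mul, Int.units_mul_self, Units.val_one, Int.cast_one]
  obtain ⟨c₁, c10, A1, A2⟩ := start_scale hD
    (by rw [det_diagonal]; exact Finset.prod_ne_zero_iff.2 fun i _ => (ha i).1)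
    (by rw [det_diagonal, ← Finset.prod_inv_distrib]; exact IsIntegral.prod _ fun i _ => (ha i).2.2)
  obtain ⟨c₂, c20, B1, B2⟩ := start_scale (hU'.mul hP)
    (by rw [hBd]; exact left_ne_zero_of_mul_eq_one hsg)
    (by rw [hBd, ← eq_inv_of_mul_eq_one_left hsg]; exact isIntegral_algebraMap (x := _))
  refine ⟨T, hT0, fun c hc hct i j => ?_, _, _, A1, B1, A2, B2, (rs_diagonal ai).smul c10, ?_⟩
  · rw [hinv]
    rcases le_or_gt i j with h | h
    · rw [start_entry t0 c h]
      exact (tI.pow _).mul (hc i j)
    · rw [hlow c hct i j h]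
      exact isIntegral_zero
  have hc1 : T' * diagonal a = diagonal a * T' := by
    rw [hT', diagonal_mul_diagonal, diagonal_mul_diagonal]
    congr 1
    exact funext fun i => mul_comm _ _
  have hc2 : (diagonal fun i => a (s i)) * T' = T' * diagonal fun i => a (s i) := by
    rw [hT', diagonal_mul_diagonal, diagonal_mul_diagonal]
    congr 1
    exact funext fun i => mul_comm _ _
  have hTT' : T' * T = 1 := by rw [← hinv, inv_mul' hT0]
  have key : T * ε * T' * diagonal a * (T * U * T' * s.permMatrix ℂ) =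
      T * U * T' * s.permMatrix ℂ * diagonal a :=
    calc _ = T * ε * (T' * diagonal a) * (T * U * T' * s.permMatrix ℂ) := by
          simp only [mul_assoc]
      _ = T * (ε * diagonal a * (T' * T) * U) * T' * s.permMatrix ℂ := by
          rw [hc1]; simp only [mul_assoc]
      _ = T * U * ((diagonal fun i => a (s i)) * T') * s.permMatrix ℂ := by
          rw [hTT', mul_one, hU]; simp only [mul_assoc]
      _ = T * U * T' * ((diagonal fun i => a (s i)) * s.permMatrix ℂ) := by
          rw [hc2]; simp only [mul_assoc]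
      _ = _ := by rw [hPD]; simp only [mul_assoc]
  rw [hinv]
  generalize T * U * T' * s.permMatrix ℂ = B at key B2
  generalize T * ε * T' = e at key
  generalize diagonal a = A at key A2
  have key2 : e * (c₁ • A) * (c₂ • B) = c₂ • B * c₁ • A := by
    simp only [mul_smul_comm, smul_mul_assoc, key]
    rw [smul_comm]
  generalize c₁ • A = A' at key2 A2
  generalize c₂ • B = B' at key2 B2
  have hA : A'.det ≠ 0 := by rw [A2]; exact one_ne_zero
  have hB : B'.det ≠ 0 := by rw [B2]; exact one_ne_zero
  have he : e = B' * A' * B'⁻¹ * A'⁻¹ := by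
    rw [← key2]
    simp only [mul_assoc, mic hB, mul_inv'' hA, mul_one]
  rw [he, cm]
  simp only [mul_assoc, imc hA, imc hB, mic hB, mul_inv'' hA]

end Vale.Agent.P002
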