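import Vale.Agent.P002.SysB

set_option linter.unusedVariables false

namespace Vale.Agent.P002

open Matrix Filter Topology

variable {r : ℕ}

/-- generators of the surface group -/
abbrev Gens (g s : ℕ) := Fin g ⊕ Fin g ⊕ Fin s

/-- the surface relation -/
noncomputable def surfW {g s : ℕ} (v : Gens g s → Mat r) : Mat r :=
  (List.ofFn fun i : Fin g => cm (v (.inl i)) (v (.inr (.inl i)))).prod *
    (List.ofFn fun j : Fin s => v (.inr (.inr j))).prod

section aux

variable {g s : ℕ}

/-- position of a generator in the relation -/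
def word_pos : Gens g s → ℕ
  | .inl i => i
  | .inr (.inl i) => i
  | .inr (.inr j) => g + j

/-- factors of the relation -/
noncomputable def word_fac (v : Gens g s → Mat r) (n : ℕ) : Mat r :=
  if h : n < g then cm (v (.inl ⟨n, h⟩)) (v (.inr (.inl ⟨n, h⟩))) else
  if h' : n - g < s then v (.inr (.inr ⟨n - g, h'⟩)) else 1

/-- segments of the relation -/
noncomputable def word_seg (v : Gens g s → Mat r) (m l : ℕ) : Mat r :=
  ((List.range' m l).map (word_fac v)).prod

/-- left part of a factor -/
noncomputable def word_L : Gens g s → (Gens g s → Mat r) → Mat r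
  | .inr (.inl i) => fun y => y (.inl i)
  | _ => fun _ => 1

/-- middle part of a factor -/
noncomputable def word_M (c : Fin s → Mat r) : Gens g s → (Gens g s → Mat r) → Mat r
  | .inl i => fun y => y (.inr (.inl i))
  | .inr (.inl i) => fun y => (y (.inl i))⁻¹
  | .inr (.inr j) => fun _ => c j

/-- right part of a factor -/
noncomputable def word_R : Gens g s → (Gens g s → Mat r) → Mat r
  | .inl i => fun y => (y (.inr (.inl i)))⁻¹
  | _ => fun _ => 1

/-- the punctures -/
def word_H (g s : ℕ) : Finset (Gens g s) := Finset.univ.image fun j => .inr (.inr j)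

/-- the constants -/
noncomputable def word_cc (c : Fin s → Mat r) : Gens g s → Mat r :=
  Sum.elim (fun _ => 1) (Sum.elim (fun _ => 1) c)

theorem word_H1 (i : Fin g) : .inl i ∉ word_H g s := by simp [word_H]

theorem word_H2 (i : Fin g) : .inr (.inl i) ∉ word_H g s := by simp [word_H]

theorem word_H3 (j : Fin s) : .inr (.inr j) ∈ word_H g s := by simp [word_H]

variable (v : Gens g s → Mat r) (c : Fin s → Mat r)

theorem word_fac1 (i : Fin g) : word_fac v i = cm (v (.inl i)) (v (.inr (.inl i))) :=
  dif_pos i.2

theorem word_fac2 (j : Fin s) : word_fac v (g + j) = v (.inr (.inr j)) := by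
  rw [word_fac, dif_neg (by omega), dif_pos (by omega)]
  simp

theorem word_seg_add (m l l' : ℕ) :
    word_seg v m (l + l') = word_seg v m l * word_seg v (m + l) l' := by
  rw [word_seg, ← List.range'_append_1, List.map_append, List.prod_append, word_seg, word_seg]

theorem word_seg_one (m : ℕ) : word_seg v m 1 = word_fac v m := by simp [word_seg]

theorem word_seg_ofFn {m l : ℕ} {f : Fin l → Mat r} (h : ∀ i, f i = word_fac v (m + i)) :
    (List.ofFn f).prod = word_seg v m l :=
  congrArg List.prod (List.ext_getElem (by simp) fun i _ _ => by simp [h])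

theorem word_surf : surfW v = word_seg v 0 (g + s) := by
  rw [word_seg_add, zero_add, surfW, word_seg_ofFn v (m := 0) fun i => by
    rw [zero_add, word_fac1], word_seg_ofFn v (m := g) fun j => (word_fac2 v j).symm]

theorem word_seg_word (m l : ℕ) {T : Set (Gens g s)}
    (h : ∀ j, m ≤ word_pos j → word_pos j < m + l → j ∈ T) :
    Wordy ∅ T fun v : Gens g s → Mat r => word_seg v m l := by
  induction l with
  | zero => exact Wordy.one
  | succ l ih =>
    simp only [word_seg_add, word_seg_one]
    refine (ih fun j h1 h2 => h j h1 (by omega)).mul ?_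
    unfold word_fac
    split_ifs with h1 h2
    · exact (Wordy.var _ (h _ (by simp [word_pos]) (by simp [word_pos]))).cm
        (Wordy.var _ (h _ (by simp [word_pos]) (by simp [word_pos])))
    · exact Wordy.var _ (h _ (by simp only [word_pos]; omega) (by simp only [word_pos]; omega))
    · exact Wordy.one

theorem word_seg_det (h : ∀ n, (word_fac v n).det = 1) (m l : ℕ) : (word_seg v m l).det = 1 := by
  induction l with
  | zero => simp [word_seg]
  | succ l ih => rw [word_seg_add, word_seg_one, det_mul, ih, h, one_mul]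

theorem word_val1 (i : Fin g) : vals (word_H g s) (word_cc c) v (.inl i) = v (.inl i) :=
  if_neg (word_H1 i)

theorem word_val2 (i : Fin g) :
    vals (word_H g s) (word_cc c) v (.inr (.inl i)) = v (.inr (.inl i)) := if_neg (word_H2 i)

theorem word_val3 (j : Fin s) : vals (word_H g s) (word_cc c) v (.inr (.inr j)) =
    v (.inr (.inr j)) * c j * (v (.inr (.inr j)))⁻¹ := if_pos (word_H3 j)

theorem word_fac_split (k : Gens g s) : word_fac (vals (word_H g s) (word_cc c) v) (word_pos k) =
    word_L k v * (v k * word_M c k v * (v k)⁻¹) * word_R k v := by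
  rcases k with i | i | j
  · simp only [word_pos, word_fac1, word_val1, word_val2, word_L, word_M, word_R, cm, one_mul]
  · simp only [word_pos, word_fac1, word_val1, word_val2, word_L, word_M, word_R, cm, mul_one,
      mul_assoc]
  · simp only [word_pos, word_fac2, word_val3, word_L, word_M, word_R, one_mul, mul_one]

theorem word_fac_det (hc : ∀ j, (c j).det = 1) (hv : v ∈ UU r (Gens g s)) (n : ℕ) :
    (word_fac (vals (word_H g s) (word_cc c) v) n).det = 1 := by
  unfold word_fac
  split_ifs
  · rw [word_val1, word_val2]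
    exact det_cm (hv _) (hv _)
  · rw [word_val3, det_conj ((isUnit_iff_isUnit_det _).2 (hv _).isUnit), hc]
  · exact det_one

theorem word_LMR (k : Gens g s) {T : Set (Gens g s)}
    (h : ∀ j, word_pos j = word_pos k → j ≠ k → j ∈ T) :
    Wordy (Set.range (word_cc (g := g) c)) T (word_L k) ∧
      Wordy (Set.range (word_cc (g := g) c)) T (word_M c k) ∧
      Wordy (Set.range (word_cc (g := g) c)) T (word_R k) := by
  rcases k with i | i | j
  · exact ⟨.one, .var _ (h _ rfl (by simp)), .inv (.var _ (h _ rfl (by simp)))⟩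
  · exact ⟨.var _ (h _ rfl (by simp)), .inv (.var _ (h _ rfl (by simp))), .one⟩
  · exact ⟨.one, .const _ ⟨.inr (.inr j), rfl⟩, .one⟩

theorem word_handle {A B Y : Mat r} (hA : A.det ≠ 0) (hB : B.det ≠ 0)
    (h1 : Commute Y (A * B * A⁻¹)) (h2 : Commute (A⁻¹ * Y * A) (B * A⁻¹ * B⁻¹)) :
    Commute Y A ∧ Commute Y B := by
  have h3 : Commute Y (A * (B * A⁻¹ * B⁻¹) * A⁻¹) := by
    have := congrArg (fun Z => A * Z * A⁻¹) h2.eq
    simp only [mul_assoc, mic hA, mul_inv'' hA, mul_one] at this
    simpa only [Commute, SemiconjBy, mul_assoc] using this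
  have h4 := (commute_inv h3).mul_right h1
  have h5 := (commute_inv h1).mul_right h4
  simp only [Matrix.mul_inv_rev, inv_inv' hA, inv_inv' hB, mul_assoc, imc hA, imc hB,
    mul_inv'' hA, inv_mul' hB, mul_one] at h4 h5
  exact ⟨h5, by simpa only [imc hA] using (commute_inv h5).mul_right h4⟩

theorem word_rest (k : Gens (g + 2) s) :
    (k ≠ .inl 0 ∧ k ≠ .inr (.inl 0) ∧ k ≠ .inl 1 ∧ k ≠ .inr (.inl 1)) ↔ 2 ≤ word_pos k := by
  rcases k with i | i | j <;>
    simp only [word_pos, ne_eq, Sum.inl.injEq, Sum.inr.injEq, reduceCtorEq, not_false_eq_true,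
      true_and, and_true, Fin.ext_iff, Fin.val_zero, Fin.val_one, true_iff, and_self] <;> omega

theorem word_pos_lt (k : Gens g s) : word_pos k < g + s := by
  rcases k with i | i | j <;> simp only [word_pos] <;> omega

theorem word_ann (hc : ∀ j, (c j).det = 1) (hv : v ∈ UU r (Gens g s)) (Y : Mat r) (m : ℕ)
    (h : ∀ k, m ≤ word_pos k → Commute
      ((word_seg (vals (word_H g s) (word_cc c) v) m (word_pos k - m) * word_L k v)⁻¹ * Y *
        (word_seg (vals (word_H g s) (word_cc c) v) m (word_pos k - m) * word_L k v))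
      (v k * word_M c k v * (v k)⁻¹)) (k : Gens g s) (hk : m ≤ word_pos k) :
    Commute Y (vals (word_H g s) (word_cc c) v k) := by
  induction hn : word_pos k using Nat.strong_induction_on generalizing k with
  | _ n ih =>
    have h1 : Commute Y (word_seg (vals (word_H g s) (word_cc c) v) m (n - m)) :=
      (word_seg_word m (n - m) (T := {j | m ≤ word_pos j ∧ word_pos j < n})
        fun j h1 h2 => ⟨h1, by omega⟩).commute fun j hj => ih _ hj.2 j hj.1 rfl
    have h2 := (word_seg_det _ (word_fac_det v c hc hv) m (n - m)).trans_ne one_ne_zero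
    have h3 : ∀ j, word_pos j = n →
        Commute ((word_L j v)⁻¹ * Y * word_L j v) (v j * word_M c j v * (v j)⁻¹) := fun j hj => by
      have := h j (by omega)
      rwa [hj, Matrix.mul_inv_rev, mul_assoc, ← mul_assoc Y, h1.eq, mul_assoc, mul_assoc, imc h2,
        ← mul_assoc] at this
    have h4 : ∀ i : Fin g, i = n → Commute Y (v (.inl i)) ∧ Commute Y (v (.inr (.inl i))) :=
      fun i hi => word_handle (hv _) (hv _) (by simpa [word_L, word_M] using h3 (.inl i) hi)
        (h3 (.inr (.inl i)) hi)
    rcases k with i | i | j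
    · exact word_val1 v c i ▸ (h4 i hn).1
    · exact word_val2 v c i ▸ (h4 i hn).2
    · rw [word_val3]
      simpa [word_L, word_M] using h3 _ hn

end aux

/-- Take `a = inl 0`, `b = inr (inl 0)`, `α = inl 1`, `β = inr (inl 1)`, `H` the set of all
`inr (inr j)`, `cc` equal to `c j` there and to `1` elsewhere, and
`w v = (ofFn fun i : Fin g => cm (v (inl i.succ.succ)) (v (inr (inl i.succ.succ)))).prod * (..).prod`.
It is convenient to write `w (vals H cc y)` as the product of one list of factors
`List.ofFn (fac y)` indexed by `Fin (g + s)` (or two lists), to split it with `take`, `drop` at a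
position, and to define `P`, `Mid`, `S` by cases (`fun _ => 1` for the four special indices):
for `A_i`: `P = pre`, `Mid = B_i`, `S = B_i⁻¹ * suf`; for `B_i`: `P = pre * A_i`, `Mid = A_i⁻¹`,
`S = suf`; for a puncture `P = pre`, `Mid = c j`, `S = suf`. For `ann` use induction on the
position: `Y` commutes with all earlier factors, hence with `pre`; if `Y` commutes with
`A B A⁻¹` and `A⁻¹ Y A` commutes with `B A⁻¹ B⁻¹` then `Y` commutes with `A` and `B`. -/
theorem exists_sys (g s : ℕ) (c : Fin s → Mat r) (hc : ∀ j, (c j).det = 1) :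
    ∃ σ : Sys r (Gens (g + 2) s), σ.a = .inl 0 ∧ σ.b = .inr (.inl 0) ∧
      (∀ i, .inl i ∉ σ.H) ∧ (∀ i, .inr (.inl i) ∉ σ.H) ∧ (∀ j, .inr (.inr j) ∈ σ.H) ∧
      (∀ j, σ.cc (.inr (.inr j)) = c j) ∧ (∀ k, k ∉ σ.H → σ.cc k = 1) ∧
      (∀ y, σ.rel y = surfW (σ.val y)) ∧ σ.W' (fun _ => 1) = (List.ofFn c).prod := by
  refine ⟨{
    a := .inl 0, b := .inr (.inl 0), α := .inl 1, β := .inr (.inl 1), H := word_H _ s
    cc := word_cc c
    w := fun v => word_seg v 2 (g + s)
    P := fun k => if 2 ≤ word_pos k then fun y =>
      word_seg (vals (word_H _ s) (word_cc c) y) 2 (word_pos k - 2) * word_L k y else fun _ => 1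
    Mid := fun k => if 2 ≤ word_pos k then word_M c k else fun _ => 1
    S := fun k => if 2 ≤ word_pos k then fun y => word_R k y *
      word_seg (vals (word_H _ s) (word_cc c) y) (word_pos k + 1) (g + s + 1 - word_pos k)
      else fun _ => 1
    ab := by simp, aα := by simp, aβ := by simp, bα := by simp, bβ := by simp, αβ := by simp
    aH := word_H1 _, bH := word_H2 _, αH := word_H1 _, βH := word_H2 _
    cc_det := ?_
    w_word := word_seg_word _ _ fun j h _ => (word_rest j).2 h
    P_word := fun k => ?_
    Mid_word := fun k => ?_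
    S_word := fun k => ?_
    split := fun k hk y => ?_
    det_w := fun y hy => word_seg_det _ (word_fac_det y c hc hy) _ _
    ann := fun y hy Y h k hk => word_ann y c hc hy Y 2 (fun j hj => ?_) k ((word_rest k).1 hk) },
    rfl, rfl, word_H1, word_H2, word_H3, fun _ => rfl, ?_, fun y => ?_, ?_⟩
  · rintro (i | i | j) <;> simp [word_cc, hc]
  · split_ifs with hk
    · refine Wordy.mul (Wordy.vals (word_seg_word _ _ fun j h1 h2 => ?_) _ _)
        (word_LMR c k fun j h1 h2 => ?_).1
      · exact And.intro ((word_rest j).2 h1) (by rintro rfl; omega)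
      · exact And.intro ((word_rest j).2 (h1 ▸ hk)) h2
    · exact .one
  · split_ifs with hk
    · refine (word_LMR c k fun j h1 h2 => ?_).2.1
      exact And.intro ((word_rest j).2 (h1 ▸ hk)) h2
    · exact .one
  · split_ifs with hk
    · refine Wordy.mul (word_LMR c k fun j h1 h2 => ?_).2.2
        (Wordy.vals (word_seg_word _ _ fun j h1 h2 => ?_) _ _)
      · exact And.intro ((word_rest j).2 (h1 ▸ hk)) h2
      · exact And.intro ((word_rest j).2 (by omega)) (by rintro rfl; omega)
    · exact .one
  · have h1 := (word_rest k).1 hk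
    have h2 := word_pos_lt k
    simp only [if_pos h1]
    rw [show g + s = word_pos k - 2 + (1 + (g + s + 1 - word_pos k)) by omega, word_seg_add,
      word_seg_add, word_seg_one, show 2 + (word_pos k - 2) = word_pos k by omega, word_fac_split,
      show word_pos k - 2 + (1 + (g + s + 1 - word_pos k)) = g + s by omega]
    simp only [mul_assoc]
  · simpa only [if_pos hj] using h j ((word_rest j).2 hj)
  · rintro (i | i | j) h
    exacts [rfl, rfl, absurd (word_H3 j) h]
  · change cm (y (.inl 0)) (y (.inr (.inl 0))) * (cm (y (.inl 1)) (y (.inr (.inl 1))) *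
      word_seg (vals (word_H _ s) (word_cc c) y) 2 (g + s)) =
      surfW (vals (word_H _ s) (word_cc c) y)
    rw [word_surf, show g + 2 + s = 1 + (1 + (g + s)) by omega, word_seg_add _ 0,
      word_seg_add _ (0 + 1), word_seg_one, word_seg_one]
    exact congrArg₂ _ ((word_fac1 _ 0).trans (congrArg₂ _ (word_val1 y c 0) (word_val2 y c 0))).symm
      (congrArg (· * _)
        ((word_fac1 _ 1).trans (congrArg₂ _ (word_val1 y c 1) (word_val2 y c 1))).symm)
  · change word_seg (vals (word_H _ s) (word_cc c) fun _ => 1) 2 (g + s) = _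
    rw [word_seg_add, add_comm 2 g, ← word_seg_ofFn _ (f := c) fun j => by
      simp [word_fac2, word_val3], ← word_seg_ofFn _ (f := fun _ => 1) fun i => by
      rw [word_fac, dif_pos (by omega), word_val1, word_val2]; simp [cm]]
    simp

end Vale.Agent.P002
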