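import Vale.Agent.P002.Moves
import Vale.Agent.P002.Span
import Vale.Agent.P002.Chart
import Vale.Agent.P002.SchurC
import Vale.Agent.P002.Merge
import Vale.Agent.P002.Start
import Vale.Agent.P002.Descent
import Vale.Agent.P002.Word
import Vale.Agent.P002.G1

set_option linter.unusedVariables false

namespace Vale.Agent.P002

open Matrix Filter Topology

variable {r : ℕ}

section Abstract

variable [NeZero r] {J : Type} [Fintype J] [DecidableEq J] (σ : Sys r J)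
  {L : IntermediateField ℚ ℂ}

/-- the closure of the integral points contains a dense open part of the main component -/
theorem Sys.main_comp (hL : Good L r) (hcc : ∀ k, Gp L (σ.cc k)) {A₀ B₀ : Mat r} (hA : Gp L A₀)
    (hB : Gp L B₀) (hRS : RS A₀) (h : cm A₀ B₀ * σ.W' (fun _ => 1) = 1) :
    ∃ κ : Mat r × Mat r → Prop, Gen κ ∧ ∀ x ∈ σ.R, κ (x σ.a, x σ.b) → x ∈ Zc (σ.St L) := by
  have hZ := σ.moveInv hL hcc
  obtain ⟨d, γ, y₁, hd, hd0, hγ, hy, hfam⟩ := σ.base hL hA hB hRS (fun _ => Gp.one) h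
  obtain ⟨B, hB0, hM, hloc⟩ := (span_gen hZ hd hd0 hγ hy hfam).ex
  have hdd : (diagonal d).det ≠ 0 := by
    rw [det_diagonal]; exact Finset.prod_ne_zero_iff.2 fun i _ => hd0 i
  have hx₀U := σ.fam_UU hy hdd hγ hB0
  have hx₀ : σ.fam y₁ (diagonal d) γ B ∈ σ.R := ⟨hx₀U, hZ.rel _ (hfam B hB0) hx₀U⟩
  have hW : ∀ x ∈ σ.R, σ.W x = x σ.b * x σ.a * (x σ.b)⁻¹ * (x σ.a)⁻¹ := fun x hx => by
    rw [← σ.W_mul_a hx, mul_assoc, mul_inv'' (hx.1 _), mul_one]
  let U : Set (Mat r × Mat r) := {q | q.1.det ≠ 0 ∧ q.2.det ≠ 0}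
  have hU : Bas U := ((Bas.univ.of_reg RegF.id.fst.det).inter
    (Bas.univ.of_reg RegF.id.snd.det)).congr fun q => by simp [U]
  have hreg : Reg U fun q => (Mm d q.1 (q.2 * q.1 * q.2⁻¹ * q.1⁻¹)).det :=
    (regF_mm d RegF.id.fst (((RegF.id.snd.mul RegF.id.fst).mul
      (RegF.id.snd.inv fun q hq => hq.2)).mul (RegF.id.fst.inv fun q hq => hq.1))).det
  have g1 := Gen.of_reg hU hreg (x₀ := (diagonal d, B)) ⟨hdd, hB0⟩ hM
  have g2 := Gen.of_reg (Bas.univ (E := Mat r × Mat r))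
    (regF_kry RegF.id.fst (RegF.const fun _ => (1 : ℂ))).det (x₀ := (diagonal d, B))
    (Set.mem_univ _) (kry_diag_ne hd)
  refine ⟨_, g1.and g2, fun x hx hκ => chart hZ hd hd0 hx₀ (σ.fam_a _ _ _ _) ?_ hloc hx ?_ hκ.2.2⟩
  · rw [hW _ hx₀, σ.fam_a, σ.fam_b]; exact hM
  · rw [hW _ hx]; exact hκ.1.2

/-- the irreducible integral points are dense in the semisimple points -/
theorem Sys.dense (hL : Good L r) (hcc : ∀ k, Gp L (σ.cc k)) {A₀ B₀ : Mat r} (hA : Gp L A₀)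
    (hB : Gp L B₀) (hRS : RS A₀) (h : cm A₀ B₀ * σ.W' (fun _ => 1) = 1)
    (hsc : ∀ (y : J → Mat r) (c : J → ℂ), (∀ k, c k ≠ 0) → y ∈ UU r J →
      σ.rel (fun k => c k • y k) = σ.rel y)
    {x : J → Mat r} (hx : ∀ k, (x k).det = 1) (hrel : σ.rel x = 1) (hs : Semis (σ.val x)) :
    x ∈ Zc {y | (∀ k, IntSL L (y k)) ∧ σ.rel y = 1 ∧ Irr (y σ.a) (y σ.b)} := by
  have hr : 0 < r := Nat.pos_of_ne_zero (NeZero.ne r)
  obtain ⟨κ, hκ, hmain⟩ := σ.main_comp hL hcc hA hB hRS h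
  obtain ⟨V, hV, hVne, hVI⟩ := (gen_irr (r := r)).bas
  have hxR : x ∈ σ.R := ⟨fun k => by rw [hx k]; exact one_ne_zero, hrel⟩
  obtain ⟨ω, hωL, hω⟩ := hL.2.2
  have hUU : ∀ y : J → Mat r, (∀ k, IntSL L (y k)) → y ∈ UU r J := fun y hy k => by
    rw [(hy k).2.2]; exact one_ne_zero
  refine descent hr hω (fun s hs k => (hs.1 k).2.2) (fun s hs k => ?_) hx ?_
  · have e : Function.update s k (ω • s k) = fun j => (if j = k then ω else 1) • s j := by
      funext j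
      by_cases hj : j = k
      · subst hj; simp
      · simp [hj]
    have hc : ∀ j, (if j = k then ω else 1) ≠ 0 := fun j => by
      split_ifs
      exacts [hω.ne_zero hr.ne', one_ne_zero]
    rw [e]
    refine ⟨fun j => ?_, by rw [hsc s _ hc (hUU s hs.1)]; exact hs.2.1, ?_⟩
    · beta_reduce
      split_ifs
      · exact (hs.1 j).smul hωL hω.pow_eq_one hr
      · rw [one_smul]; exact hs.1 j
    · refine Irr.of_smul (c := (if σ.a = k then ω else 1)⁻¹) (c' := (if σ.b = k then ω else 1)⁻¹) ?_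
      rw [smul_smul, smul_smul, inv_mul_cancel₀ (hc _), inv_mul_cancel₀ (hc _), one_smul, one_smul]
      exact hs.2.2
  · refine closure_minimal ?_ (Zc.isClosed _) (σ.semis_closure hxR hs)
    rintro y ⟨hy, hyS⟩
    refine closure_minimal ?_ (Zc.isClosed _)
      (σ.schur_closure hr (hκ.and (hV.gen hVne)) hy hyS)
    rintro z ⟨hz, hz1, hz2⟩
    have hb : Bas {y : J → Mat r | y ∈ Set.univ ∧ (y σ.a, y σ.b) ∈ V} :=
      Bas.univ.preimage hV ((RegF.proj σ.a).prodMk (RegF.proj σ.b))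
    refine Zc.mono ?_ (Zc.inter_bas (hmain z hz hz1) hb ⟨Set.mem_univ _, hz2⟩)
    rintro s ⟨⟨hs1, hs2⟩, -, hs3⟩
    choose c N hc hN hsN using hs1
    have e : s = fun k => c k • N k := funext hsN
    refine ⟨N, ⟨hN, ?_, ?_⟩, c, hc, e⟩
    · rw [← hsc N c hc (hUU N hN), ← e]; exact hs2
    · have := hVI _ hs3
      simp only [hsN] at this
      exact this.of_smul

end Abstract

theorem cm_smul {A B : Mat r} (hA : A.det ≠ 0) (hB : B.det ≠ 0) {c c' : ℂ} (hc : c ≠ 0)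
    (hc' : c' ≠ 0) : cm (c • A) (c' • B) = cm A B := by
  have e : ∀ {M : Mat r} {t : ℂ}, M.det ≠ 0 → t ≠ 0 → (t • M)⁻¹ = t⁻¹ • M⁻¹ := by
    intro M t hM ht
    refine Matrix.inv_eq_left_inv ?_
    rw [smul_mul_assoc, mul_smul_comm, smul_smul, inv_mul_cancel₀ ht, one_smul, inv_mul' hM]
  unfold cm
  rw [e hA hc, e hB hc']
  simp only [smul_mul_assoc, mul_smul_comm, smul_smul]
  rw [show c'⁻¹ * (c⁻¹ * (c' * c)) = 1 by field_simp, one_smul]

theorem conj_smul {A : Mat r} (hA : A.det ≠ 0) (M : Mat r) {c : ℂ} (hc : c ≠ 0) :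
    (c • A) * M * (c • A)⁻¹ = A * M * A⁻¹ := by
  have e : (c • A)⁻¹ = c⁻¹ • A⁻¹ := by
    refine Matrix.inv_eq_left_inv ?_
    rw [smul_mul_assoc, mul_smul_comm, smul_smul, inv_mul_cancel₀ hc, one_smul, inv_mul' hA]
  rw [e]
  simp only [smul_mul_assoc, mul_smul_comm, smul_smul]
  rw [inv_mul_cancel₀ hc, one_smul]

theorem prod_conj {T : Mat r} (hT : T.det ≠ 0) (l : List (Mat r)) :
    (l.map fun c => T * c * T⁻¹).prod = T * l.prod * T⁻¹ := by
  induction l with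
  | nil => simp [mul_inv'' hT]
  | cons c l ih =>
    rw [List.map_cons, List.prod_cons, List.prod_cons, ih]
    simp only [mul_assoc, imc hT]

/-- semisimple points with prescribed classes, in terms of matrices -/
def Pts {g s : ℕ} (c : Fin s → Mat r) : Set (Gens g s → Mat r) :=
  {v | (∀ k, (v k).det = 1) ∧ surfW v = 1 ∧
    (∀ j, ∃ h : Mat r, h.det = 1 ∧ v (.inr (.inr j)) = h * c j * h⁻¹) ∧ Semis v}

theorem dense_high (hr : 0 < r) (g s : ℕ) (c : Fin s → Mat r) (hc : ∀ j, (c j).det = 1)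
    (hi : ∀ j z, (c j).charpoly.IsRoot z → IsIntegral ℤ z) :
    ∃ L : IntermediateField ℚ ℂ, FiniteDimensional ℚ L ∧ ∀ v ∈ Pts (g := g + 2) c,
      v ∈ Zc {u | u ∈ Pts (g := g + 2) c ∧ ∀ k, IntSL L (u k)} := by
  haveI : NeZero r := ⟨hr.ne'⟩
  choose h c₁ hh hc₁ ht hch using fun j => tri_rep (c j) (hi j)
  have hh0 : ∀ j, (h j).det ≠ 0 := fun j => by rw [hh j]; exact one_ne_zero
  have hd₁ : ∀ j, (c₁ j).det = 1 := fun j => by
    have := hc j
    rwa [hch j, Matrix.det_conj ((Matrix.isUnit_iff_isUnit_det _).2 (hh0 j).isUnit)] at this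
  have key : ∀ l : List (Mat r), (∀ m ∈ l, IntB m ∧ m.BlockTriangular id ∧ m.det = 1) →
      IntB l.prod ∧ l.prod.BlockTriangular id ∧ l.prod.det = 1 := by
    intro l hl
    induction l with
    | nil => exact ⟨IntB.one, Matrix.blockTriangular_one, Matrix.det_one⟩
    | cons m l ih =>
      obtain ⟨i1, i2, i3⟩ := ih fun m' hm' => hl m' (List.mem_cons_of_mem _ hm')
      obtain ⟨j1, j2, j3⟩ := hl m List.mem_cons_self
      rw [List.prod_cons]
      exact ⟨j1.mul i1, j2.mul i2, by rw [det_mul, j3, i3, one_mul]⟩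
  obtain ⟨e1, e2, e3⟩ := key (List.ofFn c₁) fun m hm => by
    obtain ⟨j, rfl⟩ := (List.mem_ofFn' _ _).1 hm
    exact ⟨hc₁ j, ht j, hd₁ j⟩
  obtain ⟨T, hT, hTi, A, B, hA, hB, hA1, hB1, hRS, hrel⟩ := exists_start e1 e2 e3
  obtain ⟨t, ht0, ht1⟩ := exists_smul_det_one hT
  set c₂ : Fin s → Mat r := fun j => T * c₁ j * T⁻¹ with hc₂
  have hd₂ : ∀ j, (c₂ j).det = 1 := fun j => by
    rw [hc₂]
    simp only
    rw [Matrix.det_conj ((Matrix.isUnit_iff_isUnit_det _).2 hT.isUnit), hd₁ j]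
  have hi₂ : ∀ j, IntB (c₂ j) := fun j => hTi _ (hc₁ j) (ht j)
  obtain ⟨L, hL, hmem⟩ := exists_good hr
    (Set.range (fun q : Fin r × Fin r => A q.1 q.2) ∪ Set.range (fun q : Fin r × Fin r => B q.1 q.2)
      ∪ Set.range (fun q : Fin s × Fin r × Fin r => c₂ q.1 q.2.1 q.2.2))
    (((Set.finite_range _).union (Set.finite_range _)).union (Set.finite_range _)) (by
      rintro z ((⟨q, rfl⟩ | ⟨q, rfl⟩) | ⟨q, rfl⟩)
      exacts [hA _ _, hB _ _, hi₂ _ _ _])
  obtain ⟨σ, ha, hb, H1, H2, H3, hcc, hcc', hσ, hW⟩ := exists_sys g s c₂ hd₂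
  have hSL : ∀ j, IntSL L (c₂ j) := fun j =>
    ⟨fun p q => hmem _ (Or.inr ⟨(j, p, q), rfl⟩), hi₂ j, hd₂ j⟩
  have hgp : ∀ k, Gp L (σ.cc k) := by
    rintro (i | i | j)
    · rw [hcc' _ (H1 i)]; exact Gp.one
    · rw [hcc' _ (H2 i)]; exact Gp.one
    · rw [hcc]; exact (hSL j).gp
  have hv1 : ∀ y i, σ.val y (.inl i) = y (.inl i) := fun y i => σ.val_of_not_mem (H1 i) y
  have hv2 : ∀ y i, σ.val y (.inr (.inl i)) = y (.inr (.inl i)) :=
    fun y i => σ.val_of_not_mem (H2 i) y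
  have hv3 : ∀ y j, σ.val y (.inr (.inr j)) = y (.inr (.inr j)) * c₂ j * (y (.inr (.inr j)))⁻¹ :=
    fun y j => by rw [σ.val_of_mem (H3 j), hcc]
  have hsc : ∀ (y : Gens (g + 2) s → Mat r) (a : Gens (g + 2) s → ℂ), (∀ k, a k ≠ 0) →
      y ∈ UU r _ → σ.rel (fun k => a k • y k) = σ.rel y := by
    intro y a ha hy
    rw [hσ, hσ]
    unfold surfW
    simp only [hv1, hv2, hv3]
    congr 3
    · funext i; exact cm_smul (hy _) (hy _) (ha _) (ha _)
    · funext j; exact conj_smul (hy _) _ (ha _)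
  have hstart : cm A B * σ.W' (fun _ => 1) = 1 := by
    rw [hW, ← hrel, ← prod_conj hT, List.map_ofFn]; rfl
  have hAg : Gp L A := IntSL.gp ⟨fun p q => hmem _ (Or.inl (Or.inl ⟨(p, q), rfl⟩)), hA, hA1⟩
  have hBg : Gp L B := IntSL.gp ⟨fun p q => hmem _ (Or.inl (Or.inr ⟨(p, q), rfl⟩)), hB, hB1⟩
  -- `c j` and `c₂ j` are conjugate in `SL`
  have htT : (t • T).det ≠ 0 := by rw [ht1]; exact one_ne_zero
  have hc₂' : ∀ j, c₂ j = (t • T) * c₁ j * (t • T)⁻¹ := fun j => (conj_smul hT _ ht0).symm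
  have hdi : ∀ {M : Mat r}, M.det = 1 → M⁻¹.det = 1 := fun hM => by
    rw [Matrix.det_nonsing_inv, hM, Ring.inverse_one]
  refine ⟨L, hL.1, fun v hv => ?_⟩
  obtain ⟨v1, v2, v3, v4⟩ := hv
  choose k hk hvk using v3
  let x : Gens (g + 2) s → Mat r := fun i => match i with
    | .inl i => v (.inl i)
    | .inr (.inl i) => v (.inr (.inl i))
    | .inr (.inr j) => k j * h j * (t • T)⁻¹
  have hk0 : ∀ j, (k j).det ≠ 0 := fun j => by rw [hk j]; exact one_ne_zero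
  have hxv : σ.val x = v := by
    funext i
    rcases i with i | i | j
    · exact hv1 x i
    · exact hv2 x i
    · rw [hv3, hvk j, hch j, hc₂' j]
      simp only [x, Matrix.mul_inv_rev, inv_inv' htT, mul_assoc, imc htT]
  have hxd : ∀ i, (x i).det = 1 := by
    rintro (i | i | j)
    · exact v1 _
    · exact v1 _
    · simp only [x, det_mul, hk j, hh j, hdi ht1, one_mul]
  have hx := σ.dense hL hgp hAg hBg hRS hstart hsc hxd (by rw [hσ, hxv]; exact v2)
    (by rw [hxv]; exact v4)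
  rw [← hxv]
  refine Zc.map hx bas_UU (fun i => by rw [hxd i]; exact one_ne_zero) (f := σ.val)
    (RegF.pi fun i => (σ.val_word i).regF σ.cs_det) fun y hy hyU => Zc.subset _ ?_
  obtain ⟨y1, y2, y3⟩ := hy
  have hint : ∀ i, IntSL L (σ.val y i) := by
    rintro (i | i | j)
    · rw [hv1]; exact y1 _
    · rw [hv2]; exact y1 _
    · rw [hv3]; exact ((y1 _).mul (hSL j)).mul (y1 _).inv
  refine ⟨⟨fun i => (hint i).2.2, by rw [← hσ]; exact y2, fun j => ?_, ?_⟩, hint⟩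
  · refine ⟨y (.inr (.inr j)) * (t • T) * (h j)⁻¹, ?_, ?_⟩
    · rw [det_mul, det_mul, (y1 _).2.2, ht1, hdi (hh j), one_mul, one_mul]
    · rw [hv3, hch j, hc₂' j]
      simp only [Matrix.mul_inv_rev, inv_inv' (hh0 j), mul_assoc, imc (hh0 j)]
  · refine Irr.semis (i := σ.a) (j := σ.b) ?_
    rw [σ.val_a, σ.val_b]; exact y3

theorem dense_one (hr : 0 < r) (c : Fin 0 → Mat r) :
    ∃ L : IntermediateField ℚ ℂ, FiniteDimensional ℚ L ∧ ∀ v ∈ Pts (g := 1) c,
      v ∈ Zc {u | u ∈ Pts (g := 1) c ∧ ∀ k, IntSL L (u k)} := by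
  obtain ⟨L, hL, -⟩ := exists_good hr ∅ Set.finite_empty (by simp)
  refine ⟨L, hL.1, fun v hv => ?_⟩
  obtain ⟨v1, v2, -, v4⟩ := hv
  let φ : Mat r × Mat r → Gens 1 0 → Mat r := fun q i => match i with
    | .inl _ => q.1
    | .inr _ => q.2
  have hW : ∀ u : Gens 1 0 → Mat r, surfW u = cm (u (.inl 0)) (u (.inr (.inl 0))) := fun u => by
    simp [surfW]
  have hinv : ∀ (q : Mat r × Mat r) N, Inv (φ q) N ↔ Inv ![q.1, q.2] N := fun q N => by
    constructor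
    · intro h i
      fin_cases i
      exacts [h (.inl 0), h (.inr (.inl 0))]
    · rintro h (i | i)
      exacts [h 0, h 1]
  have hsem : ∀ q : Mat r × Mat r, Semis (φ q) ↔ Semis ![q.1, q.2] := fun q => by
    simp only [Semis, hinv]
  have hv : v = φ (v (.inl 0), v (.inr (.inl 0))) := by
    funext i
    rcases i with i | i | i
    · rw [Subsingleton.elim i 0]
    · rw [Subsingleton.elim i 0]
    · exact i.elim0
  have hcm : ∀ {A B : Mat r}, A.det = 1 → B.det = 1 → (cm A B = 1 ↔ A * B = B * A) := by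
    intro A B hA hB
    have hA0 : A.det ≠ 0 := by rw [hA]; exact one_ne_zero
    have hB0 : B.det ≠ 0 := by rw [hB]; exact one_ne_zero
    constructor
    · intro h
      have : cm A B * (B * A) = A * B := by
        simp only [cm, mul_assoc, imc hB0, inv_mul' hA0, mul_one]
      rw [← this, h, one_mul]
    · intro h
      simp only [cm, h, mul_assoc, mic hA0, mul_inv'' hB0]
  have h1 := genus_one hr hL (v1 (.inl 0)) (v1 (.inr (.inl 0)))
    ((hcm (v1 _) (v1 _)).1 (by rw [← hW]; exact v2)) (by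
      rw [hv] at v4; exact (hsem _).1 v4)
  rw [hv]
  refine Zc.map h1 Bas.univ (Set.mem_univ _) (f := φ) (RegF.pi ?_) fun q hq _ => Zc.subset _ ?_
  · rintro (i | i)
    exacts [RegF.id.fst, RegF.id.snd]
  · obtain ⟨q1, q2, q3, q4⟩ := hq
    have hint : ∀ i, IntSL L (φ q i) := by
      rintro (i | i)
      exacts [q1, q2]
    exact ⟨⟨fun i => (hint i).2.2, by rw [hW]; exact (hcm q1.2.2 q2.2.2).2 q3,
      fun j => j.elim0, (hsem q).2 q4⟩, hint⟩

theorem dense_all (hr : 0 < r) (g s : ℕ) (hg : 2 ≤ g ∨ s = 0) (c : Fin s → Mat r)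
    (hc : ∀ j, (c j).det = 1) (hi : ∀ j z, (c j).charpoly.IsRoot z → IsIntegral ℤ z) :
    ∃ L : IntermediateField ℚ ℂ, FiniteDimensional ℚ L ∧ ∀ v ∈ Pts (g := g) c,
      v ∈ Zc {u | u ∈ Pts (g := g) c ∧ ∀ k, IntSL L (u k)} := by
  rcases g with _ | _ | g
  · obtain rfl : s = 0 := by omega
    refine ⟨⊥, inferInstance, fun v hv => Zc.subset _ ⟨hv, ?_⟩⟩
    rintro (i | i | i) <;> exact i.elim0
  · obtain rfl : s = 0 := by omega
    exact dense_one hr c
  · exact dense_high hr g s c hc hi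

end Vale.Agent.P002
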