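import Vale.Agent.P002.DmAlg
import Vale.Agent.P002.Dense

set_option linter.unusedVariables false

namespace Vale.Agent.P002

open Matrix Filter Topology

variable {r : ℕ} {J : Type} [Finite J] [DecidableEq J] (σ : Sys r J)
  {L : IntermediateField ℚ ℂ}

theorem moves_sm (hL : Good L r) (i j : J)
    (h : ∀ y ∈ UU r J, ∀ t : Mat r, Commute t (y j) → t.det ≠ 0 →
      σ.rel (Function.update y i (y i * t)) = σ.rel y) : SM (Zc (σ.St L)) i j := by
  intro y hy hyU hRS t ht htd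
  refine move_gen hL (S := σ.St L) (C := fun y => y j)
    (m := fun q => Function.update q.1 i (q.1 i * q.2)) bas_UU (RegF.proj j)
    (RegF.id.fst.update i ((RegF.id.fst.apply i).mul RegF.id.snd)) (fun s hs => hs.1 j)
    (fun s hs t h1 h2 => ⟨fun k => ?_, ?_⟩) hy hyU hRS ht htd
  · by_cases hk : k = i
    · subst hk
      simp only [Function.update_self]
      exact (hs.1 k).mul h1
    · simp only [Function.update_of_ne hk]
      exact hs.1 k
  · exact (h s (σ.St_sub hs).1 t h2.commute h1.det_ne).trans hs.2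

/-- `move_gen` four times -/
theorem Sys.moveInv (hL : Good L r) (hcc : ∀ k, Gp L (σ.cc k)) : MoveInv σ (Zc (σ.St L)) := by
  refine ⟨Zc.idem _, fun y hy hyU => ?_, moves_sm σ hL _ _ fun y hy t => σ.rel_ma hy,
    moves_sm σ hL _ _ fun y hy t => σ.rel_mb hy, moves_sm σ hL _ _ fun y hy t => σ.rel_mβ hy,
    fun k hk y hy hyU hRS t ht htd => ?_⟩
  · exact Zc.regF_eq hy bas_UU hyU (σ.rel_word.regF σ.cs_det) (RegF.const 1) fun s hs _ => hs.2
  · refine move_gen hL (S := σ.St L) (C := σ.Ck k) (m := fun q => σ.dm k q.1 q.2) bas_UU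
      ((σ.Ck_word k).regF σ.cs_det) (σ.regF_dm k) (fun s hs => ?_)
      (fun s hs t h1 h2 => ⟨σ.gp_dm hcc k hs.1 h1, ?_⟩) hy hyU hRS ht htd
    · exact (σ.Ck_word k).gp (by rintro _ ⟨j, rfl⟩; exact hcc j) fun j _ => hs.1 j
    · exact σ.rel_dm hk (σ.St_sub hs) h2.commute h1.det_ne

theorem moves_cm {g A B : Mat r} (hg : g.det ≠ 0) :
    cm (g * A * g⁻¹) (g * B * g⁻¹) = g * cm A B * g⁻¹ := by
  unfold cm
  simp only [Matrix.mul_inv_rev, inv_inv' hg, mul_assoc, imc hg]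

/-- Hint: `(g, B) ↦ σ.fam (σ.cj g y₀) (g * A₀ * g⁻¹) (g * B₀ * g⁻¹) B` is regular on pairs of
invertible matrices and maps `Gp × Gp` into `σ.St L` (`rel_fam`, `W'_cj`); `gp_dense`, `Zc.prod`,
`Zc.map`; take `g = P⁻¹` where `A₀ = P * diagonal d * P⁻¹`. -/
theorem Sys.base (hL : Good L r) {A₀ B₀ : Mat r} (hA : Gp L A₀) (hB : Gp L B₀) (hRS : RS A₀)
    {y₀ : J → Mat r} (hy : ∀ k, Gp L (y₀ k)) (h : cm A₀ B₀ * σ.W' y₀ = 1) :
    ∃ (d : Fin r → ℂ) (γ : Mat r) (y₁ : J → Mat r), Function.Injective d ∧ (∀ i, d i ≠ 0) ∧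
      γ.det ≠ 0 ∧ y₁ ∈ UU r J ∧
      ∀ B : Mat r, B.det ≠ 0 → σ.fam y₁ (diagonal d) γ B ∈ Zc (σ.St L) := by
  obtain ⟨P, d, hP, hd, e⟩ := hRS
  have hPi := det_inv_ne hP
  have key : ∀ g B : Mat r, g.det ≠ 0 → B.det ≠ 0 →
      σ.fam (σ.cj g y₀) (g * A₀ * g⁻¹) (g * B₀ * g⁻¹) B ∈ Zc (σ.St L) := fun g B hg hB' => by
    have hU : Bas {q : Mat r × Mat r | q.1.det ≠ 0 ∧ q.2.det ≠ 0} :=
      ((Bas.univ.of_reg RegF.id.fst.det).of_reg RegF.id.snd.det).congr fun q => by simp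
    have hc : ∀ M : Mat r, RegF {q : Mat r × Mat r | q.1.det ≠ 0 ∧ q.2.det ≠ 0}
        fun q => q.1 * M * q.1⁻¹ := fun M =>
      (RegF.id.fst.mul (RegF.const M)).mul (RegF.id.fst.inv fun q hq => hq.1)
    have hc0 : ∀ q ∈ {q : Mat r × Mat r | q.1.det ≠ 0 ∧ q.2.det ≠ 0},
        (q.1 * B₀ * q.1⁻¹).det ≠ 0 := fun q hq =>
      det_mul_ne (det_mul_ne hq.1 hB.det_ne) (det_inv_ne hq.1)
    refine Zc.map (Zc.prod (gp_dense hL g) (gp_dense hL B)) hU ⟨hg, hB'⟩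
      (f := fun q => σ.fam (σ.cj q.1 y₀) (q.1 * A₀ * q.1⁻¹) (q.1 * B₀ * q.1⁻¹) q.2)
      (RegF.pi fun k => ?_) fun q hq hqU => Zc.subset _ ⟨fun k => ?_, ?_⟩
    · unfold Sys.fam Sys.cj
      split_ifs
      · exact hc A₀
      · exact RegF.id.snd
      · exact RegF.id.snd.mul ((hc B₀).inv hc0)
      · exact ((hc B₀).mul (hc A₀)).mul ((hc B₀).inv hc0)
      · exact RegF.id.fst.mul (RegF.const _)
      · exact hc _
    · have h1 : Gp L q.1 := hq.1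
      have h2 : Gp L q.2 := hq.2
      have h3 : ∀ M, Gp L M → Gp L (q.1 * M * q.1⁻¹) := fun M hM => (h1.mul hM).mul h1.inv
      unfold Sys.fam Sys.cj
      split_ifs
      · exact h3 _ hA
      · exact h2
      · exact h2.mul (h3 _ hB).inv
      · exact ((h3 _ hB).mul (h3 _ hA)).mul (h3 _ hB).inv
      · exact h1.mul (hy k)
      · exact h3 _ (hy k)
    · rw [σ.rel_fam _ (det_mul_ne (det_mul_ne hqU.1 hA.det_ne) (det_inv_ne hqU.1)) (hc0 q hqU)
        hqU.2, σ.W'_cj hqU.1, moves_cm hqU.1]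
      simp only [mul_assoc, imc hqU.1]
      rw [← mul_assoc (cm A₀ B₀), h, one_mul, mul_inv'' hqU.1]
  have hdiag : P⁻¹ * A₀ * P⁻¹⁻¹ = diagonal d := by
    rw [e]
    simp only [inv_inv' hP, mul_assoc, imc hP, inv_mul' hP, mul_one]
  have hdet : (diagonal d).det ≠ 0 := by
    rw [← hdiag]
    exact det_mul_ne (det_mul_ne hPi hA.det_ne) (det_inv_ne hPi)
  refine ⟨d, P⁻¹ * B₀ * P⁻¹⁻¹, σ.cj P⁻¹ y₀, hd, fun i => ?_,
    det_mul_ne (det_mul_ne hPi hB.det_ne) (det_inv_ne hPi), fun k => ?_, fun B hB' => ?_⟩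
  · rw [det_diagonal] at hdet
    exact Finset.prod_ne_zero_iff.1 hdet i (Finset.mem_univ i)
  · unfold Sys.cj
    split_ifs
    · exact det_mul_ne hPi (hy k).det_ne
    · exact det_mul_ne (det_mul_ne hPi (hy k).det_ne) (det_inv_ne hPi)
  · rw [← hdiag]
    exact key _ B hPi hB'

end Vale.Agent.P002
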