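import Vale.Agent.P002.Gp

namespace Vale.Agent.P002

open Matrix Filter Topology

variable {r : ℕ}

theorem powint_den (L : IntermediateField ℚ ℂ) [FiniteDimensional ℚ L] (s : Finset ℂ)
    (h : ∀ z ∈ s, z ∈ L) : ∃ D : ℤ, D ≠ 0 ∧ ∀ z ∈ s, IsIntegral ℤ (D • z) := by
  classical
  induction s using Finset.induction_on with
  | empty => exact ⟨1, one_ne_zero, by simp⟩
  | insert a s _ ih =>
    obtain ⟨D, hD, H⟩ := ih fun z hz => h z (Finset.mem_insert_of_mem hz)
    have h1 : IsAlgebraic ℚ a :=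
      (IsAlgebraic.of_finite ℚ (⟨a, h a (Finset.mem_insert_self _ _)⟩ : L)).algHom L.val
    obtain ⟨e, he, H'⟩ := ((IsFractionRing.isAlgebraic_iff ℤ ℚ ℂ).2 h1).exists_integral_multiple
    refine ⟨D * e, mul_ne_zero hD he, fun z hz => ?_⟩
    rcases Finset.mem_insert.1 hz with rfl | hz
    · rw [mul_smul]
      exact H'.smul D
    · rw [mul_comm, mul_smul]
      exact (H z hz).smul e

theorem powint_det (L : IntermediateField ℚ ℂ) {t : Mat r} (hL : ∀ i j, t i j ∈ L) :
    t.det ∈ L := by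
  rw [Matrix.det_apply]
  exact sum_mem fun σ _ => zsmul_mem (prod_mem fun i _ => hL _ _) _

theorem powint_inv (L : IntermediateField ℚ ℂ) {t : Mat r} (hL : ∀ i j, t i j ∈ L) (i j : Fin r) :
    t⁻¹ i j ∈ L := by
  rw [Matrix.inv_def, Ring.inverse_eq_inv', Matrix.smul_apply, smul_eq_mul, Matrix.adjugate_apply]
  refine mul_mem (inv_mem (powint_det L hL)) (powint_det L fun a b => ?_)
  rw [Matrix.updateRow_apply]
  split_ifs
  · rw [Pi.single_apply]
    split_ifs
    · exact one_mem _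
    · exact zero_mem _
  · exact hL _ _

theorem powint_unif (L : IntermediateField ℚ ℂ) [FiniteDimensional ℚ L] (Λ : Submodule ℤ (Mat r))
    (hΛ : Λ.FG) (h : ∀ x ∈ Λ, ∀ i j, x i j ∈ L) : ∃ D : ℤ, D ≠ 0 ∧ ∀ x ∈ Λ, IntB (D • x) := by
  classical
  obtain ⟨g, rfl⟩ := hΛ
  obtain ⟨D, hD, H⟩ := powint_den L
    ((g ×ˢ (Finset.univ : Finset (Fin r × Fin r))).image fun p => p.1 p.2.1 p.2.2) fun z hz => by
      obtain ⟨p, hp, rfl⟩ := Finset.mem_image.1 hz
      exact h _ (Submodule.subset_span (Finset.mem_product.1 hp).1) _ _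
  refine ⟨D, hD, fun x hx => ?_⟩
  induction hx using Submodule.span_induction with
  | mem x hx =>
    exact fun i j => H _ (Finset.mem_image.2
      ⟨(x, i, j), Finset.mem_product.2 ⟨hx, Finset.mem_univ _⟩, rfl⟩)
  | zero => exact fun i j => by simpa using isIntegral_zero
  | add x y _ _ hx hy =>
    intro i j
    rw [smul_add]
    exact (hx i j).add (hy i j)
  | smul a x _ hx =>
    intro i j
    rw [smul_comm]
    exact (hx i j).smul a

/-- Hint: the `ℤ`-submodule `Λ` spanned by all `t ^ i * t⁻¹ ^ j` is finitely generated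
(`IsIntegral.fg_adjoin_singleton`, `Submodule.FG.mul`) and stable under multiplication with `t`
and `t⁻¹`; its elements have entries in `L`, so `D • Λ` has integral entries for an integer
`D ≠ 0` (`IsAlgebraic.exists_integral_multiple`). `Λ / D Λ` is finite, so `t ^ a - t ^ b ∈ D • Λ`
for some `a > b`; multiply with `t⁻¹ ^ b` and with `t⁻¹ ^ a`. -/
theorem exists_pow_int (L : IntermediateField ℚ ℂ) [FiniteDimensional ℚ L] (t : Mat r)
    (ht : t.det ≠ 0) (hL : ∀ i j, t i j ∈ L) (h1 : IsIntegral ℤ t) (h2 : IsIntegral ℤ t⁻¹) :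
    ∃ N : ℕ, 0 < N ∧ IntB (t ^ N) ∧ IntB (t⁻¹ ^ N) := by
  have hts : t * t⁻¹ = 1 := Matrix.mul_nonsing_inv t (Ne.isUnit ht)
  have hst : t⁻¹ * t = 1 := Matrix.nonsing_inv_mul t (Ne.isUnit ht)
  have hL' := powint_inv L hL
  generalize t⁻¹ = s at *
  have hc : Commute s t := hst.trans hts.symm
  set Λ : Submodule ℤ (Mat r) := Subalgebra.toSubmodule (Algebra.adjoin ℤ {t}) *
    Subalgebra.toSubmodule (Algebra.adjoin ℤ {s}) with hΛ
  have hfg : Λ.FG := h1.fg_adjoin_singleton.mul h2.fg_adjoin_singleton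
  let S : Subalgebra ℤ (Mat r) := (subalgebraOfSubring L.toSubfield.toSubring).matrix
  have hS : ∀ x ∈ Λ, x ∈ S := fun x hx =>
    Submodule.mul_induction_on hx
      (fun a ha b hb => S.mul_mem
        (Algebra.adjoin_le (S := S) (Set.singleton_subset_iff.2 hL) ha)
        (Algebra.adjoin_le (S := S) (Set.singleton_subset_iff.2 hL') hb))
      fun a b ha hb => S.add_mem ha hb
  obtain ⟨D, hD, HD⟩ := powint_unif L Λ hfg fun x hx => hS x hx
  have hs : ∀ x ∈ Λ, s * x ∈ Λ := fun x hx =>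
    Submodule.mul_induction_on hx
      (fun a ha b hb => by
        rw [← mul_assoc, (Algebra.commute_of_mem_adjoin_singleton_of_commute ha hc).eq, mul_assoc]
        exact Submodule.mul_mem_mul ha
          (Subalgebra.mul_mem _ (Algebra.self_mem_adjoin_singleton ℤ s) hb))
      fun a b ha hb => by rw [mul_add]; exact Λ.add_mem ha hb
  have hsp : ∀ (k : ℕ), ∀ x ∈ Λ, s ^ k * x ∈ Λ := fun k x hx => by
    induction k with
    | zero => rwa [pow_zero, one_mul]
    | succ k ih => rw [pow_succ', mul_assoc]; exact hs _ ih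
  have htp : ∀ k : ℕ, t ^ k ∈ Λ := fun k => by
    rw [← mul_one (t ^ k)]
    exact Submodule.mul_mem_mul (Subalgebra.pow_mem _ (Algebra.self_mem_adjoin_singleton ℤ t) k)
      (Subalgebra.one_mem _)
  have : Module.Finite ℤ Λ := Module.Finite.iff_fg.2 hfg
  let P : Submodule ℤ Λ := LinearMap.range (LinearMap.lsmul ℤ Λ D)
  have : Finite (Λ ⧸ P) := Module.finite_of_fg_torsion _ fun x => by
    obtain ⟨y, rfl⟩ := P.mkQ_surjective x
    refine ⟨⟨D, mem_nonZeroDivisors_of_ne_zero hD⟩, ?_⟩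
    show D • P.mkQ y = 0
    rw [← map_smul, Submodule.mkQ_apply, Submodule.Quotient.mk_eq_zero]
    exact ⟨y, rfl⟩
  have key : ∀ a b : ℕ, a < b → P.mkQ ⟨t ^ a, htp a⟩ = P.mkQ ⟨t ^ b, htp b⟩ →
      ∃ N : ℕ, 0 < N ∧ IntB (t ^ N) ∧ IntB (s ^ N) := by
    intro a b hab e
    obtain ⟨N, rfl⟩ := Nat.exists_eq_add_of_lt hab
    obtain ⟨y, hy⟩ := (Submodule.Quotient.eq P).1 e
    have hy' : D • (y : Mat r) = t ^ a - t ^ (a + N + 1) := congrArg Subtype.val hy
    have e1 : ∀ k : ℕ, s ^ k * t ^ k = 1 := fun k => by rw [← hc.mul_pow, hst, one_pow]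
    have e2 : t ^ (N + 1) = 1 - D • (s ^ a * y) := by
      rw [← mul_smul_comm, hy', mul_sub, e1, add_assoc, pow_add t a, ← mul_assoc, e1, one_mul,
        sub_sub_cancel]
    have e3 : s ^ (N + 1) = 1 + D • (s ^ (a + N + 1) * y) := by
      rw [← mul_smul_comm, hy', mul_sub, e1, add_assoc, add_comm a, pow_add s (N + 1) a, mul_assoc,
        e1, mul_one, add_sub_cancel]
    refine ⟨N + 1, Nat.succ_pos _, fun i j => ?_, fun i j => ?_⟩
    · rw [e2]
      exact (IntB.one i j).sub (HD _ (hsp a _ y.2) i j)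
    · rw [e3]
      exact (IntB.one i j).add (HD _ (hsp _ _ y.2) i j)
  obtain ⟨a, b, hab, e⟩ := Finite.exists_ne_map_eq_of_infinite
    fun k : ℕ => P.mkQ ⟨t ^ k, htp k⟩
  rcases lt_or_gt_of_ne hab with h | h
  · exact key a b h e
  · exact key b a h e.symm

/-- Independence of characters. Hint: `IsPoly.exists_mv`; distinct monomials restrict to distinct
monoid homomorphisms from the submonoid `Γ` to `ℂ`; `linearIndependent_monoidHom`. -/
theorem dense_of_chars {ι : Type} [Fintype ι] (Γ : Set (ι → ℂ)) (h1 : (fun _ => 1) ∈ Γ)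
    (hmul : ∀ u ∈ Γ, ∀ v ∈ Γ, u * v ∈ Γ) (h0 : ∀ u ∈ Γ, ∀ i, u i ≠ 0)
    (h : ∀ m : ι → ℤ, m ≠ 0 → ∃ u ∈ Γ, ∏ i, u i ^ m i ≠ 1) (x : ι → ℂ) : x ∈ Zc Γ := by
  intro P hP hz
  obtain ⟨q, hq⟩ := hP.exists_mv
  let G : Submonoid (ι → ℂ) := ⟨⟨Γ, fun {a b} ha hb => hmul a ha b hb⟩, h1⟩
  let χ : (ι →₀ ℕ) → (G →* ℂ) := fun d =>
    { toFun := fun u => ∏ i, u.1 i ^ d i
      map_one' := by simp
      map_mul' := fun u v => by simp [mul_pow, Finset.prod_mul_distrib] }
  have hχ : Function.Injective χ := by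
    intro d d' e
    by_contra hne
    obtain ⟨u, hu, hu'⟩ := h (fun i => (d i : ℤ) - d' i) fun e0 => hne (Finsupp.ext fun i => by
      have := congrFun e0 i
      simp only [Pi.zero_apply] at this
      omega)
    have e1 : ∏ i, u i ^ d i = ∏ i, u i ^ d' i := DFunLike.congr_fun e ⟨u, hu⟩
    refine hu' ?_
    rw [Finset.prod_congr rfl fun i _ => zpow_sub₀ (h0 u hu i) (d i : ℤ) (d' i),
      Finset.prod_div_distrib]
    simp only [zpow_natCast]
    rw [e1]
    exact div_self (Finset.prod_ne_zero_iff.2 fun i _ => pow_ne_zero _ (h0 u hu i))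
  have hli := (linearIndependent_monoidHom G ℂ).comp χ hχ
  have hq0 : q = 0 := by
    have := linearIndependent_iff'.1 hli q.support (fun d => q.coeff d) (funext fun u => by
      have e := hz u.1 u.2
      rw [hq, MvPolynomial.eval_eq'] at e
      rw [Finset.sum_apply]
      exact e)
    ext d
    by_contra hd
    exact hd (this d (MvPolynomial.mem_support_iff.2 hd))
  rw [hq, hq0, map_zero]

end Vale.Agent.P002
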