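import Vale.Agent.P002.Defs

/-! Polynomial and regular functions, generic properties, Zariski closure. -/

set_option linter.unusedVariables false

namespace Vale.Agent.P002

open Matrix Filter Topology

section Alg

variable {E F G : Type} [AddCommGroup E] [Module ℂ E] [AddCommGroup F] [Module ℂ F]
  [AddCommGroup G] [Module ℂ G]

namespace IsPoly

variable {P Q : E → ℂ}

theorem congr (h : IsPoly P) (e : ∀ x, Q x = P x) : IsPoly Q := by
  rw [show Q = P from funext e]; exact h

theorem smul (c : ℂ) (h : IsPoly P) : IsPoly fun x => c * P x := (const c).mul h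

theorem neg (h : IsPoly P) : IsPoly fun x => -P x := (h.smul (-1)).congr fun x => by ring

theorem sub (h : IsPoly P) (h' : IsPoly Q) : IsPoly fun x => P x - Q x :=
  (h.add h'.neg).congr fun x => by ring

theorem sum {ι : Type} (s : Finset ι) {f : ι → E → ℂ} (h : ∀ i ∈ s, IsPoly (f i)) :
    IsPoly fun x => ∑ i ∈ s, f i x := by
  classical
  induction s using Finset.induction_on with
  | empty => exact (const 0).congr fun x => by simp
  | insert a s ha ih =>
    exact ((h a (Finset.mem_insert_self _ _)).add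
      (ih fun i hi => h i (Finset.mem_insert_of_mem hi))).congr fun x => by
        rw [Finset.sum_insert ha]

theorem prod {ι : Type} (s : Finset ι) {f : ι → E → ℂ} (h : ∀ i ∈ s, IsPoly (f i)) :
    IsPoly fun x => ∏ i ∈ s, f i x := by
  classical
  induction s using Finset.induction_on with
  | empty => exact (const 1).congr fun x => by simp
  | insert a s ha ih =>
    exact ((h a (Finset.mem_insert_self _ _)).mul
      (ih fun i hi => h i (Finset.mem_insert_of_mem hi))).congr fun x => by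
        rw [Finset.prod_insert ha]

theorem pow (h : IsPoly P) (n : ℕ) : IsPoly fun x => P x ^ n := by
  induction n with
  | zero => exact (const 1).congr fun x => by simp
  | succ n ih => exact (ih.mul h).congr fun x => by rw [pow_succ]

/-- restriction to a line -/
theorem line (h : IsPoly P) (x v : E) :
    ∃ q : Polynomial ℂ, ∀ t : ℂ, P (x + t • v) = q.eval t := by
  induction h with
  | const c => exact ⟨Polynomial.C c, fun t => by simp⟩
  | lin l => exact ⟨Polynomial.C (l x) + Polynomial.X * Polynomial.C (l v), fun t => by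
      simp only [map_add, map_smul, smul_eq_mul, Polynomial.eval_add, Polynomial.eval_mul,
        Polynomial.eval_C, Polynomial.eval_X]⟩
  | add _ _ h1 h2 =>
    obtain ⟨q1, e1⟩ := h1
    obtain ⟨q2, e2⟩ := h2
    exact ⟨q1 + q2, fun t => by simp [e1, e2]⟩
  | mul _ _ h1 h2 =>
    obtain ⟨q1, e1⟩ := h1
    obtain ⟨q2, e2⟩ := h2
    exact ⟨q1 * q2, fun t => by simp [e1, e2]⟩

/-- a polynomial that vanishes at infinitely many points of a line vanishes on the line -/
theorem line_zero (h : IsPoly P) (x v : E) (T : Set ℂ) (hT : T.Infinite)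
    (h0 : ∀ t ∈ T, P (x + t • v) = 0) (t : ℂ) : P (x + t • v) = 0 := by
  obtain ⟨q, hq⟩ := h.line x v
  have : q = 0 := Polynomial.eq_zero_of_infinite_isRoot q
    (hT.mono fun t ht => by simpa [hq] using h0 t ht)
  rw [hq, this, Polynomial.eval_zero]

theorem mul_ne (h : IsPoly P) (h' : IsPoly Q) (hP : ∃ x, P x ≠ 0) (hQ : ∃ x, Q x ≠ 0) :
    ∃ x, P x ≠ 0 ∧ Q x ≠ 0 := by
  obtain ⟨x, hx⟩ := hP
  obtain ⟨y, hy⟩ := hQ
  obtain ⟨p, hp⟩ := h.line x (y - x)
  obtain ⟨q, hq⟩ := h'.line x (y - x)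
  have hp0 : p ≠ 0 := by
    rintro rfl
    exact hx (by simpa using hp 0)
  have hq0 : q ≠ 0 := by
    rintro rfl
    exact hy (by simpa using hq 1)
  obtain ⟨t, ht⟩ : ∃ t, (p * q).eval t ≠ 0 := by
    by_contra hc
    push Not at hc
    exact mul_ne_zero hp0 hq0 (Polynomial.funext fun t => by simpa using hc t)
  rw [Polynomial.eval_mul] at ht
  exact ⟨x + t • (y - x), by rw [hp]; exact left_ne_zero_of_mul ht,
    by rw [hq]; exact right_ne_zero_of_mul ht⟩

theorem reg (h : IsPoly P) (U : Set E) : Reg U P :=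
  ⟨P, fun _ => 1, h, const 1, fun x _ => ⟨one_ne_zero, mul_one _⟩⟩

theorem exists_mv {ι : Type} [Finite ι] {P : (ι → ℂ) → ℂ} (h : IsPoly P) :
    ∃ q : MvPolynomial ι ℂ, ∀ x, P x = MvPolynomial.eval x q := by
  classical
  have := Fintype.ofFinite ι
  induction h with
  | const c => exact ⟨MvPolynomial.C c, fun x => by simp⟩
  | lin l =>
    refine ⟨∑ i, MvPolynomial.C (l fun j => if i = j then 1 else 0) * MvPolynomial.X i,
      fun x => ?_⟩
    beta_reduce
    rw [LinearMap.pi_apply_eq_sum_univ l x]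
    simp [mul_comm]
  | add _ _ h1 h2 =>
    obtain ⟨q1, e1⟩ := h1
    obtain ⟨q2, e2⟩ := h2
    exact ⟨q1 + q2, fun t => by simp [e1, e2]⟩
  | mul _ _ h1 h2 =>
    obtain ⟨q1, e1⟩ := h1
    obtain ⟨q2, e2⟩ := h2
    exact ⟨q1 * q2, fun t => by simp [e1, e2]⟩

end IsPoly

namespace Reg

variable {U V : Set E} {φ ψ : E → ℂ}

theorem const (c : ℂ) : Reg U fun _ => c := (IsPoly.const c).reg U

theorem lin (l : E →ₗ[ℂ] ℂ) : Reg U fun x => l x := (IsPoly.lin l).reg U

theorem congr (h : Reg U φ) (e : ∀ x ∈ U, ψ x = φ x) : Reg U ψ := by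
  obtain ⟨P, Q, hP, hQ, h⟩ := h
  exact ⟨P, Q, hP, hQ, fun x hx => by rw [e x hx]; exact h x hx⟩

theorem mono (h : Reg U φ) (hV : V ⊆ U) : Reg V φ := by
  obtain ⟨P, Q, hP, hQ, h⟩ := h
  exact ⟨P, Q, hP, hQ, fun x hx => h x (hV hx)⟩

theorem add (h : Reg U φ) (h' : Reg U ψ) : Reg U fun x => φ x + ψ x := by
  obtain ⟨P, Q, hP, hQ, h⟩ := h
  obtain ⟨P', Q', hP', hQ', h'⟩ := h'
  refine ⟨fun x => P x * Q' x + P' x * Q x, fun x => Q x * Q' x, (hP.mul hQ').add (hP'.mul hQ),
    hQ.mul hQ', fun x hx => ⟨mul_ne_zero (h x hx).1 (h' x hx).1, ?_⟩⟩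
  beta_reduce
  rw [← (h x hx).2, ← (h' x hx).2]; ring

theorem mul (h : Reg U φ) (h' : Reg U ψ) : Reg U fun x => φ x * ψ x := by
  obtain ⟨P, Q, hP, hQ, h⟩ := h
  obtain ⟨P', Q', hP', hQ', h'⟩ := h'
  refine ⟨fun x => P x * P' x, fun x => Q x * Q' x, hP.mul hP',
    hQ.mul hQ', fun x hx => ⟨mul_ne_zero (h x hx).1 (h' x hx).1, ?_⟩⟩
  beta_reduce
  rw [← (h x hx).2, ← (h' x hx).2]; ring

theorem neg (h : Reg U φ) : Reg U fun x => -φ x :=
  ((const (-1)).mul h).congr fun x _ => by ring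

theorem sub (h : Reg U φ) (h' : Reg U ψ) : Reg U fun x => φ x - ψ x :=
  (h.add h'.neg).congr fun x _ => by ring

theorem inv (h : Reg U φ) (h0 : ∀ x ∈ U, φ x ≠ 0) : Reg U fun x => (φ x)⁻¹ := by
  obtain ⟨P, Q, hP, hQ, h⟩ := h
  refine ⟨Q, P, hQ, hP, fun x hx => ⟨?_, ?_⟩⟩
  · rw [← (h x hx).2]; exact mul_ne_zero (h0 x hx) (h x hx).1
  · rw [← (h x hx).2, ← mul_assoc, inv_mul_cancel₀ (h0 x hx), one_mul]

theorem sum {ι : Type} (s : Finset ι) {f : ι → E → ℂ} (h : ∀ i ∈ s, Reg U (f i)) :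
    Reg U fun x => ∑ i ∈ s, f i x := by
  classical
  induction s using Finset.induction_on with
  | empty => exact (const 0).congr fun x _ => by simp
  | insert a s ha ih =>
    exact ((h a (Finset.mem_insert_self _ _)).add
      (ih fun i hi => h i (Finset.mem_insert_of_mem hi))).congr fun x _ => by
        rw [Finset.sum_insert ha]

theorem prod {ι : Type} (s : Finset ι) {f : ι → E → ℂ} (h : ∀ i ∈ s, Reg U (f i)) :
    Reg U fun x => ∏ i ∈ s, f i x := by
  classical
  induction s using Finset.induction_on with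
  | empty => exact (const 1).congr fun x _ => by simp
  | insert a s ha ih =>
    exact ((h a (Finset.mem_insert_self _ _)).mul
      (ih fun i hi => h i (Finset.mem_insert_of_mem hi))).congr fun x _ => by
        rw [Finset.prod_insert ha]

theorem pow (h : Reg U φ) (n : ℕ) : Reg U fun x => φ x ^ n := by
  induction n with
  | zero => exact (const 1).congr fun x _ => by simp
  | succ n ih => exact (ih.mul h).congr fun x _ => by rw [pow_succ]

theorem regF (h : Reg U φ) : RegF U φ := fun l =>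
  (h.mul (const (l 1))).congr fun x _ => by
    rw [← smul_eq_mul, ← map_smul, smul_eq_mul, mul_one]

theorem mv {ι : Type} (q : MvPolynomial ι ℂ) {f : E → ι → ℂ} (h : ∀ i, Reg U fun x => f x i) :
    Reg U fun x => MvPolynomial.eval (f x) q := by
  induction q using MvPolynomial.induction_on with
  | C c => exact (const c).congr fun x _ => by simp
  | add p q hp hq => exact (hp.add hq).congr fun x _ => by simp
  | mul_X p i hp => exact (hp.mul (h i)).congr fun x _ => by simp

end Reg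

theorem IsPoly.comp {P : F → ℂ} (h : IsPoly P) {U : Set E} {f : E → F} (hf : RegF U f) :
    Reg U fun x => P (f x) := by
  induction h with
  | const c => exact Reg.const c
  | lin l => exact hf l
  | add _ _ h1 h2 => exact h1.add h2
  | mul _ _ h1 h2 => exact h1.mul h2

theorem Reg.comp {V : Set F} {φ : F → ℂ} (h : Reg V φ) {U : Set E} {f : E → F} (hf : RegF U f)
    (hUV : ∀ x ∈ U, f x ∈ V) : Reg U fun x => φ (f x) := by
  obtain ⟨P, Q, hP, hQ, h⟩ := h
  refine ((hP.comp hf).mul ((hQ.comp hf).inv fun x hx => (h _ (hUV x hx)).1)).congr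
    fun x hx => ?_
  rw [← (h _ (hUV x hx)).2, mul_inv_cancel_right₀ (h _ (hUV x hx)).1]

namespace RegF

variable {U V : Set E} {f g : E → F}

theorem reg {φ : E → ℂ} (h : RegF U φ) : Reg U φ := h LinearMap.id

theorem const (c : F) : RegF U fun _ => c := fun l => Reg.const (l c)

theorem lin (m : E →ₗ[ℂ] F) : RegF U fun x => m x := fun l => Reg.lin (l.comp m)

theorem id : RegF U fun x => x := fun l => Reg.lin l

theorem congr (h : RegF U f) (e : ∀ x ∈ U, g x = f x) : RegF U g :=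
  fun l => (h l).congr fun x hx => by rw [e x hx]

theorem mono (h : RegF U f) (hV : V ⊆ U) : RegF V f := fun l => (h l).mono hV

theorem map (h : RegF U f) (m : F →ₗ[ℂ] G) : RegF U fun x => m (f x) := fun l => h (l.comp m)

theorem add (h : RegF U f) (h' : RegF U g) : RegF U fun x => f x + g x :=
  fun l => ((h l).add (h' l)).congr fun x _ => by rw [map_add]

theorem neg (h : RegF U f) : RegF U fun x => -f x :=
  fun l => (h l).neg.congr fun x _ => by rw [map_neg]

theorem sub (h : RegF U f) (h' : RegF U g) : RegF U fun x => f x - g x :=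
  fun l => ((h l).sub (h' l)).congr fun x _ => by rw [map_sub]

theorem smul {φ : E → ℂ} (hφ : Reg U φ) (h : RegF U f) : RegF U fun x => φ x • f x :=
  fun l => (hφ.mul (h l)).congr fun x _ => by rw [map_smul, smul_eq_mul]

theorem sum {ι : Type} (s : Finset ι) {f : ι → E → F} (h : ∀ i ∈ s, RegF U (f i)) :
    RegF U fun x => ∑ i ∈ s, f i x :=
  fun l => (Reg.sum s fun i hi => h i hi l).congr fun x _ => by rw [map_sum]

theorem comp {W : Set F} {k : F → G} (h : RegF W k) (hf : RegF U f) (hUV : ∀ x ∈ U, f x ∈ W) :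
    RegF U fun x => k (f x) := fun l => (h l).comp hf hUV

theorem prodMk {k : E → G} (h : RegF U f) (h' : RegF U k) : RegF U fun x => (f x, k x) :=
  ((h.map (LinearMap.inl ℂ F G)).add (h'.map (LinearMap.inr ℂ F G))).congr fun x _ => by simp

theorem fst {k : E → F × G} (h : RegF U k) : RegF U fun x => (k x).1 :=
  h.map (LinearMap.fst ℂ F G)

theorem snd {k : E → F × G} (h : RegF U k) : RegF U fun x => (k x).2 :=
  h.map (LinearMap.snd ℂ F G)

theorem pi {ι : Type} [Finite ι] {k : E → ι → F} (h : ∀ i, RegF U fun x => k x i) :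
    RegF U k := by
  classical
  have := Fintype.ofFinite ι
  refine (RegF.sum Finset.univ fun i _ =>
    (h i).map (LinearMap.single ℂ (fun _ : ι => F) i)).congr fun x _ => ?_
  simp [Finset.univ_sum_single]

theorem apply {ι : Type} {k : E → ι → F} (h : RegF U k) (i : ι) : RegF U fun x => k x i :=
  h.map (LinearMap.proj i)

theorem proj {ι : Type} {U : Set (ι → F)} (i : ι) : RegF U fun x => x i :=
  RegF.id.apply i

theorem update {ι : Type} [Finite ι] [DecidableEq ι] {k : E → ι → F} (h : RegF U k) (i : ι)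
    (hf : RegF U f) : RegF U fun x => Function.update (k x) i (f x) := by
  refine RegF.pi fun j => ?_
  by_cases hj : j = i
  · subst hj
    exact hf.congr fun x _ => by simp
  · exact (h.apply j).congr fun x _ => by rw [Function.update_of_ne hj]

section Matrix

variable {m n p : Type}

theorem entry {M : E → Matrix m n ℂ} (h : RegF U M) (i : m) (j : n) : Reg U fun x => M x i j :=
  h (Matrix.entryLinearMap ℂ ℂ i j)

theorem of_entries [Finite m] [Finite n] {M : E → Matrix m n ℂ}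
    (h : ∀ i j, Reg U fun x => M x i j) : RegF U M :=
  RegF.pi (F := n → ℂ) (k := fun x => M x) fun i => RegF.pi fun j => (h i j).regF

theorem mul [Finite m] [Fintype n] [Finite p] {M : E → Matrix m n ℂ} {N : E → Matrix n p ℂ}
    (h : RegF U M) (h' : RegF U N) : RegF U fun x => M x * N x :=
  of_entries fun i j => (Reg.sum Finset.univ fun k _ => (h.entry i k).mul (h'.entry k j)).congr
    fun x _ => by rw [Matrix.mul_apply]

theorem mulVec [Finite m] [Fintype n] {M : E → Matrix m n ℂ} {v : E → n → ℂ}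
    (h : RegF U M) (h' : RegF U v) : RegF U fun x => M x *ᵥ v x :=
  RegF.pi fun i => ((Reg.sum Finset.univ fun k _ =>
    (h.entry i k).mul (h'.apply k).reg).congr fun x _ => rfl).regF

theorem vecMulVec [Finite m] [Finite n] {u : E → m → ℂ} {v : E → n → ℂ}
    (h : RegF U u) (h' : RegF U v) : RegF U fun x => Matrix.vecMulVec (u x) (v x) :=
  of_entries fun i j => ((h.apply i).reg.mul (h'.apply j).reg).congr fun x _ => by
    rw [Matrix.vecMulVec_apply]

variable [Fintype n] [DecidableEq n] {M : E → Matrix n n ℂ}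

theorem det (h : RegF U M) : Reg U fun x => (M x).det :=
  (Reg.sum Finset.univ fun (σ : Equiv.Perm n) _ =>
    (Reg.const ((Equiv.Perm.sign σ : ℤ) : ℂ)).mul
      (Reg.prod Finset.univ fun i _ => h.entry (σ i) i)).congr fun x _ => by
    rw [Matrix.det_apply']

omit [DecidableEq n] in
theorem trace (h : RegF U M) : Reg U fun x => (M x).trace := h (Matrix.traceLinearMap n ℂ ℂ)

theorem adjugate (h : RegF U M) : RegF U fun x => (M x).adjugate := by
  refine of_entries fun i j => ?_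
  refine (det (M := fun x => (M x).updateRow j (Pi.single i 1)) (of_entries fun a b => ?_)).congr
    fun x _ => by rw [Matrix.adjugate_apply]
  by_cases ha : a = j
  · subst ha
    exact (Reg.const (Pi.single (M := fun _ => ℂ) i 1 b)).congr fun x _ => by simp
  · exact (h.entry a b).congr fun x _ => by rw [Matrix.updateRow_ne ha]

theorem inv (h : RegF U M) (h0 : ∀ x ∈ U, (M x).det ≠ 0) : RegF U fun x => (M x)⁻¹ :=
  (RegF.smul (h.det.inv h0) h.adjugate).congr fun x _ => by
    rw [Matrix.inv_def, Ring.inverse_eq_inv']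

theorem pow (h : RegF U M) (k : ℕ) : RegF U fun x => M x ^ k := by
  induction k with
  | zero => exact (const 1).congr fun x _ => by simp
  | succ k ih => exact (ih.mul h).congr fun x _ => by rw [pow_succ]

theorem aeval (h : RegF U M) (q : Polynomial ℂ) :
    RegF U fun x => Polynomial.aeval (M x) q := by
  induction q using Polynomial.induction_on' with
  | add p q hp hq => exact (hp.add hq).congr fun x _ => by rw [map_add]
  | monomial k c =>
    exact (RegF.smul (Reg.const c) (h.pow k)).congr fun x _ => by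
      rw [Polynomial.aeval_monomial, Algebra.smul_def]

omit [Fintype n] in
theorem diagonal [Finite n] {v : E → n → ℂ} (h : RegF U v) :
    RegF U fun x => Matrix.diagonal (v x) :=
  h.map (Matrix.diagonalLinearMap n ℂ ℂ)

end Matrix

end RegF

namespace Bas

variable {U V : Set E}

theorem univ : Bas (Set.univ : Set E) := ⟨fun _ => 1, IsPoly.const 1, fun x => by simp⟩

theorem inter (h : Bas U) (h' : Bas V) : Bas (U ∩ V) := by
  obtain ⟨P, hP, e⟩ := h
  obtain ⟨Q, hQ, e'⟩ := h'
  exact ⟨fun x => P x * Q x, hP.mul hQ, fun x => by simp [e, e']⟩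

theorem of_reg (h : Bas U) {φ : E → ℂ} (hφ : Reg U φ) : Bas {x | x ∈ U ∧ φ x ≠ 0} := by
  obtain ⟨D, hD, e⟩ := h
  obtain ⟨P, Q, hP, hQ, h⟩ := hφ
  refine ⟨fun x => D x * P x, hD.mul hP, fun x => ⟨fun hx => ?_, fun hx => ?_⟩⟩
  · refine mul_ne_zero ((e x).1 hx.1) ?_
    rw [← (h x hx.1).2]; exact mul_ne_zero hx.2 (h x hx.1).1
  · have hU := (e x).2 (left_ne_zero_of_mul hx)
    refine ⟨hU, fun h0 => right_ne_zero_of_mul hx ?_⟩
    rw [← (h x hU).2, h0, zero_mul]

theorem preimage (h : Bas U) {W : Set F} (hW : Bas W) {f : E → F} (hf : RegF U f) :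
    Bas {x | x ∈ U ∧ f x ∈ W} := by
  obtain ⟨Q, hQ, e⟩ := hW
  have := h.of_reg (hQ.comp hf)
  simpa only [← e] using this

theorem all {ι : Type} [Finite ι] {W : ι → Set E} (h : ∀ i, Bas (W i)) :
    Bas {x | ∀ i, x ∈ W i} := by
  have := Fintype.ofFinite ι
  choose Q hQ e using h
  exact ⟨fun x => ∏ i, Q i x, IsPoly.prod _ fun i _ => hQ i, fun x => by
    simp [e, Finset.prod_ne_zero_iff]⟩

theorem congr (h : Bas U) (e : ∀ x, x ∈ V ↔ x ∈ U) : Bas V := by
  rwa [show V = U from Set.ext e]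

theorem gen (h : Bas U) (hne : U.Nonempty) : Gen fun x => x ∈ U := by
  obtain ⟨Q, hQ, e⟩ := h
  obtain ⟨x, hx⟩ := hne
  exact ⟨Q, hQ, ⟨x, (e x).1 hx⟩, fun x hx => (e x).2 hx⟩

end Bas

theorem bas_det {n : Type} [Fintype n] [DecidableEq n] : Bas {M : Matrix n n ℂ | M.det ≠ 0} :=
  (Bas.univ.of_reg (RegF.id.det)).congr fun x => by simp

theorem bas_UU {r : ℕ} {J : Type} [Finite J] : Bas (UU r J) :=
  (Bas.all (W := fun k : J => {y : J → Mat r | y ∈ Set.univ ∧ (y k).det ≠ 0})
    fun k => Bas.univ.of_reg (RegF.proj k).det).congr fun x => by simp [UU]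

namespace Gen

variable {p q : E → Prop}

theorem mono (h : Gen p) (hpq : ∀ x, p x → q x) : Gen q := by
  obtain ⟨P, hP, h0, h⟩ := h
  exact ⟨P, hP, h0, fun x hx => hpq x (h x hx)⟩

theorem and (h : Gen p) (h' : Gen q) : Gen fun x => p x ∧ q x := by
  obtain ⟨P, hP, h0, h⟩ := h
  obtain ⟨Q, hQ, h0', h'⟩ := h'
  obtain ⟨x, hx, hx'⟩ := hP.mul_ne hQ h0 h0'
  exact ⟨fun x => P x * Q x, hP.mul hQ, ⟨x, mul_ne_zero hx hx'⟩, fun x hx =>
    ⟨h x (left_ne_zero_of_mul hx), h' x (right_ne_zero_of_mul hx)⟩⟩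

theorem of_forall (h : ∀ x, p x) : Gen p :=
  ⟨fun _ => 1, IsPoly.const 1, ⟨0, one_ne_zero⟩, fun x _ => h x⟩

theorem all {ι : Type} [Finite ι] {p : ι → E → Prop} (h : ∀ i, Gen (p i)) :
    Gen fun x => ∀ i, p i x := by
  classical
  have := Fintype.ofFinite ι
  have key : ∀ s : Finset ι, Gen fun x => ∀ i ∈ s, p i x := by
    intro s
    induction s using Finset.induction_on with
    | empty => exact of_forall fun x i hi => by simp at hi
    | insert a s _ ih =>
      refine ((h a).and ih).mono fun x hx i hi => ?_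
      rcases Finset.mem_insert.1 hi with rfl | hi
      exacts [hx.1, hx.2 i hi]
  exact (key Finset.univ).mono fun x hx i => hx i (Finset.mem_univ i)

theorem ex (h : Gen p) : ∃ x, p x := by
  obtain ⟨P, -, ⟨x, hx⟩, h⟩ := h
  exact ⟨x, h x hx⟩

theorem of_reg {U : Set E} (hU : Bas U) {φ : E → ℂ} (hφ : Reg U φ) {x₀ : E} (hx : x₀ ∈ U)
    (h0 : φ x₀ ≠ 0) : Gen fun x => x ∈ U ∧ φ x ≠ 0 :=
  (hU.of_reg hφ).gen ⟨x₀, hx, h0⟩

/-- a generic property contains a nonempty basic open set -/
theorem bas (h : Gen p) : ∃ U : Set E, Bas U ∧ U.Nonempty ∧ ∀ x ∈ U, p x := by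
  obtain ⟨P, hP, h0, h⟩ := h
  exact ⟨{x | P x ≠ 0}, ⟨P, hP, fun _ => Iff.rfl⟩, h0, h⟩

end Gen

namespace Zc

variable {S T U : Set E} {x : E}

theorem subset (S : Set E) : S ⊆ Zc S := fun s hs _ _ h => h s hs

theorem mono (h : S ⊆ T) : Zc S ⊆ Zc T := fun _ hx P hP h0 => hx P hP fun s hs => h0 s (h hs)

theorem of_subset (h : S ⊆ Zc T) : Zc S ⊆ Zc T :=
  fun _ hx P hP h0 => hx P hP fun s hs => h hs P hP h0

theorem idem (S : Set E) : Zc (Zc S) ⊆ Zc S := of_subset le_rfl

theorem inter_bas (hx : x ∈ Zc S) (hU : Bas U) (hxU : x ∈ U) : x ∈ Zc (S ∩ U) := by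
  obtain ⟨Q, hQ, e⟩ := hU
  intro P hP h0
  have := hx (fun y => P y * Q y) (hP.mul hQ) fun s hs => by
    by_cases hsU : s ∈ U
    · rw [h0 s ⟨hs, hsU⟩, zero_mul]
    · rw [e, not_not] at hsU; rw [hsU, mul_zero]
  exact (mul_eq_zero.1 this).resolve_right ((e x).1 hxU)

theorem reg_zero (hx : x ∈ Zc S) (hU : Bas U) (hxU : x ∈ U) {φ : E → ℂ} (hφ : Reg U φ)
    (h0 : ∀ s ∈ S, s ∈ U → φ s = 0) : φ x = 0 := by
  obtain ⟨P, Q, hP, hQ, h⟩ := hφ
  have := inter_bas hx hU hxU P hP fun s hs => by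
    rw [← (h s hs.2).2, h0 s hs.1 hs.2, zero_mul]
  rw [← (h x hxU).2] at this
  exact (mul_eq_zero.1 this).resolve_right (h x hxU).1

theorem regF_eq (hx : x ∈ Zc S) (hU : Bas U) (hxU : x ∈ U) {f g : E → F} (hf : RegF U f)
    (hg : RegF U g) (h0 : ∀ s ∈ S, s ∈ U → f s = g s) : f x = g x := by
  rw [← sub_eq_zero, ← Module.forall_dual_apply_eq_zero_iff ℂ]
  intro l
  exact reg_zero hx hU hxU ((hf.sub hg) l) fun s hs hsU => by
    beta_reduce
    rw [h0 s hs hsU, sub_self, map_zero]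

/-- transfer along a regular map -/
theorem map {T : Set F} (hx : x ∈ Zc S) (hU : Bas U) (hxU : x ∈ U) {f : E → F} (hf : RegF U f)
    (h : ∀ s ∈ S, s ∈ U → f s ∈ Zc T) : f x ∈ Zc T :=
  fun P hP h0 => reg_zero hx hU hxU (hP.comp hf) fun s hs hsU => h s hs hsU P hP h0

theorem prod {T : Set F} {y : F} (hx : x ∈ Zc S) (hy : y ∈ Zc T) : (x, y) ∈ Zc (S ×ˢ T) := by
  refine map hx Bas.univ (Set.mem_univ _) (f := fun x => (x, y)) (RegF.id.prodMk (RegF.const y))
    fun s hs _ => ?_
  exact map hy Bas.univ (Set.mem_univ _) (f := fun y => (s, y)) ((RegF.const s).prodMk RegF.id)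
    fun t ht _ => subset _ ⟨hs, ht⟩

/-- an infinite subset of the line is dense -/
theorem of_infinite {T : Set ℂ} (hT : T.Infinite) (t : ℂ) : t ∈ Zc T := fun P hP h0 => by
  simpa using hP.line_zero 0 1 T hT (fun s hs => by simpa using h0 s hs) t

/-- a generic property defines a dense set -/
theorem of_gen {p : E → Prop} (h : Gen p) (x : E) : x ∈ Zc {y | p y} := by
  intro P hP h0
  by_contra hx
  obtain ⟨Q, hQ, hQ0, h⟩ := h
  obtain ⟨y, hy, hy'⟩ := hP.mul_ne hQ ⟨x, hx⟩ hQ0
  exact hy (h0 y (h y hy'))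

end Zc

end Alg

section Top

variable {E F : Type} [AddCommGroup E] [Module ℂ E] [TopologicalSpace E]
  [IsTopologicalAddGroup E] [ContinuousSMul ℂ E] [AddCommGroup F] [Module ℂ F]

theorem IsPoly.eq_zero_of_eventually {P : E → ℂ} (h : IsPoly P) {x : E}
    (h0 : ∀ᶠ y in 𝓝 x, P y = 0) (y : E) : P y = 0 := by
  have hc : ContinuousAt (fun t : ℂ => x + t • (y - x)) 0 := by fun_prop
  have h1 : ∀ᶠ t : ℂ in 𝓝 0, P (x + t • (y - x)) = 0 := by
    have := hc.tendsto
    rw [zero_smul, add_zero] at this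
    exact this.eventually h0
  have := h.line_zero x (y - x) _ (infinite_of_mem_nhds 0 h1) (fun t ht => ht) 1
  simpa using this

theorem Zc.of_nhds {S : Set E} {x : E} (h : S ∈ 𝓝 x) (y : E) : y ∈ Zc S :=
  fun _ hP h0 => hP.eq_zero_of_eventually (Filter.mem_of_superset h h0) y

/-- identity theorem -/
theorem Reg.eq_zero_of_eventually {U : Set E} {φ : E → ℂ} (h : Reg U φ) {x : E} (hU : U ∈ 𝓝 x)
    (h0 : ∀ᶠ y in 𝓝 x, φ y = 0) {y : E} (hy : y ∈ U) : φ y = 0 := by
  obtain ⟨P, Q, hP, hQ, h⟩ := h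
  have := hP.eq_zero_of_eventually (x := x) (by
    filter_upwards [hU, h0] with z hz hz0
    rw [← (h z hz).2, hz0, zero_mul]) y
  rw [← (h y hy).2] at this
  exact (mul_eq_zero.1 this).resolve_right (h y hy).1

theorem Zc.of_eventually {U : Set E} {T : Set F} {f : E → F} (hf : RegF U f) {x : E}
    (hU : U ∈ 𝓝 x) (h0 : ∀ᶠ y in 𝓝 x, f y ∈ Zc T) {y : E} (hy : y ∈ U) : f y ∈ Zc T :=
  fun P hP hT => (hP.comp hf).eq_zero_of_eventually hU (h0.mono fun z hz => hz P hP hT) hy

theorem Gen.frequently {p : E → Prop} (h : Gen p) (x : E) : ∃ᶠ y in 𝓝 x, p y := by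
  obtain ⟨P, hP, ⟨z, hz⟩, h⟩ := h
  intro hc
  exact hz (hP.eq_zero_of_eventually (hc.mono fun y hy => by
    by_contra h0; exact hy (h y h0)) z)

variable [T2Space E] [FiniteDimensional ℂ E]

theorem IsPoly.continuous {P : E → ℂ} (h : IsPoly P) : Continuous P := by
  induction h with
  | const c => exact continuous_const
  | lin l => exact l.continuous_of_finiteDimensional
  | add _ _ h1 h2 => exact h1.add h2
  | mul _ _ h1 h2 => exact h1.mul h2

theorem Bas.isOpen {U : Set E} (h : Bas U) : IsOpen U := by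
  obtain ⟨Q, hQ, e⟩ := h
  rw [show U = {x | Q x ≠ 0} from Set.ext e]
  exact isOpen_ne_fun hQ.continuous continuous_const

theorem Bas.mem_nhds {U : Set E} (h : Bas U) {x : E} (hx : x ∈ U) : U ∈ 𝓝 x :=
  h.isOpen.mem_nhds hx

theorem Zc.isClosed (S : Set E) : IsClosed (Zc S) := by
  have : Zc S = ⋂ P : {P : E → ℂ // IsPoly P ∧ ∀ s ∈ S, P s = 0}, {x | P.1 x = 0} := by
    ext x
    simp only [Zc, Set.mem_ofPred_eq, Set.mem_iInter, Subtype.forall, and_imp]
  rw [this]
  exact isClosed_iInter fun P => isClosed_eq P.2.1.continuous continuous_const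

theorem Zc.closure_subset (S : Set E) : closure S ⊆ Zc S :=
  closure_minimal (Zc.subset S) (Zc.isClosed S)

theorem Reg.continuousAt {U : Set E} {φ : E → ℂ} (h : Reg U φ) {x : E} (hU : U ∈ 𝓝 x) :
    ContinuousAt φ x := by
  obtain ⟨P, Q, hP, hQ, h⟩ := h
  have hx := h x (mem_of_mem_nhds hU)
  refine (hP.continuous.continuousAt.div hQ.continuous.continuousAt hx.1).congr ?_
  filter_upwards [hU] with y hy
  rw [Pi.div_apply, ← (h y hy).2, mul_div_cancel_right₀ _ (h y hy).1]

end Top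

section Diff

variable {E F : Type} [NormedAddCommGroup E] [NormedSpace ℂ E] [FiniteDimensional ℂ E]
  [NormedAddCommGroup F] [NormedSpace ℂ F] [FiniteDimensional ℂ F]

theorem IsPoly.contDiff {P : E → ℂ} (h : IsPoly P) {n : WithTop ℕ∞} : ContDiff ℂ n P := by
  induction h with
  | const c => exact contDiff_const
  | lin l => exact (LinearMap.toContinuousLinearMap l).contDiff
  | add _ _ h1 h2 => exact h1.add h2
  | mul _ _ h1 h2 => exact h1.mul h2

theorem Reg.contDiffAt {U : Set E} {φ : E → ℂ} (h : Reg U φ) {x : E} (hU : U ∈ 𝓝 x)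
    {n : WithTop ℕ∞} : ContDiffAt ℂ n φ x := by
  obtain ⟨P, Q, hP, hQ, h⟩ := h
  have hx := h x (mem_of_mem_nhds hU)
  refine (hP.contDiff.contDiffAt.div hQ.contDiff.contDiffAt hx.1).congr_of_eventuallyEq ?_
  filter_upwards [hU] with y hy
  rw [Pi.div_apply, ← (h y hy).2, mul_div_cancel_right₀ _ (h y hy).1]

theorem RegF.contDiffAt {U : Set E} {f : E → F} (h : RegF U f) {x : E} (hU : U ∈ 𝓝 x)
    {n : WithTop ℕ∞} : ContDiffAt ℂ n f x := by
  let b := Module.finBasis ℂ F
  have e : f = fun y => ∑ i, b.coord i (f y) • b i := funext fun y => by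
    simp [Module.Basis.sum_repr]
  rw [e]
  exact ContDiffAt.sum fun i _ => ((h (b.coord i)).contDiffAt hU).smul contDiffAt_const

theorem RegF.continuousAt {U : Set E} {f : E → F} (h : RegF U f) {x : E} (hU : U ∈ 𝓝 x) :
    ContinuousAt f x := (h.contDiffAt hU (n := 0)).continuousAt

theorem RegF.differentiableAt {U : Set E} {f : E → F} (h : RegF U f) {x : E} (hU : U ∈ 𝓝 x) :
    DifferentiableAt ℂ f x := (h.contDiffAt hU (n := 1)).differentiableAt one_ne_zero

end Diff

section MatAlg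

variable {n : Type} [Fintype n] [DecidableEq n] {A : Matrix n n ℂ}

theorem inv_mul' (h : A.det ≠ 0) : A⁻¹ * A = 1 := Matrix.nonsing_inv_mul A h.isUnit

theorem mul_inv'' (h : A.det ≠ 0) : A * A⁻¹ = 1 := Matrix.mul_nonsing_inv A h.isUnit

theorem imc (h : A.det ≠ 0) (X : Matrix n n ℂ) : A⁻¹ * (A * X) = X := by
  rw [← mul_assoc, inv_mul' h, one_mul]

theorem mic (h : A.det ≠ 0) (X : Matrix n n ℂ) : A * (A⁻¹ * X) = X := by
  rw [← mul_assoc, mul_inv'' h, one_mul]

theorem inv_inv' (h : A.det ≠ 0) : A⁻¹⁻¹ = A := Matrix.nonsing_inv_nonsing_inv A h.isUnit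

theorem det_inv_ne (h : A.det ≠ 0) : A⁻¹.det ≠ 0 := by
  rw [Matrix.det_nonsing_inv, Ring.inverse_eq_inv']; exact inv_ne_zero h

theorem det_mul_ne {B : Matrix n n ℂ} (h : A.det ≠ 0) (h' : B.det ≠ 0) : (A * B).det ≠ 0 := by
  rw [Matrix.det_mul]; exact mul_ne_zero h h'

end MatAlg

end Vale.Agent.P002
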