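import Vale.Agent.P002.SysB
import Vale.Agent.P002.LinA
import Vale.Agent.P002.Reach

set_option linter.unusedVariables false

namespace Vale.Agent.P002

open Matrix Filter Topology

open scoped Matrix.Norms.Operator

variable {r : ℕ} {J : Type} [Fintype J] [DecidableEq J] (σ : Sys r J)

theorem reld_line (M μ : Mat r) : HasDerivAt (fun τ : ℂ => M + τ • μ) μ 0 := by
  have := ((hasDerivAt_id (0 : ℂ)).smul_const μ).const_add M
  rw [one_smul] at this
  exact this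

theorem reld_inv (μ : Mat r) {M : Mat r} (hM : M.det ≠ 0) :
    HasDerivAt (fun τ : ℂ => (M + τ • μ)⁻¹) (-(M⁻¹ * μ * M⁻¹)) 0 := by
  have hU : {N : Mat r | N.det ≠ 0} ∈ 𝓝 M := (bas_det (n := Fin r)).mem_nhds hM
  have h1 : DifferentiableAt ℂ (fun N : Mat r => N⁻¹) M :=
    (RegF.id.inv (U := {N : Mat r | N.det ≠ 0}) fun x hx => hx).differentiableAt hU
  have hl := reld_line M μ
  have h1' : DifferentiableAt ℂ (fun N : Mat r => N⁻¹) (M + (0 : ℂ) • μ) := by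
    rwa [zero_smul, add_zero]
  have h2 : DifferentiableAt ℂ (fun τ : ℂ => (M + τ • μ)⁻¹) 0 :=
    DifferentiableAt.comp (g := fun N : Mat r => N⁻¹) (f := fun τ : ℂ => M + τ • μ) 0 h1'
      hl.differentiableAt
  obtain ⟨N', h3⟩ : ∃ N', HasDerivAt (fun τ : ℂ => (M + τ • μ)⁻¹) N' 0 := ⟨_, h2.hasDerivAt⟩
  have h4 := hl.mul h3
  have h5 : (fun τ : ℂ => M + τ • μ) * (fun τ : ℂ => (M + τ • μ)⁻¹) =ᶠ[𝓝 0]
      fun _ => (1 : Mat r) := by
    have hc := hl.continuousAt.tendsto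
    rw [zero_smul, add_zero] at hc
    filter_upwards [hc.eventually hU] with τ hτ
    exact mul_inv'' hτ
  have h6 := (h4.congr_of_eventuallyEq h5.symm).unique (hasDerivAt_const (0 : ℂ) (1 : Mat r))
  rw [zero_smul, add_zero] at h6
  have h7 : N' = -(M⁻¹ * μ * M⁻¹) := by
    rw [← imc hM N', eq_neg_of_add_eq_zero_right h6, mul_neg, mul_assoc]
  rw [← h7]
  exact h3

/-- derivative of `τ ↦ P * ((M + τ • μ) * Mid * (M + τ • μ)⁻¹) * S` -/
theorem hasDerivAt_conj (P Mid S μ : Mat r) {M : Mat r} (hM : M.det ≠ 0) :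
    HasDerivAt (fun τ : ℂ => P * ((M + τ • μ) * Mid * (M + τ • μ)⁻¹) * S)
      (P * (μ * M⁻¹ * (M * Mid * M⁻¹) - M * Mid * M⁻¹ * (μ * M⁻¹)) * S) 0 := by
  have h := ((((reld_line M μ).mul_const Mid).mul (reld_inv μ hM)).const_mul P).mul_const S
  have e : μ * Mid * (M + (0 : ℂ) • μ)⁻¹ + (M + (0 : ℂ) • μ) * Mid * -(M⁻¹ * μ * M⁻¹) =
      μ * M⁻¹ * (M * Mid * M⁻¹) - M * Mid * M⁻¹ * (μ * M⁻¹) := by
    rw [zero_smul, add_zero, mul_neg, sub_eq_add_neg]
    simp only [mul_assoc, imc hM]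
  rw [e] at h
  exact h

theorem reld_dets {P E S : Mat r} (h : P * E * S = 1) :
    P.det ≠ 0 ∧ E.det ≠ 0 ∧ S = E⁻¹ * P⁻¹ := by
  have h1 := congrArg Matrix.det h
  rw [Matrix.det_mul, Matrix.det_mul, Matrix.det_one] at h1
  have h2 : P.det * E.det ≠ 0 := left_ne_zero_of_mul_eq_one h1
  refine ⟨left_ne_zero_of_mul h2, right_ne_zero_of_mul h2, ?_⟩
  rw [← Matrix.mul_inv_rev]
  exact (Matrix.inv_eq_right_inv h).symm

theorem reld_trace {P E S : Mat r} (h : P * E * S = 1) (ν : Mat r) :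
    (P * (ν * E - E * ν) * S).trace = 0 := by
  obtain ⟨hP, hE, rfl⟩ := reld_dets h
  rw [← mul_assoc, Matrix.trace_mul_comm, mul_assoc P, imc hP, sub_mul, Matrix.trace_sub,
    mul_assoc ν, mul_inv'' hE, mul_one, Matrix.trace_mul_comm, imc hE, sub_self]

theorem reld_comm {P E S Y : Mat r} (h : P * E * S = 1)
    (hY : ∀ ν : Mat r, (Y * (P * (ν * E - E * ν) * S)).trace = 0) :
    Commute (P⁻¹ * Y * P) E := by
  obtain ⟨hP, hE, rfl⟩ := reld_dets h
  have h1 : P⁻¹ * Y * P - E⁻¹ * (P⁻¹ * Y * P) * E = 0 := by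
    refine eq_zero_of_trace fun ν => ?_
    rw [← hY ν]
    have e1 : Y * (P * (ν * E - E * ν) * (E⁻¹ * P⁻¹)) =
        Y * P * ν * P⁻¹ - Y * P * E * ν * (E⁻¹ * P⁻¹) := by
      simp only [mul_sub, sub_mul, mul_assoc, mic hE]
    rw [e1, sub_mul, Matrix.trace_sub, Matrix.trace_sub, Matrix.trace_mul_comm _ P⁻¹,
      Matrix.trace_mul_comm _ (E⁻¹ * P⁻¹)]
    simp only [mul_assoc]
  have h2 := congrArg (fun X => E * X) (sub_eq_zero.1 h1)
  simp only [mul_assoc, mic hE] at h2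
  show P⁻¹ * Y * P * E = E * (P⁻¹ * Y * P)
  simp only [mul_assoc]
  exact h2.symm

theorem reld_conj_comm {A Y E : Mat r} (hA : A.det ≠ 0) (h : Commute Y (A * E * A⁻¹)) :
    Commute (A⁻¹ * Y * A) E := by
  have h2 := congrArg (fun X => A⁻¹ * X * A) h.eq
  show A⁻¹ * Y * A * E = E * (A⁻¹ * Y * A)
  simpa only [mul_assoc, imc hA, inv_mul' hA, mul_one] using h2

theorem reld_conj_self {A Y : Mat r} (hA : A.det ≠ 0) (h : Commute Y A) : A⁻¹ * Y * A = Y := by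
  rw [mul_assoc, h.eq, imc hA]

theorem reld_eq_of_conj {A Y : Mat r} (hA : A.det ≠ 0) (h : Commute (A⁻¹ * Y * A) A) :
    A⁻¹ * Y * A = Y := by
  have h2 := congrArg (fun X => X * A⁻¹) h.eq
  simpa only [mul_assoc, mic hA, mul_inv'' hA, mul_one] using h2

theorem reld_pair {A B Y : Mat r} (hA : A.det ≠ 0) (hB : B.det ≠ 0)
    (h1 : Commute Y (A * B * A⁻¹)) (h2 : Commute (A⁻¹ * Y * A) (B * A⁻¹ * B⁻¹)) :
    Commute Y A ∧ Commute Y B := by
  have h3 := reld_conj_comm hA h1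
  have h4 := reld_conj_comm hB h2
  rw [reld_conj_self hB h3] at h4
  have h5 := commute_inv h4
  rw [inv_inv' hA] at h5
  have h6 := reld_eq_of_conj hA h5
  rw [h6] at h3 h5
  exact ⟨h5, h3⟩

theorem reld_single {x : J → Mat r} (hx : x ∈ σ.R) {D : (J → Mat r) →L[ℂ] Mat r}
    (hD : HasFDerivAt σ.rel D x) {k : J} {P Mid S : Mat r}
    (h : ∀ M, σ.rel (Function.update x k M) = P * (M * Mid * M⁻¹) * S) :
    P * (x k * Mid * (x k)⁻¹) * S = 1 ∧ ∀ μ, D (Pi.single k μ) =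
      P * (μ * (x k)⁻¹ * (x k * Mid * (x k)⁻¹) - x k * Mid * (x k)⁻¹ * (μ * (x k)⁻¹)) * S := by
  refine ⟨by rw [← h, Function.update_eq_self, hx.2], fun μ => ?_⟩
  have hl : HasDerivAt (fun τ : ℂ => x + τ • (Pi.single k μ : J → Mat r)) (Pi.single k μ) 0 := by
    have := ((hasDerivAt_id (0 : ℂ)).smul_const (Pi.single k μ : J → Mat r)).const_add x
    rw [one_smul] at this
    exact this
  have hD' : HasFDerivAt σ.rel D (x + (0 : ℂ) • (Pi.single k μ : J → Mat r)) := by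
    rwa [zero_smul, add_zero]
  have h1 := HasFDerivAt.comp_hasDerivAt (0 : ℂ) hD' hl
  have e : σ.rel ∘ (fun τ : ℂ => x + τ • (Pi.single k μ : J → Mat r)) =
      fun τ : ℂ => P * ((x k + τ • μ) * Mid * (x k + τ • μ)⁻¹) * S := by
    funext τ
    rw [← h, Function.comp_apply]
    refine congrArg σ.rel (funext fun j => ?_)
    by_cases hj : j = k
    · subst hj
      simp
    · simp [hj]
  rw [e] at h1
  exact h1.unique (hasDerivAt_conj P Mid S μ (hx.1 k))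

theorem reld_single_comm {x : J → Mat r} (hx : x ∈ σ.R) {D : (J → Mat r) →L[ℂ] Mat r}
    (hD : HasFDerivAt σ.rel D x) {k : J} {P Mid S : Mat r}
    (h : ∀ M, σ.rel (Function.update x k M) = P * (M * Mid * M⁻¹) * S) {Y : Mat r}
    (hY : ∀ μ, (Y * D (Pi.single k μ)).trace = 0) :
    Commute (P⁻¹ * Y * P) (x k * Mid * (x k)⁻¹) := by
  obtain ⟨h1, h2⟩ := reld_single σ hx hD h
  refine reld_comm h1 fun ν => ?_
  have := hY (ν * x k)
  rwa [h2, mul_assoc ν (x k), mul_inv'' (hx.1 k), mul_one] at this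

omit [Fintype J] in
theorem reld_W_update (x : J → Mat r) {k : J} (hk : k = σ.a ∨ k = σ.b) (M : Mat r) :
    σ.W (Function.update x k M) = σ.W x := by
  refine σ.W_word.indep fun j hj => Function.update_of_ne ?_ _ _
  rcases hk with rfl | rfl
  exacts [hj.1, hj.2]

omit [Fintype J] in
theorem reld_W'_update (x : J → Mat r) {k : J} (hk : k = σ.α ∨ k = σ.β) (M : Mat r) :
    σ.W' (Function.update x k M) = σ.W' x := by
  refine σ.W'_word.indep fun j hj => Function.update_of_ne ?_ _ _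
  rcases hk with rfl | rfl
  exacts [hj.2.2.1, hj.2.2.2]

omit [Fintype J] in
theorem reld_upd_a (x : J → Mat r) (M : Mat r) :
    σ.rel (Function.update x σ.a M) = 1 * (M * x σ.b * M⁻¹) * ((x σ.b)⁻¹ * σ.W x) := by
  rw [Sys.rel, reld_W_update σ x (Or.inl rfl), Function.update_self,
    Function.update_of_ne σ.ab.symm, cm, one_mul]
  simp only [mul_assoc]

omit [Fintype J] in
theorem reld_upd_b (x : J → Mat r) (M : Mat r) :
    σ.rel (Function.update x σ.b M) = x σ.a * (M * (x σ.a)⁻¹ * M⁻¹) * σ.W x := by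
  rw [Sys.rel, reld_W_update σ x (Or.inr rfl), Function.update_self,
    Function.update_of_ne σ.ab, cm]
  simp only [mul_assoc]

omit [Fintype J] in
theorem reld_upd_α (x : J → Mat r) (M : Mat r) :
    σ.rel (Function.update x σ.α M) =
      cm (x σ.a) (x σ.b) * (M * x σ.β * M⁻¹) * ((x σ.β)⁻¹ * σ.W' x) := by
  rw [Sys.rel, Sys.W, reld_W'_update σ x (Or.inl rfl), Function.update_self,
    Function.update_of_ne σ.aα, Function.update_of_ne σ.bα, Function.update_of_ne σ.αβ.symm,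
    show cm M (x σ.β) = M * x σ.β * M⁻¹ * (x σ.β)⁻¹ from rfl]
  simp only [mul_assoc]

omit [Fintype J] in
theorem reld_upd_β (x : J → Mat r) (M : Mat r) :
    σ.rel (Function.update x σ.β M) =
      cm (x σ.a) (x σ.b) * x σ.α * (M * (x σ.α)⁻¹ * M⁻¹) * σ.W' x := by
  rw [Sys.rel, Sys.W, reld_W'_update σ x (Or.inr rfl), Function.update_self,
    Function.update_of_ne σ.aβ, Function.update_of_ne σ.bβ, Function.update_of_ne σ.αβ,
    show cm (x σ.α) M = x σ.α * M * (x σ.α)⁻¹ * M⁻¹ from rfl]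
  simp only [mul_assoc]

omit [Fintype J] in
theorem reld_upd_rest (x : J → Mat r) {k : J} (hk : σ.Rest k) (M : Mat r) :
    σ.rel (Function.update x k M) =
      cm (x σ.a) (x σ.b) * cm (x σ.α) (x σ.β) * σ.P k x * (M * σ.Mid k x * M⁻¹) * σ.S k x := by
  rw [Sys.rel, Sys.W, σ.W'_update hk, Function.update_of_ne hk.1.symm,
    Function.update_of_ne hk.2.1.symm, Function.update_of_ne hk.2.2.1.symm,
    Function.update_of_ne hk.2.2.2.symm]
  simp only [mul_assoc]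

omit [Fintype J] in
theorem reld_upd (x : J → Mat r) (k : J) :
    ∃ P Mid S : Mat r, ∀ M, σ.rel (Function.update x k M) = P * (M * Mid * M⁻¹) * S := by
  by_cases h1 : k = σ.a
  · subst h1
    exact ⟨_, _, _, reld_upd_a σ x⟩
  by_cases h2 : k = σ.b
  · subst h2
    exact ⟨_, _, _, reld_upd_b σ x⟩
  by_cases h3 : k = σ.α
  · subst h3
    exact ⟨_, _, _, reld_upd_α σ x⟩
  by_cases h4 : k = σ.β
  · subst h4
    exact ⟨_, _, _, reld_upd_β σ x⟩
  exact ⟨_, _, _, reld_upd_rest σ x ⟨h1, h2, h3, h4⟩⟩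

/-- Hint: for every index `k` there are `P`, `Mid`, `S` with
`σ.rel (update x k M) = P * (M * Mid * M⁻¹) * S` for all `M`:
`k = a`: `(1, x b, (x b)⁻¹ * W)`; `k = b`: `(x a, (x a)⁻¹, W)`;
`k = α`: `(cm (x a) (x b), x β, (x β)⁻¹ * W')`; `k = β`: `(cm (x a) (x b) * x α, (x α)⁻¹, W')`;
otherwise `W'_update`. With `E = x k * Mid * (x k)⁻¹` and `P * E * S = 1`,
`D (single k μ) = P * (ν * E - E * ν) * S` with `ν = μ * (x k)⁻¹`; its trace vanishes, and
`∀ μ, trace (Y * D (single k μ)) = 0` says that `P⁻¹ * Y * P` commutes with `E`. For the last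
statement put `Ŷ = (cm (x a) (x b))⁻¹ * Y * cm (x a) (x b)`; it commutes with `x α`, `x β`, then by
`σ.ann` with the other values, so with `W = (cm (x a) (x b))⁻¹`, hence `Ŷ = Y`. -/
theorem Sys.rel_deriv {x : J → Mat r} (hx : x ∈ σ.R) :
    ∃ D : (J → Mat r) →L[ℂ] Mat r, HasStrictFDerivAt σ.rel D x ∧ (∀ v, (D v).trace = 0) ∧
      (∀ Y : Mat r, (∀ μ, (Y * D (Pi.single σ.a μ)).trace = 0) →
        (∀ μ, (Y * D (Pi.single σ.b μ)).trace = 0) →
        Y * x σ.a = x σ.a * Y ∧ Y * x σ.b = x σ.b * Y) ∧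
      (∀ Y : Mat r, (∀ k, k ≠ σ.a → k ≠ σ.b → ∀ μ, (Y * D (Pi.single k μ)).trace = 0) →
        ∀ k, k ≠ σ.a → k ≠ σ.b → Y * σ.val x k = σ.val x k * Y) := by
  have hS : HasStrictFDerivAt σ.rel (fderiv ℂ σ.rel x) x :=
    ((σ.rel_word.regF σ.cs_det).contDiffAt (bas_UU.mem_nhds hx.1) (n := 1)).hasStrictFDerivAt
      one_ne_zero
  generalize fderiv ℂ σ.rel x = D at hS
  have hD := hS.hasFDerivAt
  refine ⟨D, hS, fun v => ?_, fun Y ha hb => ?_, fun Y hY => ?_⟩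
  · rw [← Finset.univ_sum_single v, map_sum, Matrix.trace_sum]
    refine Finset.sum_eq_zero fun k _ => ?_
    obtain ⟨P, Mid, S, h⟩ := reld_upd σ x k
    obtain ⟨h1, h2⟩ := reld_single σ hx hD h
    rw [h2]
    exact reld_trace h1 _
  · have h1 := reld_single_comm σ hx hD (reld_upd_a σ x) ha
    have h2 := reld_single_comm σ hx hD (reld_upd_b σ x) hb
    rw [inv_one, one_mul, mul_one] at h1
    exact reld_pair (hx.1 σ.a) (hx.1 σ.b) h1 h2
  · have hc : (cm (x σ.a) (x σ.b)).det ≠ 0 := by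
      rw [det_cm (hx.1 σ.a) (hx.1 σ.b)]
      exact one_ne_zero
    have hc' : (cm (x σ.α) (x σ.β)).det ≠ 0 := by
      rw [det_cm (hx.1 σ.α) (hx.1 σ.β)]
      exact one_ne_zero
    have h1 := reld_single_comm σ hx hD (reld_upd_α σ x) (hY σ.α σ.aα.symm σ.bα.symm)
    have h2 := reld_single_comm σ hx hD (reld_upd_β σ x) (hY σ.β σ.aβ.symm σ.bβ.symm)
    have e2 : (cm (x σ.a) (x σ.b) * x σ.α)⁻¹ * Y * (cm (x σ.a) (x σ.b) * x σ.α) =
        (x σ.α)⁻¹ * ((cm (x σ.a) (x σ.b))⁻¹ * Y * cm (x σ.a) (x σ.b)) * x σ.α := by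
      rw [Matrix.mul_inv_rev]
      simp only [mul_assoc]
    rw [e2] at h2
    obtain ⟨h3, h4⟩ := reld_pair (hx.1 σ.α) (hx.1 σ.β) h1 h2
    have h5 : Commute ((cm (x σ.a) (x σ.b))⁻¹ * Y * cm (x σ.a) (x σ.b)) (cm (x σ.α) (x σ.β)) :=
      ((h3.mul_right h4).mul_right (commute_inv h3)).mul_right (commute_inv h4)
    have h6 : ∀ k, σ.Rest k →
        Commute ((cm (x σ.a) (x σ.b))⁻¹ * Y * cm (x σ.a) (x σ.b)) (σ.val x k) := by
      refine σ.ann x hx.1 _ fun k hk => ?_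
      have h7 := reld_single_comm σ hx hD (reld_upd_rest σ x hk) (hY k hk.1 hk.2.1)
      have e3 : (cm (x σ.a) (x σ.b) * cm (x σ.α) (x σ.β) * σ.P k x)⁻¹ * Y *
          (cm (x σ.a) (x σ.b) * cm (x σ.α) (x σ.β) * σ.P k x) =
          (σ.P k x)⁻¹ * ((cm (x σ.α) (x σ.β))⁻¹ *
            ((cm (x σ.a) (x σ.b))⁻¹ * Y * cm (x σ.a) (x σ.b)) * cm (x σ.α) (x σ.β)) *
            σ.P k x := by
        rw [Matrix.mul_inv_rev, Matrix.mul_inv_rev]
        simp only [mul_assoc]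
      rwa [e3, reld_conj_self hc' h5] at h7
    have h8 : Commute ((cm (x σ.a) (x σ.b))⁻¹ * Y * cm (x σ.a) (x σ.b)) (σ.W x) :=
      h5.mul_right (σ.commute_W' h6)
    have h9 : (σ.W x)⁻¹ = cm (x σ.a) (x σ.b) := Matrix.inv_eq_left_inv hx.2
    have h10 := commute_inv h8
    rw [h9] at h10
    have h11 := reld_eq_of_conj hc h10
    rw [h11] at h3 h4 h6
    intro k hka hkb
    by_cases hα : k = σ.α
    · rw [hα, σ.val_α]
      exact h3
    by_cases hβ : k = σ.β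
    · rw [hβ, σ.val_β]
      exact h4
    exact h6 k ⟨hka, hkb, hα, hβ⟩

end Vale.Agent.P002
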