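import Vale.Agent.P002.Flows
import Vale.Agent.P002.PM
import Vale.Agent.P002.Mm
import Vale.Agent.P002.LinA

set_option linter.unusedVariables false

namespace Vale.Agent.P002

open Matrix Filter Topology

open scoped Matrix.Norms.Operator

variable {r : ℕ} [NeZero r] {J : Type} [Fintype J] [DecidableEq J] {σ : Sys r J}
  {Z : Set (J → Mat r)} {x : J → Mat r}

/-- Let `l (single a μ) = trace (n * μ)` (`exists_trace_rep`), `A = x a`, `B = x b`. For `c` near
`1`, `SM.flow` (for `hZ.mb`) at `update x b (B * diagonal c)` and `SM.conj` (for `hZ.ma`) give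
`trace (n * A * (B * diagonal c) ^ m) = 0`; by the identity theorem
(`Reg.eq_zero_of_eventually`) this holds for all `c`. Then `pm_key`, `mm_g3`. -/
theorem span_a (hZ : MoveInv σ Z) (hx : x ∈ UU r J) {d : Fin r → ℂ} (hxa : x σ.a = diagonal d)
    (hd : Function.Injective d) (hd0 : ∀ i, d i ≠ 0) (hRS : RS (x σ.b)) (hpm : PMgood (x σ.b))
    (hM : (Mm d (diagonal d) (x σ.b * diagonal d * (x σ.b)⁻¹ * (diagonal d)⁻¹)).det ≠ 0)
    (l : (J → Mat r) →ₗ[ℂ] ℂ) (hb : ∀ μ, l (Pi.single σ.b μ) = 0)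
    (hw : ∀ w : Fin r → ℂ, w 0 = 0 → l (Pi.single σ.a (vecMulVec (fun _ => 1) w)) = 0)
    (hfl : ∀ v, Flow Z x v → l v = 0) (μ : Mat r) : l (Pi.single σ.a μ) = 0 := by
  obtain ⟨n, hn⟩ := exists_trace_rep (l.comp (LinearMap.single ℂ (fun _ : J => Mat r) σ.a))
  have hn' : ∀ μ, l (Pi.single σ.a μ) = (n * μ).trace := hn
  have hB : (x σ.b).det ≠ 0 := hx σ.b
  have hA : (diagonal d).det ≠ 0 := hxa ▸ hx σ.a
  have hU : Bas {c : Fin r → ℂ | c ∈ {c : Fin r → ℂ | c ∈ Set.univ ∧ (diagonal c).det ≠ 0} ∧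
      RS (x σ.b * diagonal c)} :=
    bas_rs (Bas.univ.of_reg RegF.id.diagonal.det) ((RegF.const _).mul RegF.id.diagonal)
  have key : ∀ (m : ℕ) (c : Fin r → ℂ), (diagonal c).det ≠ 0 → RS (x σ.b * diagonal c) →
      (n * diagonal d * (x σ.b * diagonal c) ^ m).trace = 0 := by
    intro m c hc hc'
    have h1 : Function.update x σ.b (x σ.b * diagonal c) ∈ UU r J := by
      intro k
      by_cases hk : k = σ.b
      · rw [hk, Function.update_self]; exact det_mul_ne hB hc
      · rw [Function.update_of_ne hk]; exact hx k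
    have h2 := hZ.mb.flow h1 (by rwa [Function.update_self]) m
    obtain ⟨v, hv, hv'⟩ := hZ.ma.conj σ.ab.symm hx (hxa ▸ rs_diagonal hd)
      (hxa ▸ inA_diagonal hd c) hc h2
    rw [Function.update_self, Function.update_of_ne σ.ab, hxa] at hv'
    have h3 : v = Pi.single σ.a (diagonal d * (x σ.b * diagonal c) ^ m)
        + Pi.single σ.b (v σ.b) := by
      funext k
      by_cases hk : k = σ.b
      · rw [hk, Pi.add_apply, Pi.single_eq_same, Pi.single_eq_of_ne σ.ab.symm, zero_add]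
      · rw [Pi.add_apply, Pi.single_eq_of_ne hk, add_zero, hv' k hk]
    have h4 := hfl v hv
    rwa [h3, map_add, hb, add_zero, hn', ← mul_assoc] at h4
  obtain ⟨y, hy⟩ := pm_key hB hpm (n * diagonal d) fun m _ c => by
    have hreg : Reg Set.univ fun c : Fin r → ℂ =>
        (n * diagonal d * (x σ.b * diagonal c) ^ m).trace :=
      ((RegF.const _).mul (((RegF.const _).mul RegF.id.diagonal).pow m)).trace
    refine hreg.eq_zero_of_eventually (x := fun _ => 1) univ_mem ?_ (Set.mem_univ c)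
    filter_upwards [hU.mem_nhds (x := fun _ => 1) ⟨⟨trivial, by simp⟩, by simpa using hRS⟩]
      with c hc
    exact key m c hc.1.2 hc.2
  have e : n = (diagonal y - x σ.b * diagonal y * (x σ.b)⁻¹) * (diagonal d)⁻¹ := by
    rw [← hy, mul_assoc, mul_inv'' hA, mul_one]
  have h0 := mm_g3 hd hd0 hB hM y fun w hw0 => by rw [← e, ← hn', hw w hw0]
  rw [hn', e, h0, zero_mul, zero_mul, trace_zero]

end Vale.Agent.P002
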