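import Vale.Agent.P002.Dirich
import Vale.Agent.P002.PowInt
import Vale.Agent.P002.RS

set_option linter.unusedVariables false

namespace Vale.Agent.P002

open Matrix Filter Topology

variable {r : ℕ}

open Polynomial in
theorem torusel_int {P : Mat r} (hP : P.det ≠ 0) {θ : Fin r → ℂ} (h : ∀ i, IsIntegral ℤ (θ i)) :
    IsIntegral ℤ (P * diagonal θ * P⁻¹) := by
  choose q hq hq0 using h
  refine ⟨∏ i, q i, monic_prod_of_monic _ _ fun i _ => hq i, ?_⟩
  have h1 := aeval_conj_diag hP θ ((∏ i, q i).map (algebraMap ℤ ℂ))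
  rw [aeval_map_algebraMap] at h1
  have h2 : (fun i => ((∏ i, q i).map (algebraMap ℤ ℂ)).eval (θ i)) = fun _ => 0 := by
    funext i
    rw [Polynomial.map_prod, eval_prod]
    exact Finset.prod_eq_zero (Finset.mem_univ i) (by rw [eval_map, hq0])
  rw [h2, diagonal_zero, mul_zero, zero_mul] at h1
  exact h1

theorem torusel_pow {P : Mat r} (hP : P.det ≠ 0) (θ : Fin r → ℂ) (k : ℕ) :
    (P * diagonal θ * P⁻¹) ^ k = P * diagonal (fun i => θ i ^ k) * P⁻¹ := by
  simpa using aeval_conj_diag hP θ (Polynomial.X ^ k)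

theorem torusel_inv {P : Mat r} (hP : P.det ≠ 0) {θ : Fin r → ℂ} (h : ∀ i, θ i ≠ 0) :
    (P * diagonal θ * P⁻¹)⁻¹ = P * diagonal (fun i => (θ i)⁻¹) * P⁻¹ := by
  refine Matrix.inv_eq_right_inv ?_
  have h1 : diagonal θ * diagonal (fun i => (θ i)⁻¹) = 1 := by
    rw [diagonal_mul_diagonal, ← diagonal_one]
    exact congrArg diagonal (funext fun i => mul_inv_cancel₀ (h i))
  simp only [mul_assoc, imc hP]
  rw [← mul_assoc (diagonal θ), h1, one_mul, mul_inv'' hP]

theorem torusel_det {P : Mat r} (hP : P.det ≠ 0) (θ : Fin r → ℂ) :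
    (P * diagonal θ * P⁻¹).det = ∏ i, θ i := by
  rw [det_mul_comm, imc hP, det_diagonal]

/-- from integral eigenvalues to an element of the group -/
theorem torusel_gp {L : IntermediateField ℚ ℂ} [FiniteDimensional ℚ L] {P : Mat r}
    (hP : P.det ≠ 0) {θ : Fin r → ℂ} (h0 : ∀ i, θ i ≠ 0) (h1 : ∀ i, IsIntegral ℤ (θ i))
    (h2 : ∀ i, IsIntegral ℤ (θ i)⁻¹) (tL : Matrix (Fin r) (Fin r) L)
    (ht : (Algebra.ofId L ℂ).mapMatrix tL = P * diagonal θ * P⁻¹) :
    ∃ N : ℕ, 0 < N ∧ Gp L (P * diagonal (fun i => θ i ^ (N * r)) * P⁻¹) := by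
  have hm : ∀ k i j, ((P * diagonal θ * P⁻¹) ^ k) i j ∈ L := fun k i j => by
    rw [← ht, ← map_pow]
    exact ((tL ^ k) i j).2
  have hd : (P * diagonal θ * P⁻¹).det ≠ 0 := by
    rw [torusel_det hP]
    exact Finset.prod_ne_zero_iff.2 fun i _ => h0 i
  obtain ⟨N, hN, a1, -⟩ := exists_pow_int L _ hd (by simpa using hm 1) (torusel_int hP h1)
    (by rw [torusel_inv hP h0]; exact torusel_int hP h2)
  refine ⟨N, hN, ?_⟩
  rw [← torusel_pow hP, pow_mul]
  refine gp_pow (hm N) a1 (by rw [det_pow]; exact pow_ne_zero _ hd) ?_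
  rw [det_pow, torusel_det hP, ← inv_pow, ← Finset.prod_inv_distrib]
  exact (IsIntegral.prod _ fun i _ => h2 i).pow N

open Polynomial IntermediateField in
/-- a unit whose conjugates violate the relation -/
theorem torusel_unit {L : IntermediateField ℚ ℂ} (hL : Good L r) {d : Fin r → ℂ}
    (hd : Function.Injective d) {i₀ : Fin r} (hi : IsIntegral L (d i₀)) (m : Fin r → ℤ)
    (hm : m i₀ ≠ 0) : ∃ p : L[X], (∀ i, aeval (d i) (minpoly L (d i₀)) = 0 → aeval (d i) p ≠ 0 ∧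
      IsIntegral ℤ (aeval (d i) p) ∧ IsIntegral ℤ (aeval (d i) p)⁻¹) ∧
      ∏ i : {i // aeval (d i) (minpoly L (d i₀)) = 0}, ‖aeval (d i.1) p‖ ^ m i.1 ≠ 1 := by
  obtain ⟨hfd, ⟨ζ, hζL, hζ⟩, -⟩ := hL
  have : NumberField L := {}
  have := adjoin.finiteDimensional hi
  have : NumberField L⟮d i₀⟯ := NumberField.of_module_finite L _
  obtain ⟨pb, hpb⟩ : ∃ pb : PowerBasis L L⟮d i₀⟯, minpoly L pb.gen = minpoly L (d i₀) :=
    ⟨adjoin.powerBasis hi, minpoly_gen L _⟩
  obtain ⟨e, he⟩ : ∃ e : {i // aeval (d i) (minpoly L (d i₀)) = 0} → (L⟮d i₀⟯ →ₐ[L] ℂ),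
      ∀ i, e i pb.gen = d i.1 :=
    ⟨fun i => pb.lift (d i.1) (by rw [hpb]; exact i.2), fun i => pb.lift_gen _ _⟩
  have h1 : IsPrimitiveRoot (⟨ζ, hζL⟩ : L) 5 :=
    IsPrimitiveRoot.of_map_of_injective (f := algebraMap L ℂ) hζ (algebraMap L ℂ).injective
  by_contra hc
  refine hm (congrFun (dirichlet_indep L⟮d i₀⟯ (algebraMap L _ ⟨ζ, hζL⟩)
    (h1.map_of_injective (algebraMap L _).injective) (fun i => (e i).toRingHom)
    (fun i j h => Subtype.ext (hd ?_)) (fun i j => ?_) (fun i => m i.1) fun u h0 u1 u2 => ?_)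
    ⟨i₀, minpoly.aeval L _⟩)
  · rw [← he, ← he]
    exact RingHom.congr_fun h pb.gen
  · exact ((e i).commutes _).trans ((e j).commutes _).symm
  · obtain ⟨p, rfl⟩ := pb.exists_eq_aeval' u
    have h2 : ∀ i, (e i).toRingHom (aeval pb.gen p) = aeval (d i.1) p := fun i => by
      rw [← he, aeval_algHom_apply]
      rfl
    by_contra h3
    refine hc ⟨p, fun i hi => ?_, by simpa only [h2] using h3⟩
    rw [← h2 ⟨i, hi⟩, ← map_inv₀]
    exact ⟨(_root_.map_ne_zero _).2 h0, u1.map (e ⟨i, hi⟩).toRingHom.toIntAlgHom,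
      u2.map (e ⟨i, hi⟩).toRingHom.toIntAlgHom⟩

/-- Hint: pick `i₀` with `m i₀ ≠ 0`, `K = L⟮d i₀⟯` (a number field), `f = minpoly L (d i₀)`,
`I = {i | aeval (d i) f = 0}`, embeddings `e i : K →ₐ[L] ℂ` with `gen ↦ d i` for `i ∈ I`
(`IntermediateField.algHomAdjoinIntegralEquiv` or `PowerBasis.lift`). `dirichlet_indep` gives a
unit `u = p (gen)`, `p : L[X]`, with `∏_{i ∈ I} ‖e i u‖ ^ m i ≠ 1`. The characteristic polynomial
`χ` of `C` viewed over `L` maps to `∏ (X - d i)`; write `χ = f g`, then `g (d i) = 0` for `i ∉ I`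
and `g (d i₀) ≠ 0`, so `a f + b g = 1`. With `p₀ = p b g + a f` the matrix `t = p₀ (C)` has entries
in `L` and equals `P * diagonal θ * P⁻¹` with `θ i = e i u` on `I` and `1` off `I`
(`aeval_conj_diag`); `t` and `t⁻¹` are killed by `(X - 1) * q` with `q` a monic integer polynomial
for `u` resp. `u⁻¹`. Take `v = θ ^ (N * r)` (`exists_pow_int`, `gp_pow`). -/
theorem exists_torus_el {L : IntermediateField ℚ ℂ} (hL : Good L r) {P : Mat r} {d : Fin r → ℂ}
    (hP : P.det ≠ 0) (hd : Function.Injective d) (hC : IntSL L (P * diagonal d * P⁻¹))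
    (m : Fin r → ℤ) (hm : m ≠ 0) :
    ∃ v : Fin r → ℂ, Gp L (P * diagonal v * P⁻¹) ∧ ∏ i, v i ^ m i ≠ 1 := by
  have := hL.1
  obtain ⟨i₀, hi₀⟩ := Function.ne_iff.1 hm
  obtain ⟨CL, hCL⟩ : ∃ CL : Matrix (Fin r) (Fin r) L,
      (Algebra.ofId L ℂ).mapMatrix CL = P * diagonal d * P⁻¹ :=
    ⟨Matrix.of fun i j => ⟨_, hC.1 i j⟩, rfl⟩
  have hχ : CL.charpoly.map (algebraMap L ℂ) = ∏ i, (Polynomial.X - Polynomial.C (d i)) := by
    rw [← Matrix.charpoly_map, ← charpoly_diagonal]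
    refine (congrArg Matrix.charpoly hCL).trans ?_
    rw [charpoly_mul_comm, imc hP]
  have hroot : ∀ i, Polynomial.aeval (d i) CL.charpoly = 0 := fun i => by
    rw [← Polynomial.eval_map_algebraMap, hχ, Polynomial.eval_prod]
    exact Finset.prod_eq_zero (Finset.mem_univ i) (by simp)
  have hsep : CL.charpoly.Separable := by
    rw [← Polynomial.separable_map (algebraMap L ℂ), hχ]
    exact Polynomial.separable_prod_X_sub_C_iff.2 hd
  obtain ⟨g, hg⟩ := minpoly.dvd L (d i₀) (hroot i₀)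
  rw [hg] at hsep hroot
  obtain ⟨a, b, hab⟩ := hsep.isCoprime
  obtain ⟨p, hp1, hp2⟩ := torusel_unit hL hd ⟨_, CL.charpoly_monic, hg ▸ hroot i₀⟩ m hi₀
  generalize minpoly L (d i₀) = f at hroot hab hp1 hp2
  obtain ⟨θ, hθ⟩ : ∃ θ : Fin r → ℂ, θ = fun i => Polynomial.aeval (d i) (p * (b * g) + a * f) :=
    ⟨_, rfl⟩
  have hab' : ∀ i, Polynomial.aeval (d i) (a * f) + Polynomial.aeval (d i) (b * g) = 1 :=
    fun i => by rw [← map_add, hab, map_one]
  have h1 : ∀ i, Polynomial.aeval (d i) f = 0 → θ i = Polynomial.aeval (d i) p := fun i h => by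
    have := hab' i
    rw [map_mul, h, mul_zero, zero_add] at this
    rw [hθ]
    beta_reduce
    rw [map_add, map_mul, this, map_mul, h, mul_zero, add_zero, mul_one]
  have h2 : ∀ i, ¬ Polynomial.aeval (d i) f = 0 → θ i = 1 := fun i h => by
    have e := hroot i
    rw [map_mul] at e
    have e2 : Polynomial.aeval (d i) (b * g) = 0 := by
      rw [map_mul, (mul_eq_zero.1 e).resolve_left h, mul_zero]
    have := hab' i
    rw [e2, add_zero] at this
    rw [hθ]
    beta_reduce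
    rw [map_add, map_mul, this, e2, mul_zero, zero_add]
  have h3 : ∀ i, θ i ≠ 0 ∧ IsIntegral ℤ (θ i) ∧ IsIntegral ℤ (θ i)⁻¹ := fun i => by
    by_cases h : Polynomial.aeval (d i) f = 0
    · rw [h1 i h]
      exact hp1 i h
    · rw [h2 i h, inv_one]
      exact ⟨one_ne_zero, isIntegral_one, isIntegral_one⟩
  obtain ⟨N, hN, hG⟩ := torusel_gp hP (fun i => (h3 i).1) (fun i => (h3 i).2.1)
    (fun i => (h3 i).2.2) (Polynomial.aeval CL (p * (b * g) + a * f)) (by
      rw [← Polynomial.aeval_algHom_apply, hCL, ← Polynomial.aeval_map_algebraMap ℂ,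
        aeval_conj_diag hP, hθ]
      simp only [Polynomial.eval_map_algebraMap])
  refine ⟨_, hG, fun h => hp2 ?_⟩
  have h4 : (∏ i, ‖θ i‖ ^ m i) ^ (N * r) = 1 := by
    have := congrArg norm h
    rw [norm_prod, norm_one] at this
    rw [← this, ← Finset.prod_pow]
    refine Finset.prod_congr rfl fun i _ => ?_
    rw [norm_zpow, norm_pow, ← zpow_natCast, ← zpow_natCast, ← _root_.zpow_mul, ← _root_.zpow_mul,
      mul_comm]
  rw [pow_eq_one_iff_of_nonneg (Finset.prod_nonneg fun i _ => by positivity)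
    (Nat.mul_pos hN i₀.pos).ne',
    ← Fintype.prod_subtype_mul_prod_subtype fun i => Polynomial.aeval (d i) f = 0,
    Finset.prod_eq_one (s := Finset.univ) (f := fun i : {i // ¬ Polynomial.aeval (d i) f = 0} =>
      ‖θ i.1‖ ^ m i.1) fun i _ => by rw [h2 i.1 i.2, norm_one, _root_.one_zpow], mul_one] at h4
  rw [← h4]
  exact Finset.prod_congr rfl fun i _ => by rw [h1 i.1 i.2]

end Vale.Agent.P002
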